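import Mathlib

/-!
# A small imperative language for randomized algorithms, with bit cost

The machine has finitely many named two-dimensional arrays of integers (array number `a`, cell
`(i, j)`); a scalar variable is an array of which only the cell `(0, 0)` is used.  A program is a
fixed finite text built from assignments, fair coin flips, sequencing, conditionals and counted
loops.  The running time is the logarithmic (bit) cost: every value computed or moved is charged
its bit length, and a multiplication or division is charged the product of the two bit lengths.
-/

namespace Vale.Agent.P328RAM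

/-- The memory: the content of the cell `(i, j)` of the array number `a`. -/
abbrev Mem := ℕ → ℤ → ℤ → ℤ

/-- The number of bits charged for an integer (its binary length, plus one). -/
def bits (z : ℤ) : ℕ := Nat.size z.natAbs + 1

/-- Integer expressions. -/
inductive Expr where
  /-- an integer constant -/
  | lit (k : ℤ)
  /-- the content of the cell `(i, j)` of the array `a` -/
  | get (a : ℕ) (i j : Expr)
  /-- sum -/
  | add (e f : Expr)
  /-- difference -/
  | sub (e f : Expr)
  /-- product -/
  | mul (e f : Expr)
  /-- quotient, rounded down for a positive divisor -/
  | div (e f : Expr)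
  /-- number of binary digits of the absolute value -/
  | size (e : Expr)

/-- The value of an expression in a memory. -/
def Expr.val (M : Mem) : Expr → ℤ
  | .lit k => k
  | .get a i j => M a (i.val M) (j.val M)
  | .add e f => e.val M + f.val M
  | .sub e f => e.val M - f.val M
  | .mul e f => e.val M * f.val M
  | .div e f => e.val M / f.val M
  | .size e => ((e.val M).natAbs.size : ℤ)

/-- The time needed to evaluate an expression. -/
def Expr.cost (M : Mem) : Expr → ℕ
  | .lit k => bits k
  | .get a i j => i.cost M + j.cost M + bits (M a (i.val M) (j.val M))
  | .add e f => e.cost M + f.cost M + bits (e.val M + f.val M)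
  | .sub e f => e.cost M + f.cost M + bits (e.val M - f.val M)
  | .mul e f => e.cost M + f.cost M + bits (e.val M) * bits (f.val M)
  | .div e f => e.cost M + f.cost M + bits (e.val M) * bits (f.val M)
  | .size e => e.cost M + bits (e.val M)

/-- Commands. -/
inductive Cmd where
  /-- store the value of `e` in the cell `(i, j)` of the array `a` -/
  | set (a : ℕ) (i j e : Expr)
  /-- store the outcome (`0` or `1`) of a fair coin flip in the cell `(0, 0)` of the array `a` -/
  | flip (a : ℕ)
  /-- first `c`, then `d` -/
  | seq (c d : Cmd)
  /-- if `e` is positive then `c`, otherwise `d` -/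
  | ite (e : Expr) (c d : Cmd)
  /-- evaluate `e` once, to `k`, and then run `c` exactly `k` times (not at all if `k` is negative) -/
  | rep (e : Expr) (c : Cmd)

/-- The memory `M` with the cell `(i, j)` of the array `a` replaced by `z`. -/
def Mem.write (M : Mem) (a : ℕ) (i j z : ℤ) : Mem :=
  fun b k l => if b = a ∧ k = i ∧ l = j then z else M b k l

/-- The law of a fair coin, as an integer `0` or `1`. -/
noncomputable def coin : PMF ℤ := (PMF.uniformOfFintype Bool).map fun b => if b then 1 else 0

/-- Repeat a random map `k` times. -/
noncomputable def iterBind {α : Type} (f : α → PMF α) : ℕ → α → PMF α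
  | 0, s => PMF.pure s
  | k + 1, s => (f s).bind (iterBind f k)

/-- The semantics: a state is a memory with the time used so far; running a command in a state
gives a random state. -/
noncomputable def Cmd.run : Cmd → Mem × ℕ → PMF (Mem × ℕ)
  | .set a i j e, s =>
      PMF.pure (s.1.write a (i.val s.1) (j.val s.1) (e.val s.1),
        s.2 + i.cost s.1 + j.cost s.1 + e.cost s.1 + 1)
  | .flip a, s => coin.map fun z => (s.1.write a 0 0 z, s.2 + 1)
  | .seq c d, s => (c.run s).bind d.run
  | .ite e c d, s =>
      if 0 < e.val s.1 then c.run (s.1, s.2 + e.cost s.1 + 1) else d.run (s.1, s.2 + e.cost s.1 + 1)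
  | .rep e c, s =>
      iterBind (fun s' => c.run (s'.1, s'.2 + 1)) (e.val s.1).toNat (s.1, s.2 + e.cost s.1 + 1)

end Vale.Agent.P328RAM
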