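import Vale.Agent.P328RAM.Logic

/-!
# Small program library for the language of `Lang.lean`
-/

namespace Vale.Agent.P328RAM

open PMF

variable {W Λ : ℕ} {σ τ : Type}

/-! ## Memory -/

theorem Mem.write_apply (M : Mem) (a : ℕ) (i j z : ℤ) (b : ℕ) (k l : ℤ) :
    M.write a i j z b k l = if b = a ∧ k = i ∧ l = j then z else M b k l := rfl

@[simp] theorem Mem.write_self (M : Mem) (a : ℕ) (i j z : ℤ) : M.write a i j z a i j = z := by
  simp [Mem.write]

theorem Mem.write_arr (M : Mem) {a b : ℕ} (h : b ≠ a) (i j z : ℤ) :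
    M.write a i j z b = M b := by
  funext k l
  simp [Mem.write, h]

theorem Mem.write_cell (M : Mem) (a : ℕ) {i j k l : ℤ} (h : ¬ (k = i ∧ l = j)) (z : ℤ) :
    M.write a i j z a k l = M a k l := by
  simp [Mem.write, h]

theorem Mem.write_write (M : Mem) (a : ℕ) (i j z w : ℤ) :
    (M.write a i j z).write a i j w = M.write a i j w := by
  funext b k l
  simp only [Mem.write]
  split_ifs <;> rfl

theorem Mem.write_eq_self (M : Mem) (a : ℕ) (i j : ℤ) : M.write a i j (M a i j) = M := by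
  funext b k l
  simp only [Mem.write]
  split_ifs with h
  · rw [h.1, h.2.1, h.2.2]
  · rfl

/-! ## Abbreviations -/

/-- the scalar variable number `a` -/
abbrev Expr.v (a : ℕ) : Expr := .get a (.lit 0) (.lit 0)

/-- the entry `a[i]` (column `0`) -/
abbrev Expr.at1 (a : ℕ) (i : Expr) : Expr := .get a i (.lit 0)

/-- assignment to a scalar variable -/
abbrev Cmd.setv (a : ℕ) (e : Expr) : Cmd := .set a (.lit 0) (.lit 0) e

/-- `if e > 0 then c` -/
def Cmd.when (e : Expr) (c : Cmd) : Cmd := .ite e c (.rep (.lit 0) c)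

/-- `for i := 0 to e - 1 do c` (`e` is evaluated once, after `i := 0`; the body may not change `i`) -/
def Cmd.forL (i : ℕ) (e : Expr) (c : Cmd) : Cmd :=
  .seq (.setv i (.lit 0)) (.rep e (.seq c (.setv i (.add (.v i) (.lit 1)))))

@[simp] theorem Cmd.Wr_setv (a : ℕ) (e : Expr) : (Cmd.setv a e).Wr = [a] := rfl

@[simp] theorem Cmd.Wr_when (e : Expr) (c : Cmd) : (Cmd.when e c).Wr = c.Wr ++ c.Wr := rfl

@[simp] theorem Cmd.Wr_forL (i : ℕ) (e : Expr) (c : Cmd) :
    (Cmd.forL i e c).Wr = i :: (c.Wr ++ [i]) := rfl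

@[simp] theorem Cmd.Wr_seq (c d : Cmd) : (Cmd.seq c d).Wr = c.Wr ++ d.Wr := rfl

@[simp] theorem Cmd.Wr_ite (e : Expr) (c d : Cmd) : (Cmd.ite e c d).Wr = c.Wr ++ d.Wr := rfl

@[simp] theorem Cmd.Wr_rep (e : Expr) (c : Cmd) : (Cmd.rep e c).Wr = c.Wr := rfl

@[simp] theorem Cmd.Wr_flip (a : ℕ) : (Cmd.flip a).Wr = [a] := rfl

@[simp] theorem Cmd.Wr_set (a : ℕ) (i j e : Expr) : (Cmd.set a i j e).Wr = [a] := rfl

/-! ## Rules -/

theorem Det.setv {M : Mem} {Q : Mem → Prop} {a : ℕ} {e : Expr}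
    (hW : |e.val M| ≤ (W : ℤ)) (hQ : Q (M.write a 0 0 (e.val M))) :
    Det W Λ (.setv a e) M Q := Det.set hW hQ

/-- doing nothing -/
theorem Det.rep_zero {M : Mem} {Q : Mem → Prop} {c : Cmd} (hQ : Q M) :
    Det W Λ (.rep (.lit 0) c) M Q :=
  Det.rep (fun _ => Q) 0 rfl (Nat.zero_le _) hQ (fun _ hi => absurd hi (Nat.not_lt_zero _))
    (fun _ h => h)

theorem Det.when {M : Mem} {Q : Mem → Prop} {e : Expr} {c : Cmd}
    (hc : 0 < e.val M → Det W Λ c M Q) (hd : e.val M ≤ 0 → Q M) :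
    Det W Λ (.when e c) M Q :=
  Det.ite hc fun h => Det.rep_zero (hd h)

theorem Sim.when {M : Mem} {Q : Mem → Prop} {e : Expr} {c : Cmd} {f : Mem → σ} {μ : PMF σ}
    (hc : 0 < e.val M → Sim W Λ c M f μ Q) (hd : e.val M ≤ 0 → Q M ∧ μ = PMF.pure (f M)) :
    Sim W Λ (.when e c) M f μ Q := by
  refine Sim.ite hc fun h => ?_
  obtain ⟨h1, h2⟩ := hd h
  rw [h2]
  have h3 : Det W Λ (.rep (.lit 0) c) M (fun M' => M' = M ∧ Q M) := Det.rep_zero ⟨rfl, h1⟩
  have h4 := h3.sim (f := f) (x := f M) (fun M' h => by rw [h.1])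
  exact h4.mono fun M' h => by rw [h.1]; exact h1

/-- The rule for `for` loops, general form. -/
theorem Det.forL_gen {M : Mem} {Q : Mem → Prop} {i : ℕ} {e : Expr} {c : Cmd}
    (I : ℕ → Mem → Prop) (k : ℕ)
    (hk : (e.val (M.write i 0 0 0)).toNat = k) (hΛ : k ≤ Λ) (hW : k ≤ W)
    (h0 : I 0 (M.write i 0 0 0))
    (hI : ∀ l < k, ∀ M' : Mem, M' i 0 0 = (l : ℤ) → I l M' →
      Det W Λ c M' (fun M'' => M'' i 0 0 = (l : ℤ) ∧ I (l + 1) (M''.write i 0 0 ((l : ℤ) + 1))))
    (hQ : ∀ M' : Mem, M' i 0 0 = (k : ℤ) → I k M' → Q M') : Det W Λ (.forL i e c) M Q := by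
  refine Det.seq (R := fun M' => M' = M.write i 0 0 0)
    (Det.setv (by simp [Expr.val]) (by simp [Expr.val])) ?_
  rintro M1 rfl
  refine Det.rep (fun (l : ℕ) (M' : Mem) => M' i 0 0 = (l : ℤ) ∧ I l M') k hk hΛ ⟨by simp, h0⟩ ?_
    (fun M' h => hQ M' h.1 h.2)
  rintro l hl M' ⟨h1, h2⟩
  refine Det.seq (hI l hl M' h1 h2) ?_
  rintro M2 ⟨h3, h4⟩
  have hv : (Expr.add (.v i) (.lit 1)).val M2 = (l : ℤ) + 1 := by simp [Expr.val, h3]
  refine Det.setv ?_ ?_
  · rw [hv, abs_of_nonneg (by positivity)]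
    have : l + 1 ≤ W := by omega
    exact_mod_cast this
  · rw [hv]
    exact ⟨by simp, by simpa using h4⟩

/-- The rule for `for` loops: the body does not write the counter and the invariant does not look
at the counter. -/
theorem Det.forL {M : Mem} {Q : Mem → Prop} {i : ℕ} {e : Expr} {c : Cmd}
    (I : ℕ → Mem → Prop) (k : ℕ)
    (hk : (e.val (M.write i 0 0 0)).toNat = k) (hΛ : k ≤ Λ) (hW : k ≤ W) (hi : i ∉ c.Wr)
    (hst : ∀ l M' z, I l M' → I l (M'.write i 0 0 z)) (h0 : I 0 M)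
    (hI : ∀ l < k, ∀ M' : Mem, M' i 0 0 = (l : ℤ) → I l M' → Det W Λ c M' (I (l + 1)))
    (hQ : ∀ M' : Mem, M' i 0 0 = (k : ℤ) → I k M' → Q M') : Det W Λ (.forL i e c) M Q := by
  refine Det.forL_gen I k hk hΛ hW (hst _ _ _ h0) ?_ hQ
  intro l hl M' h1 h2
  refine (hI l hl M' h1 h2).fr.mono ?_
  rintro M2 ⟨h3, h4⟩
  refine ⟨?_, hst _ _ _ h3⟩
  rw [h4 i hi]
  exact h1

/-- Apply the kernels `κ 0, κ 1, …, κ (k - 1)` in this order. -/
noncomputable def seqBind {α : Type} (κ : ℕ → α → PMF α) : ℕ → α → PMF α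
  | 0, s => PMF.pure s
  | k + 1, s => (seqBind κ k s).bind (κ k)

theorem seqBind_succ' {α : Type} (κ : ℕ → α → PMF α) (k : ℕ) (s : α) :
    seqBind κ (k + 1) s = (κ 0 s).bind (seqBind (fun i => κ (i + 1)) k) := by
  induction k generalizing s with
  | zero =>
      simp only [seqBind, PMF.pure_bind]
      exact (PMF.bind_pure _).symm
  | succ k ih =>
      rw [seqBind, ih, PMF.bind_bind]
      rfl

theorem iterBind_succ' {α : Type} (κ : α → PMF α) (k : ℕ) (s : α) :
    iterBind κ (k + 1) s = (iterBind κ k s).bind κ := by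
  induction k generalizing s with
  | zero =>
      simp only [iterBind, PMF.pure_bind]
      exact PMF.bind_pure _
  | succ k ih =>
      rw [iterBind]
      have : (iterBind κ (k + 1) s).bind κ = (κ s).bind fun x => (iterBind κ k x).bind κ := by
        rw [iterBind, PMF.bind_bind]
      rw [this]
      refine bind_congr_support fun x _ => ih x

theorem seqBind_const {α : Type} (κ : α → PMF α) (k : ℕ) (s : α) :
    seqBind (fun _ => κ) k s = iterBind κ k s := by
  induction k with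
  | zero => rfl
  | succ k ih => rw [iterBind_succ', seqBind, ih]

/-- The rule for random loops with kernels depending on the round. -/
theorem Sim.repIdx {M : Mem} {Q : Mem → Prop} {e : Expr} {c : Cmd} {f : Mem → σ}
    (κ : ℕ → σ → PMF σ) (I : ℕ → Mem → Prop) (k : ℕ)
    (hk : (e.val M).toNat = k) (hΛ : k ≤ Λ) (h0 : I 0 M)
    (hI : ∀ i < k, ∀ M', I i M' → Sim W Λ c M' f (κ i (f M')) (I (i + 1)))
    (hQ : ∀ M', I k M' → Q M') : Sim W Λ (.rep e c) M f (seqBind κ k (f M)) Q := by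
  intro hB t
  have key : ∀ (j : ℕ) (M' : Mem) (t' : ℕ), j ≤ k → I (k - j) M' → Bdd W M' →
      (iterBind (fun s' => c.run (s'.1, s'.2 + 1)) j (M', t')).map (fun s => f s.1)
        = seqBind (fun i => κ (k - j + i)) j (f M') ∧
      ∀ s ∈ (iterBind (fun s' => c.run (s'.1, s'.2 + 1)) j (M', t')).support,
        I k s.1 ∧ Bdd W s.1 ∧ s.2 ≤ t' + j * (c.T W Λ + 1) := by
    intro j
    induction j with
    | zero =>
        intro M' t' _ h1 h2
        simp only [iterBind, seqBind]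
        refine ⟨by rw [PMF.pure_map], ?_⟩
        intro s hs
        rw [PMF.mem_support_pure_iff] at hs
        subst hs
        exact ⟨by simpa using h1, h2, by simp⟩
    | succ j ih =>
        intro M' t' hj h1 h2
        obtain ⟨g1, g2⟩ := hI (k - (j + 1)) (by omega) M' h1 h2 (t' + 1)
        rw [show k - (j + 1) + 1 = k - j by omega] at g2
        rw [seqBind_succ']
        simp only [iterBind]
        refine ⟨?_, ?_⟩
        · rw [PMF.map_bind]
          simp only [Nat.add_zero]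
          rw [← g1, PMF.bind_map]
          refine bind_congr_support fun s hs => ?_
          obtain ⟨e1, e2, e3⟩ := g2 s hs
          have := (ih s.1 s.2 (by omega) e1 e2).1
          simp only [Function.comp]
          rw [this]
          congr 1
          funext i
          rw [show k - j + i = k - (j + 1) + (i + 1) by omega]
        · intro s' hs'
          rw [PMF.mem_support_bind_iff] at hs'
          obtain ⟨s, hs, hs'⟩ := hs'
          obtain ⟨e1, e2, e3⟩ := g2 s hs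
          obtain ⟨q1, q2, q3⟩ := (ih s.1 s.2 (by omega) e1 e2).2 s' hs'
          refine ⟨q1, q2, ?_⟩
          rw [add_mul, one_mul]
          omega
  obtain ⟨g1, g2⟩ := key k M (t + e.cost M + 1) le_rfl (by simpa using h0) hB
  have hrun : (Cmd.rep e c).run (M, t)
      = iterBind (fun s' => c.run (s'.1, s'.2 + 1)) k (M, t + e.cost M + 1) := by
    simp only [Cmd.run, hk]
  rw [hrun]
  refine ⟨?_, fun s hs => ⟨hQ _ (g2 s hs).1, (g2 s hs).2.1, ?_⟩⟩
  · rw [g1]
    simp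
  have h3 := e.cost_le hB
  have h4 : 1 ≤ bits (W : ℤ) ^ 2 := Nat.one_le_pow _ _ (one_le_bits _)
  have h5 : k * (c.T W Λ + 1) ≤ Λ * (c.T W Λ + 1) := Nat.mul_le_mul_right _ hΛ
  have h6 := (g2 s hs).2.2
  simp only [Cmd.T]
  nlinarith

/-- sequencing before a deterministic command that does not change the observation -/
theorem Sim.seqDet {M : Mem} {Q R : Mem → Prop} {c d : Cmd} {f : Mem → σ} {g : Mem → σ}
    {μ : PMF σ} (hc : Sim W Λ c M f μ R)
    (hd : ∀ M', R M' → Det W Λ d M' (fun M'' => g M'' = f M' ∧ Q M'')) :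
    Sim W Λ (.seq c d) M g μ Q := by
  have h := Sim.seq hc (κ := PMF.pure) (d := d) (g := g) (Q := Q) fun M' hM' =>
    ((hd M' hM').sim (f := g) (x := f M') (fun M'' h => h.1)).mono fun M'' h => h.2
  rwa [PMF.bind_pure] at h

/-- The rule for random `for` loops. -/
theorem Sim.forL {M : Mem} {Q : Mem → Prop} {i : ℕ} {e : Expr} {c : Cmd} {f : Mem → σ}
    (κ : ℕ → σ → PMF σ) (I : ℕ → Mem → Prop) (k : ℕ)
    (hk : (e.val (M.write i 0 0 0)).toNat = k) (hΛ : k ≤ Λ) (hW : k ≤ W) (hi : i ∉ c.Wr)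
    (hf : ∀ M' z, f (M'.write i 0 0 z) = f M')
    (hst : ∀ l M' z, I l M' → I l (M'.write i 0 0 z)) (h0 : I 0 M)
    (hI : ∀ l < k, ∀ M' : Mem, M' i 0 0 = (l : ℤ) → I l M' →
      Sim W Λ c M' f (κ l (f M')) (I (l + 1)))
    (hQ : ∀ M' : Mem, M' i 0 0 = (k : ℤ) → I k M' → Q M') :
    Sim W Λ (.forL i e c) M f (seqBind κ k (f M)) Q := by
  refine Det.seqSim (R := fun M' => M' = M.write i 0 0 0)
    (Det.setv (by simp [Expr.val]) (by simp [Expr.val])) ?_
  rintro M1 rfl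
  have h := Sim.repIdx (W := W) (Λ := Λ) (M := M.write i 0 0 0) (f := f) (e := e)
    (c := .seq c (.setv i (.add (.v i) (.lit 1)))) (Q := Q) κ
    (fun (l : ℕ) (M' : Mem) => M' i 0 0 = (l : ℤ) ∧ I l M') k hk hΛ
    ⟨by simp, hst _ _ _ h0⟩ ?_
    (fun M' h => hQ M' h.1 h.2)
  · rwa [hf] at h
  rintro l hl M' ⟨h1, h2⟩
  refine Sim.seqDet (hI l hl M' h1 h2).fr ?_
  rintro M2 ⟨h3, h4⟩
  have hv : (Expr.add (.v i) (.lit 1)).val M2 = (l : ℤ) + 1 := by
    simp [Expr.val, h4 i hi, h1]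
  refine Det.setv ?_ ?_
  · rw [hv, abs_of_nonneg (by positivity)]
    have : l + 1 ≤ W := by omega
    exact_mod_cast this
  · rw [hv]
    exact ⟨hf _ _, by simp, hst _ _ _ h3⟩

end Vale.Agent.P328RAM
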