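import Vale.Agent.P328RAM.IfMain
import Vale.Agent.P328R.FinalPar

/-!
# From the law of the output of the program to the FPRAS
-/

namespace Vale.Agent.P328RAM

open Vale.Agent.P328R
open scoped ENNReal

variable {m n : ℕ}

/-! ### margins and tables -/

theorem gOf_r (r : Fin m → ℕ) (c : Fin n → ℕ) (i : Fin m) : (gOf r c).r i = r i := by
  simp [gOf]

theorem gOf_c (r : Fin m → ℕ) (c : Fin n → ℕ) (j : Fin n) : (gOf r c).c j = c j := by
  simp [gOf]

theorem gOf_valid (hm : 1 ≤ m) (hn : 1 ≤ n) {r : Fin m → ℕ} {c : Fin n → ℕ}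
    (h : ∑ i, r i = ∑ j, c j) : Valid m n (gOf r c) where
  m_pos := hm
  n_pos := hn
  r_nonneg := by
    intro i hi
    simp [gOf, hi]
  c_nonneg := by
    intro j hj
    simp [gOf, hj]
  sum_eq := by
    simp only [gOf_r, gOf_c]
    exact_mod_cast h

theorem tot_gOf (r : Fin m → ℕ) (c : Fin n → ℕ) : tot m (gOf r c) = ((∑ i, r i : ℕ) : ℤ) := by
  unfold tot
  simp only [gOf_r]
  push_cast
  rfl

theorem card_OmegaF (r : Fin m → ℕ) (c : Fin n → ℕ) :
    (OmegaF (gOf r c) m n).card = (tables r c).ncard := by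
  classical
  set φ : (Fin m → Fin n → ℕ) → Tab m n := fun f e => (f e.1 e.2 : ℤ) with hφ
  have hinj : Function.Injective φ := by
    intro f f' h
    funext i j
    have := congrFun h (i, j)
    simpa [hφ] using this
  have himg : φ '' tables r c = ↑(OmegaF (gOf r c) m n) := by
    ext X
    simp only [Set.mem_image, Finset.mem_coe, mem_OmegaF]
    constructor
    · rintro ⟨f, ⟨h1, h2⟩, rfl⟩
      refine ⟨fun e => by simp [hφ], fun i => ?_, fun j => ?_⟩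
      · rw [gOf_r, ← h1 i]
        simp [rowSum, hφ]
      · rw [gOf_c, ← h2 j]
        simp [colSum, hφ]
    · rintro ⟨h0, h1, h2⟩
      refine ⟨fun i j => (X (i, j)).toNat, ⟨fun i => ?_, fun j => ?_⟩, ?_⟩
      · have h3 := h1 i
        rw [gOf_r] at h3
        have h4 : ((∑ j, (X (i, j)).toNat : ℕ) : ℤ) = r i := by
          rw [← h3]
          push_cast
          unfold rowSum
          exact Finset.sum_congr rfl fun j _ => Int.toNat_of_nonneg (h0 (i, j))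
        exact_mod_cast h4
      · have h3 := h2 j
        rw [gOf_c] at h3
        have h4 : ((∑ i, (X (i, j)).toNat : ℕ) : ℤ) = c j := by
          rw [← h3]
          push_cast
          unfold colSum
          exact Finset.sum_congr rfl fun i _ => Int.toNat_of_nonneg (h0 (i, j))
        exact_mod_cast h4
      · funext e
        simp only [hφ]
        exact Int.toNat_of_nonneg (h0 e)
  rw [← Set.ncard_coe_finset, ← himg, Set.ncard_image_of_injective _ hinj]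

/-! ### the size of the base -/

theorem sum_succ_le_prod {ι : Type} (s : Finset ι) (f : ι → ℕ) :
    ∑ i ∈ s, f i + 1 ≤ ∏ i ∈ s, (f i + 2) := by
  classical
  induction s using Finset.induction_on with
  | empty => simp
  | insert a s ha ih =>
      rw [Finset.sum_insert ha, Finset.prod_insert ha]
      nlinarith [Nat.zero_le (f a), Nat.zero_le (∑ i ∈ s, f i)]

theorem size_le_logb {N : ℕ} {y : ℝ} (h : (N : ℝ) ≤ y) (hy : 1 ≤ y) :
    (Nat.size N : ℝ) ≤ Real.logb 2 y + 1 := by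
  have hl : 0 ≤ Real.logb 2 y := Real.logb_nonneg (by norm_num) hy
  rcases Nat.eq_zero_or_pos (Nat.size N) with h0 | h0
  · rw [h0]; push_cast; linarith
  have h1 : ¬ N < 2 ^ (Nat.size N - 1) := by
    intro h2
    have := Nat.size_le.2 h2
    omega
  push Not at h1
  have h2 : ((2 : ℝ) ^ (Nat.size N - 1)) ≤ N := by exact_mod_cast h1
  have h3 : ((Nat.size N - 1 : ℕ) : ℝ) ≤ Real.logb 2 y := by
    rw [Real.le_logb_iff_rpow_le (by norm_num) (by linarith), Real.rpow_natCast]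
    exact h2.trans h
  have h4 : ((Nat.size N - 1 : ℕ) : ℝ) = (Nat.size N : ℝ) - 1 := by
    rw [Nat.cast_sub h0]; simp
  linarith

theorem one_le_logb (a : ℕ) : 1 ≤ Real.logb 2 ((a : ℝ) + 2) := by
  rw [Real.le_logb_iff_rpow_le (by norm_num) (by positivity)]
  simp

theorem size_sum_le (r : Fin m → ℕ) :
    (Nat.size (∑ i, r i) : ℝ) ≤ ∑ i, Real.logb 2 (r i + 2) + 1 := by
  have h1 : ((∑ i, r i : ℕ) : ℝ) ≤ ∏ i, ((r i : ℝ) + 2) := by
    have h := sum_succ_le_prod Finset.univ r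
    have h' : (∑ i, r i) ≤ ∏ i, (r i + 2) := by omega
    exact_mod_cast h'
  have h2 : (1 : ℝ) ≤ ∏ i, ((r i : ℝ) + 2) := by
    have h := sum_succ_le_prod Finset.univ r
    have h' : 1 ≤ ∏ i, (r i + 2) := by omega
    exact_mod_cast h'
  have h3 := size_le_logb h1 h2
  have h4 : Real.logb 2 (∏ i, ((r i : ℝ) + 2)) = ∑ i, Real.logb 2 (r i + 2) := by
    unfold Real.logb
    rw [Real.log_prod (fun i _ => by positivity), Finset.sum_div]
  rw [h4] at h3
  exact h3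

/-- the total size of the parameters -/
theorem base_le (hm : 1 ≤ m) (hn : 1 ≤ n) (r : Fin m → ℕ) (c : Fin n → ℕ) {ε δ : ℝ}
    (hε : 0 < ε) (hδ : 0 < δ) (hδ1 : δ < 1) :
    (baseX m n (∑ i, r i) ⌈1 / ε⌉₊ (Nat.size ⌈1 / δ⌉₊) : ℝ) ≤
      4 * (inputLen r c + 1 / ε + Real.log (1 / δ)) := by
  have hm' : (1 : ℝ) ≤ m := by exact_mod_cast hm
  have hn' : (1 : ℝ) ≤ n := by exact_mod_cast hn
  have h1 := size_sum_le r
  have h2 : (m : ℝ) ≤ ∑ i, Real.logb 2 (r i + 2) := by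
    have : ∑ _i : Fin m, (1 : ℝ) ≤ ∑ i, Real.logb 2 (r i + 2) :=
      Finset.sum_le_sum fun i _ => one_le_logb (r i)
    simpa using this
  have h3 : (n : ℝ) ≤ ∑ j, Real.logb 2 (c j + 2) := by
    have : ∑ _j : Fin n, (1 : ℝ) ≤ ∑ j, Real.logb 2 (c j + 2) :=
      Finset.sum_le_sum fun j _ => one_le_logb (c j)
    simpa using this
  have h4 : (⌈1 / ε⌉₊ : ℝ) ≤ 1 / ε + 1 := (Nat.ceil_lt_add_one (by positivity)).le
  have hδ' : (1 : ℝ) ≤ 1 / δ := by rw [le_div_iff₀ hδ]; linarith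
  have h5 : (⌈1 / δ⌉₊ : ℝ) ≤ 2 * (1 / δ) := by
    have := (Nat.ceil_lt_add_one (show (0 : ℝ) ≤ 1 / δ by positivity)).le
    linarith
  have h6 := size_le_logb h5 (by linarith)
  have h7 : Real.logb 2 (2 * (1 / δ)) ≤ 1 + 2 * Real.log (1 / δ) := by
    have hl : 0 ≤ Real.log (1 / δ) := Real.log_nonneg hδ'
    have h2' : (1 / 2 : ℝ) < Real.log 2 := by have := Real.log_two_gt_d9; linarith
    rw [Real.logb_mul (by norm_num) (by positivity), Real.logb_self_eq_one (by norm_num)]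
    unfold Real.logb
    have : Real.log (1 / δ) / Real.log 2 ≤ 2 * Real.log (1 / δ) := by
      rw [div_le_iff₀ (by linarith)]
      nlinarith
    linarith
  have hl : 0 ≤ Real.log (1 / δ) := Real.log_nonneg hδ'
  have hε' : 0 < 1 / ε := by positivity
  unfold baseX inputLen
  push_cast
  linarith

/-! ### the final theorem from the two parts -/

/-- what the main program does -/
def MainOK (kT : ℕ) (prog : Cmd) : Prop :=
  ∃ K : ℕ, ∀ (m n : ℕ) (r : Fin m → ℕ) (c : Fin n → ℕ) (a b : ℕ), 1 ≤ m → 1 ≤ n →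
    ∑ i, r i = ∑ j, c j → 1 ≤ a → 1 ≤ b →
    (prog.run (input r c a b, 0)).map (fun s => outOf s.1) = outLaw kT r c a (Nat.size b) ∧
    ∀ s ∈ (prog.run (input r c a b, 0)).support,
      s.2 ≤ K * baseX m n (∑ i, r i) a (Nat.size b) ^ K

theorem prob_ge {α : Type} (μ : PMF α) {G B : Set α} {δ : ℝ} (hδ : 0 ≤ δ) (hsub : Gᶜ ⊆ B)
    (hB : μ.toOuterMeasure B ≤ ENNReal.ofReal δ) : ENNReal.ofReal (1 - δ) ≤ μ.toOuterMeasure G := by
  have h4 : (1 : ℝ≥0∞) ≤ μ.toOuterMeasure G + μ.toOuterMeasure Gᶜ := by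
    have h5 : μ.toOuterMeasure (G ∪ Gᶜ) = 1 := by
      rw [PMF.toOuterMeasure_apply_eq_one_iff, Set.union_compl_self]
      exact Set.subset_univ _
    rw [← h5]
    exact MeasureTheory.measure_union_le _ _
  rw [ENNReal.ofReal_sub _ hδ, ENNReal.ofReal_one, tsub_le_iff_right]
  exact h4.trans (add_le_add le_rfl ((μ.toOuterMeasure.mono hsub).trans hB))

/-- the good event of the pair of integers -/
def goodE (ε Z : ℝ) : Set (ℤ × ℤ) :=
  {z | (1 - ε) * Z ≤ (z.1 : ℝ) / (z.2 : ℝ) ∧ (z.1 : ℝ) / (z.2 : ℝ) ≤ (1 + ε) * Z}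

theorem outLaw_good {kA kT : ℕ} (hF : PhaseFacts kA kT) (hk : kA + 4 ≤ kT)
    (hm : 1 ≤ m) (hn : 1 ≤ n) {r : Fin m → ℕ} {c : Fin n → ℕ} (hrc : ∑ i, r i = ∑ j, c j)
    {a D : ℕ} (ha : 1 ≤ a) {ε δ : ℝ} (hδ : 0 ≤ δ) (hε : 1 / (a : ℝ) ≤ ε)
    (hD : 1 / (2 : ℝ) ^ D ≤ δ) :
    ENNReal.ofReal (1 - δ) ≤
      (outLaw kT r c a D).toOuterMeasure (goodE ε (tables r c).ncard) := by
  have hcf := counts_final hF hk (gOf_valid hm hn hrc) (a := a) (D := D) (tot_gOf r c) ha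
  rw [card_OmegaF] at hcf
  have hZ0 : (0 : ℝ) ≤ ((tables r c).ncard : ℝ) := Nat.cast_nonneg _
  unfold outLaw
  rw [PMF.toOuterMeasure_map_apply]
  refine prob_ge _ hδ ?_ (hcf.trans (ENNReal.ofReal_le_ofReal hD))
  intro cnt hcnt h
  refine hcnt ?_
  rw [Finset.prod_div_distrib, Finset.prod_const, Finset.card_range] at h
  simp only [Set.mem_preimage, goodE, Set.mem_ofPred_eq]
  push_cast
  refine ⟨le_trans ?_ h.1, h.2.trans ?_⟩
  · exact mul_le_mul_of_nonneg_right (by linarith) hZ0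
  · exact mul_le_mul_of_nonneg_right (by linarith) hZ0

theorem inputLen_pos (hm : 1 ≤ m) (r : Fin m → ℕ) (c : Fin n → ℕ) : (1 : ℝ) ≤ inputLen r c := by
  have hm' : (1 : ℝ) ≤ m := by exact_mod_cast hm
  have hn' : (0 : ℝ) ≤ n := by positivity
  have h3 : 0 ≤ ∑ i, Real.logb 2 (r i + 2) :=
    Finset.sum_nonneg fun i _ => zero_le_one.trans (one_le_logb (r i))
  have h4 : 0 ≤ ∑ j, Real.logb 2 (c j + 2) :=
    Finset.sum_nonneg fun j _ => zero_le_one.trans (one_le_logb (c j))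
  unfold inputLen
  linarith

theorem time_le {K X t : ℕ} {Y : ℝ} (hY1 : 1 ≤ Y) (hXY : (X : ℝ) ≤ 4 * Y) (h : t ≤ K * X ^ K) :
    (t : ℝ) ≤ ((K * 4 ^ K + K : ℕ) : ℝ) * Y ^ (K * 4 ^ K + K) := by
  have h3 : (t : ℝ) ≤ K * (X : ℝ) ^ K := by exact_mod_cast h
  have h5 : Y ^ K ≤ Y ^ (K * 4 ^ K + K) := pow_le_pow_right₀ hY1 (by omega)
  have h6 : (X : ℝ) ^ K ≤ (4 * Y) ^ K := pow_le_pow_left₀ (Nat.cast_nonneg _) hXY K
  have hK : (0 : ℝ) ≤ K := Nat.cast_nonneg K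
  calc (t : ℝ) ≤ K * (X : ℝ) ^ K := h3
    _ ≤ K * (4 * Y) ^ K := mul_le_mul_of_nonneg_left h6 hK
    _ = (K * 4 ^ K) * Y ^ K := by rw [mul_pow, mul_assoc]
    _ ≤ ((K * 4 ^ K + K : ℕ) : ℝ) * Y ^ (K * 4 ^ K + K) := by
        refine mul_le_mul ?_ h5 (by positivity) (by positivity)
        push_cast
        linarith

theorem fpras_of {kA kT : ℕ} (hF : PhaseFacts kA kT) (hk : kA + 4 ≤ kT) {prog : Cmd}
    (hM : MainOK kT prog) : IsFPRAS prog := by
  obtain ⟨K, hK⟩ := hM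
  refine ⟨K * 4 ^ K + K, ?_⟩
  intro m n r c hm hn hrc ε δ hε hε1 hδ hδ1
  have hε' : 0 < 1 / ε := by positivity
  have hδ' : (1 : ℝ) ≤ 1 / δ := by rw [le_div_iff₀ hδ]; linarith
  have hl : 0 ≤ Real.log (1 / δ) := Real.log_nonneg hδ'
  have ha : 1 ≤ ⌈1 / ε⌉₊ := Nat.one_le_ceil_iff.2 hε'
  have hb : 1 ≤ ⌈1 / δ⌉₊ := Nat.one_le_ceil_iff.2 (by linarith)
  obtain ⟨h1, h2⟩ := hK m n r c ⌈1 / ε⌉₊ ⌈1 / δ⌉₊ hm hn hrc ha hb
  have hXY := base_le hm hn r c hε hδ hδ1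
  have hL := inputLen_pos hm r c
  constructor
  · intro s hs
    exact time_le (by linarith) hXY (h2 s hs)
  · have hinv : 1 / (⌈1 / ε⌉₊ : ℝ) ≤ ε := by
      have h3 : 1 / ε ≤ ⌈1 / ε⌉₊ := Nat.le_ceil _
      rw [div_le_iff₀ (by exact_mod_cast ha)]
      rw [div_le_iff₀ hε] at h3
      linarith
    have hinvD : 1 / (2 : ℝ) ^ Nat.size ⌈1 / δ⌉₊ ≤ δ := by
      have h3 : 1 / δ ≤ ⌈1 / δ⌉₊ := Nat.le_ceil _
      have h4 : (⌈1 / δ⌉₊ : ℝ) < 2 ^ Nat.size ⌈1 / δ⌉₊ := by exact_mod_cast Nat.lt_size_self _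
      rw [div_le_iff₀ (by positivity)]
      rw [div_le_iff₀ hδ] at h3
      nlinarith
    have h3 := outLaw_good hF hk hm hn hrc ha hδ.le hinv hinvD
    rw [← h1, PMF.toOuterMeasure_map_apply] at h3
    exact h3

end Vale.Agent.P328RAM
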