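import Vale.Agent.P328RAM.Lib

/-!
# Random bits: uniform integers in `[0, 2 ^ b)`
-/

namespace Vale.Agent.P328RAM

open PMF

variable {W Λ : ℕ} {σ τ : Type}

theorem unifZ_nonempty (b : ℕ) : (Finset.Ico (0 : ℤ) (2 ^ b)).Nonempty :=
  ⟨0, by simp⟩

/-- the uniform law on `{0, …, 2 ^ b - 1}` -/
noncomputable def unifZ (b : ℕ) : PMF ℤ :=
  PMF.uniformOfFinset (Finset.Ico (0 : ℤ) (2 ^ b)) (unifZ_nonempty b)

theorem unifZ_apply (b : ℕ) (z : ℤ) :
    unifZ b z = if 0 ≤ z ∧ z < 2 ^ b then ((2 : ENNReal) ^ b)⁻¹ else 0 := by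
  unfold unifZ
  rw [PMF.uniformOfFinset_apply]
  simp only [Finset.mem_Ico, Int.card_Ico, sub_zero]
  congr 1
  have : ((2 : ℤ) ^ b).toNat = 2 ^ b := by
    have h : ((2 : ℤ) ^ b) = ((2 ^ b : ℕ) : ℤ) := by push_cast; rfl
    rw [h, Int.toNat_natCast]
  rw [this]
  push_cast
  rfl

theorem mem_unifZ {b : ℕ} {z : ℤ} : z ∈ (unifZ b).support ↔ 0 ≤ z ∧ z < 2 ^ b := by
  rw [PMF.mem_support_iff, unifZ_apply]
  split_ifs with h
  · simp [h]
  · simp [h]

theorem coin_apply (z : ℤ) : coin z = if z = 0 ∨ z = 1 then (2 : ENNReal)⁻¹ else 0 := by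
  unfold coin
  rw [PMF.map_apply, tsum_fintype]
  simp only [PMF.uniformOfFintype_apply, Fintype.card_bool, Fintype.sum_bool]
  by_cases h0 : z = 0
  · subst h0; simp
  · by_cases h1 : z = 1
    · subst h1; simp
    · simp [h0, h1]

theorem coin_map_double (z w : ℤ) :
    (coin.map fun c => 2 * z + c) w = if w / 2 = z then (2 : ENNReal)⁻¹ else 0 := by
  rw [PMF.map_apply]
  refine (tsum_congr (g := fun c : ℤ => if c = w - 2 * z then coin c else 0) ?_).trans ?_
  · intro c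
    by_cases hc : w = 2 * z + c
    · rw [if_pos hc, if_pos (by omega)]
    · rw [if_neg hc, if_neg (by omega)]
  rw [tsum_ite_eq, coin_apply]
  by_cases h : w / 2 = z
  · rw [if_pos h, if_pos (by omega)]
  · rw [if_neg h, if_neg (by omega)]

/-- one more random bit -/
theorem unifZ_succ (b : ℕ) : (unifZ b).bind (fun z => coin.map fun c => 2 * z + c) = unifZ (b + 1) := by
  ext w
  rw [PMF.bind_apply, unifZ_apply]
  simp only [coin_map_double]
  have h : ∀ z : ℤ, unifZ b z * (if w / 2 = z then (2 : ENNReal)⁻¹ else 0)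
      = if z = w / 2 then unifZ b z * (2 : ENNReal)⁻¹ else 0 := by
    intro z
    by_cases hz : w / 2 = z
    · rw [if_pos hz, if_pos hz.symm]
    · rw [if_neg hz, if_neg (fun h => hz h.symm), mul_zero]
  simp only [h]
  rw [tsum_ite_eq, unifZ_apply]
  have hp : (2 : ℤ) ^ (b + 1) = 2 * 2 ^ b := by ring
  by_cases hw : 0 ≤ w ∧ w < 2 ^ (b + 1)
  · rw [if_pos hw, if_pos (by omega), pow_succ, ENNReal.mul_inv (by simp) (by simp)]
  · rw [if_neg hw, if_neg (by omega), zero_mul]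

theorem unifZ_zero : unifZ 0 = PMF.pure 0 := by
  ext w
  rw [unifZ_apply, PMF.pure_apply]
  by_cases h : w = 0
  · subst h; simp
  · rw [if_neg (by simp; omega), if_neg h]

theorem iterBind_coin (b : ℕ) :
    iterBind (fun z => coin.map fun c => 2 * z + c) b 0 = unifZ b := by
  induction b with
  | zero => rw [unifZ_zero]; rfl
  | succ b ih => rw [iterBind_succ', ih, unifZ_succ]

/-- `x := random integer in [0, 2 ^ e)`, with the auxiliary scalar `t` -/
def Cmd.rand (x t : ℕ) (e : Expr) : Cmd :=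
  .seq (.setv x (.lit 0)) (.rep e (.seq (.flip t) (.setv x (.add (.mul (.lit 2) (.v x)) (.v t)))))

@[simp] theorem Cmd.Wr_rand (x t : ℕ) (e : Expr) : (Cmd.rand x t e).Wr = [x, t, x] := rfl

/-- The random number generator: the law of `x` is uniform; only the scalars `x`, `t` change
(frame condition `Sim.fr`; the cells of `x` and `t` other than `(0, 0)` are not changed). -/
theorem Sim.rand {M : Mem} {x t : ℕ} {e : Expr} (b : ℕ) (hxt : x ≠ t)
    (he : (e.val (M.write x 0 0 0)).toNat = b) (hΛ : b ≤ Λ) (hW : 2 ^ b ≤ W) :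
    Sim W Λ (.rand x t e) M (fun M' => M' x 0 0) (unifZ b)
      (fun M' => 0 ≤ M' x 0 0 ∧ M' x 0 0 < 2 ^ b ∧
        ∀ c k l, ¬ (c = x ∧ k = 0 ∧ l = 0) → ¬ (c = t ∧ k = 0 ∧ l = 0) → M' c k l = M c k l) := by
  have hW' : (2 : ℤ) ^ b ≤ (W : ℤ) := by exact_mod_cast hW
  have hW1 : 1 ≤ W := le_trans (Nat.one_le_two_pow) hW
  refine Det.seqSim (R := fun M' => M' = M.write x 0 0 0)
    (Det.setv (by simp [Expr.val]) (by simp [Expr.val])) ?_
  rintro M1 rfl
  have h := Sim.rep (W := W) (Λ := Λ) (M := M.write x 0 0 0) (f := fun M' : Mem => M' x 0 0)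
    (e := e) (c := .seq (.flip t) (.setv x (.add (.mul (.lit 2) (.v x)) (.v t))))
    (Q := fun M' => 0 ≤ M' x 0 0 ∧ M' x 0 0 < 2 ^ b ∧
        ∀ c k l, ¬ (c = x ∧ k = 0 ∧ l = 0) → ¬ (c = t ∧ k = 0 ∧ l = 0) → M' c k l = M c k l)
    (fun z => coin.map fun c => 2 * z + c)
    (fun (i : ℕ) (M' : Mem) => 0 ≤ M' x 0 0 ∧ M' x 0 0 < 2 ^ i ∧
        ∀ c k l, ¬ (c = x ∧ k = 0 ∧ l = 0) → ¬ (c = t ∧ k = 0 ∧ l = 0) → M' c k l = M c k l)
    b he hΛ ?_ ?_ (fun _ h => h)
  · simpa [iterBind_coin] using h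
  · refine ⟨by simp, by simp, ?_⟩
    intro c k l h1 h2
    simp only [Mem.write]
    rw [if_neg h1]
  · rintro i hi M' ⟨h1, h2, h3⟩
    have hp : (2 : ℤ) ^ (i + 1) ≤ 2 ^ b := pow_le_pow_right₀ (by norm_num) (by omega)
    have hp' : (2 : ℤ) ^ (i + 1) = 2 * 2 ^ i := by ring
    -- observe the coin
    have hflip : Sim W Λ (.flip t) M' (fun M'' => M'' t 0 0) coin
        (fun M'' => (M'' t 0 0 = 0 ∨ M'' t 0 0 = 1) ∧ M'' x 0 0 = M' x 0 0 ∧
          ∀ c k l, ¬ (c = t ∧ k = 0 ∧ l = 0) → M'' c k l = M' c k l) := by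
      have h := Sim.flip (W := W) (Λ := Λ) (M := M') (a := t)
        (f := fun M'' : Mem => M'' t 0 0)
        (Q := fun M'' => (M'' t 0 0 = 0 ∨ M'' t 0 0 = 1) ∧ M'' x 0 0 = M' x 0 0 ∧
          ∀ c k l, ¬ (c = t ∧ k = 0 ∧ l = 0) → M'' c k l = M' c k l) hW1 ?_ ?_
      · have h5 : (coin.map fun z => (M'.write t 0 0 z) t 0 0) = coin := by
          simp only [Mem.write_self]
          exact PMF.map_id _
        rwa [h5] at h
      · refine ⟨by simp, by simp [Mem.write, hxt], ?_⟩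
        intro c k l hc
        simp only [Mem.write]
        rw [if_neg hc]
      · refine ⟨by simp, by simp [Mem.write, hxt], ?_⟩
        intro c k l hc
        simp only [Mem.write]
        rw [if_neg hc]
    refine Sim.seq hflip (κ := fun c => PMF.pure (2 * M' x 0 0 + c)) ?_
    rintro M2 ⟨g1, g2, g3⟩
    have hv : (Expr.add (.mul (.lit 2) (.v x)) (.v t)).val M2 = 2 * M' x 0 0 + M2 t 0 0 := by
      simp [Expr.val, g2]
    have hd : Det W Λ (.setv x (.add (.mul (.lit 2) (.v x)) (.v t))) M2 (fun M3 =>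
        (0 ≤ M3 x 0 0 ∧ M3 x 0 0 < 2 ^ (i + 1) ∧
        ∀ c k l, ¬ (c = x ∧ k = 0 ∧ l = 0) → ¬ (c = t ∧ k = 0 ∧ l = 0) → M3 c k l = M c k l) ∧
        M3 x 0 0 = 2 * M' x 0 0 + M2 t 0 0) := by
      refine Det.setv ?_ ?_
      · rw [hv, abs_of_nonneg (by rcases g1 with g | g <;> omega)]
        rcases g1 with g | g <;> omega
      rw [hv]
      refine ⟨⟨?_, ?_, ?_⟩, ?_⟩
      · simp only [Mem.write_self]
        rcases g1 with g | g <;> omega
      · simp only [Mem.write_self]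
        rcases g1 with g | g <;> omega
      · intro c k l hc1 hc2
        simp only [Mem.write]
        rw [if_neg hc1, g3 c k l hc2, h3 c k l hc1 hc2]
      · simp only [Mem.write_self]
    exact (hd.sim (f := fun M3 : Mem => M3 x 0 0) (x := 2 * M' x 0 0 + M2 t 0 0)
      fun M3 h => h.2).mono fun M3 h => h.1

end Vale.Agent.P328RAM
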