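import Vale.Agent.P328RAM.Prog
import Vale.Agent.P328RAM.RandZ

namespace Vale.Agent.P328RAM

open P

variable {W Λ m n : ℕ} {M : Mem} {r c : ℕ → ℤ}

theorem unif_map_cast (B : ℕ) : ((unif B).map fun k => (k : ℤ)) = unifZ B := by
  classical
  have hne : Nonempty (Fin (2 ^ B)) := ⟨⟨0, by positivity⟩⟩
  have e1 : ((unif B).map fun k => (k : ℤ)) = PMF.map (fun k : ℕ => (k : ℤ)) (unif B) :=
    PMF.map_id _
  have e2 : unif B = PMF.map (fun i : Fin (2 ^ B) => (i : ℕ)) (PMF.uniformOfFintype _) :=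
    PMF.map_id _
  rw [e1, e2]
  ext w
  rw [unifZ_apply]
  rw [PMF.map_comp, PMF.map_apply, tsum_fintype]
  simp only [PMF.uniformOfFintype_apply, Function.comp, Fintype.card_fin]
  by_cases hw : 0 ≤ w ∧ w < 2 ^ B
  · rw [if_pos hw]
    have hlt : w.toNat < 2 ^ B := by
      have h : ((w.toNat : ℕ) : ℤ) < ((2 ^ B : ℕ) : ℤ) := by
        rw [Int.toNat_of_nonneg hw.1]; push_cast; exact hw.2
      exact_mod_cast h
    rw [Finset.sum_eq_single (⟨w.toNat, hlt⟩ : Fin (2 ^ B))]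
    · rw [if_pos (by simp [Int.toNat_of_nonneg hw.1])]
      push_cast
      rfl
    · intro i _ hi
      rw [if_neg]
      intro h
      apply hi
      apply Fin.ext
      simp [h]
    · intro h
      exact absurd (Finset.mem_univ _) h
  · rw [if_neg hw]
    refine Finset.sum_eq_zero fun i _ => ?_
    rw [if_neg]
    intro h
    apply hw
    rw [h]
    refine ⟨by positivity, ?_⟩
    have := i.2
    exact_mod_cast this

/-- C1. The random integer routine (`Sim.fr` adds that only the arrays `x` and `15` change). -/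
theorem rand_sim {x B : ℕ} (hx : x ≠ 15) (hx' : x ≠ 16) (hB : M 16 0 0 = B) (hW : 2 ^ B ≤ W)
    (hΛ : B ≤ Λ) :
    Sim W Λ (rand x) M (fun M' => M' x 0 0) ((unif B).map fun k => (k : ℤ))
      (fun M' => ∃ k : ℕ, k < 2 ^ B ∧ M' x 0 0 = k) := by
  have hW' : (2 : ℤ) ^ B ≤ (W : ℤ) := by exact_mod_cast hW
  have hW1 : 1 ≤ W := le_trans (Nat.one_le_two_pow) hW
  rw [unif_map_cast]
  refine Det.seqSim (R := fun M' => M' = M.write x 0 0 0)
    (Det.set (by simp [Expr.val]) (by simp [Expr.val])) ?_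
  rintro M1 rfl
  have h := Sim.rep (W := W) (Λ := Λ) (M := M.write x 0 0 0) (f := fun M' : Mem => M' x 0 0)
    (e := v 16) (c := .seq (.flip 15) (asg x (.add (.add (v x) (v x)) (v 15))))
    (Q := fun M' => ∃ k : ℕ, k < 2 ^ B ∧ M' x 0 0 = k)
    (fun z => coin.map fun c => 2 * z + c)
    (fun (i : ℕ) (M' : Mem) => 0 ≤ M' x 0 0 ∧ M' x 0 0 < 2 ^ i)
    B (by simp [v, Expr.val, Mem.write, hx'.symm, hB]) hΛ ?_ ?_ ?_
  · simpa [iterBind_coin] using h
  · exact ⟨by simp, by simp⟩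
  · rintro i hi M' ⟨h1, h2⟩
    have hp : (2 : ℤ) ^ (i + 1) ≤ 2 ^ B := pow_le_pow_right₀ (by norm_num) (by omega)
    have hp' : (2 : ℤ) ^ (i + 1) = 2 * 2 ^ i := by ring
    have hflip : Sim W Λ (.flip 15) M' (fun M'' => M'' 15 0 0) coin
        (fun M'' => (M'' 15 0 0 = 0 ∨ M'' 15 0 0 = 1) ∧ M'' x 0 0 = M' x 0 0) := by
      have h := Sim.flip (W := W) (Λ := Λ) (M := M') (a := 15)
        (f := fun M'' : Mem => M'' 15 0 0)
        (Q := fun M'' => (M'' 15 0 0 = 0 ∨ M'' 15 0 0 = 1) ∧ M'' x 0 0 = M' x 0 0) hW1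
        ⟨by simp, by simp [Mem.write, hx]⟩ ⟨by simp, by simp [Mem.write, hx]⟩
      have h5 : (coin.map fun z => (M'.write 15 0 0 z) 15 0 0) = coin := by
        simp only [Mem.write_self]
        exact PMF.map_id _
      rwa [h5] at h
    refine Sim.seq hflip (κ := fun c => PMF.pure (2 * M' x 0 0 + c)) ?_
    rintro M2 ⟨g1, g2⟩
    have hv : (Expr.add (.add (v x) (v x)) (v 15)).val M2 = 2 * M' x 0 0 + M2 15 0 0 := by
      simp only [Expr.val, v, g2]; ring
    have hd : Det W Λ (asg x (.add (.add (v x) (v x)) (v 15))) M2 (fun M3 =>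
        (0 ≤ M3 x 0 0 ∧ M3 x 0 0 < 2 ^ (i + 1)) ∧
        M3 x 0 0 = 2 * M' x 0 0 + M2 15 0 0) := by
      refine Det.set ?_ ?_
      · rw [hv, abs_of_nonneg (by rcases g1 with g | g <;> omega)]
        rcases g1 with g | g <;> omega
      rw [hv]
      simp only [Expr.val, Mem.write_self]
      refine ⟨⟨?_, ?_⟩, trivial⟩
      · rcases g1 with g | g <;> omega
      · rcases g1 with g | g <;> omega
    exact (hd.sim (f := fun M3 : Mem => M3 x 0 0) (x := 2 * M' x 0 0 + M2 15 0 0)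
      fun M3 h => h.2).mono fun M3 h => h.1
  · rintro M' ⟨h1, h2⟩
    refine ⟨(M' x 0 0).toNat, ?_, (Int.toNat_of_nonneg h1).symm⟩
    have h : (((M' x 0 0).toNat : ℕ) : ℤ) < ((2 ^ B : ℕ) : ℤ) := by
      rw [Int.toNat_of_nonneg h1]; push_cast; exact h2
    exact_mod_cast h

end Vale.Agent.P328RAM
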