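import Vale.Agent.P328RAM.HProg
import Vale.Agent.P328RAM.Rand

/-!
# Tools for the step program

 `Sim.rand_seq` (draw an integer, then continue), `addC_det` (add in one cell).
-/

namespace Vale.Agent.P328RAM

open Vale.Agent.P328R

variable {W Λ m n : ℕ} {M : Mem} {p : Par} {g : Mg} {A : ℕ}

/-- sequencing after the random number generator, with the law `unif` on the natural numbers -/
theorem Sim.rand_seq {τ : Type} {x t : ℕ} {e : Expr} (b : ℕ) (hxt : x ≠ t)
    (he : (e.val (M.write x 0 0 0)).toNat = b) (hΛ : b ≤ Λ) (hW : 2 ^ b ≤ W) {d : Cmd}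
    {f : Mem → τ} {F : ℕ → PMF τ} {Q : Mem → Prop}
    (hd : ∀ k : ℕ, k < 2 ^ b → ∀ M' : Mem, M' x 0 0 = (k : ℤ) →
      (∀ a, a ≠ x → a ≠ t → M' a = M a) → Sim W Λ d M' f (F k) Q) :
    Sim W Λ (.seq (.rand x t e) d) M f ((unif b).bind F) Q := by
  have h1 := (Sim.rand (W := W) (Λ := Λ) (M := M) b hxt he hΛ hW).fr
  rw [← unif_map_cast] at h1
  have h0 : ((unif b).map fun k => (k : ℤ)) = (unif b).map (fun k : ℕ => (k : ℤ)) := by
    rw [show (fun k : ℤ => k) = id from rfl, PMF.map_id]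
    rfl
  rw [h0] at h1
  have h2 : ((unif b).map fun k : ℕ => (k : ℤ)).bind (fun z => F z.toNat) = (unif b).bind F := by
    rw [PMF.bind_map]
    congr 1
  rw [← h2]
  refine Sim.seq h1 ?_
  rintro M' ⟨⟨h3, h4, h5⟩, hfr⟩
  have h6 : M' x 0 0 = ((M' x 0 0).toNat : ℤ) := (Int.toNat_of_nonneg h3).symm
  refine hd _ ?_ M' h6 fun a ha ha' => hfr a ?_
  · have h7 : (((M' x 0 0).toNat : ℕ) : ℤ) < ((2 ^ b : ℕ) : ℤ) := by
      rw [← h6]; push_cast; exact h4
    exact_mod_cast h7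
  · simp only [Cmd.Wr_rand, List.mem_cons, List.not_mem_nil, or_false, not_or]
    exact ⟨ha, ha', ha⟩

theorem tabOf_congr {a : ℕ} {M M' : Mem} (h : M' a = M a) : tabOf m n a M' = tabOf m n a M := by
  unfold tabOf
  rw [h]

/-- adding in a cell, on tables -/
theorem tabOf_write_addc (M : Mem) (a : ℕ) {i j : ℕ} (hi : i < m) (hj : j < n) (d : ℤ) :
    tabOf m n a (M.write a i j (M a i j + d)) = addc i j d (tabOf m n a M) := by
  funext e
  unfold tabOf Mem.write addc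
  by_cases h : (e.1 : ℕ) = i ∧ (e.2 : ℕ) = j
  · obtain ⟨h1, h2⟩ := h
    subst h1 h2
    simp
  · rw [if_neg h, if_neg, add_zero]
    rintro ⟨-, h3, h4⟩
    exact h ⟨by exact_mod_cast h3, by exact_mod_cast h4⟩

/-- `a[i, j] := a[i, j] + e` -/
theorem addC_det {a : ℕ} {ei ej ed : Expr} {i j : ℕ} {d : ℤ} (hi : i < m) (hj : j < n)
    (h1 : ei.val M = i) (h2 : ej.val M = j) (h3 : ed.val M = d)
    (hW : |tabOf m n a M (⟨i, hi⟩, ⟨j, hj⟩) + d| ≤ (W : ℤ)) :
    Det W Λ (H.addC a ei ej ed) M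
      (fun M' => tabOf m n a M' = addc i j d (tabOf m n a M) ∧ ∀ c, c ≠ a → M' c = M c) := by
  have e3 : (Expr.add (.get a ei ej) ed).val M = M a i j + d := by
    show M a (ei.val M) (ej.val M) + ed.val M = _
    rw [h1, h2, h3]
  unfold H.addC
  refine Det.set ?_ ?_
  · rw [e3]
    exact hW
  · rw [e3, h1, h2]
    refine ⟨tabOf_write_addc M a hi hj d, ?_⟩
    intro c hc
    funext k l
    simp [Mem.write, hc]

theorem addc_abs {i j : ℕ} {d : ℤ} {X : Tab m n} {B C : ℤ} (hX : ∀ e, |X e| ≤ B) (hd : |d| ≤ C)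
    (e : Fin m × Fin n) : |addc i j d X e| ≤ B + C := by
  unfold addc
  have h1 := hX e
  have h2 : 0 ≤ C := (abs_nonneg d).trans hd
  split_ifs
  · exact (abs_add_le _ _).trans (add_le_add h1 hd)
  · rw [add_zero]
    linarith

end Vale.Agent.P328RAM
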