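import Vale.Agent.P328RAM.Lang

/-!
# The sampler as a native random process (unary running time)

`samp` is the law of the output of the program of `Prog.lean`.
-/

namespace Vale.Agent.P328RAM

/-- uniform on `{0, …, 2^B - 1}` -/
noncomputable def unif (B : ℕ) : PMF ℕ :=
  haveI : Nonempty (Fin (2 ^ B)) := ⟨⟨0, by positivity⟩⟩
  (PMF.uniformOfFintype (Fin (2 ^ B))).map fun i => (i : ℕ)

/-- Tables with `m` rows and `n` columns. -/
abbrev Tab (m n : ℕ) := Fin m × Fin n → ℤ

variable {m n : ℕ}

/-- Sum of the row `i`. -/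
def rowSum (X : Tab m n) (i : Fin m) : ℤ := ∑ j, X (i, j)

/-- Sum of the column `j`. -/
def colSum (X : Tab m n) (j : Fin n) : ℤ := ∑ i, X (i, j)

/-- Total deviation of the row sums of `X` from `R`. -/
def dev (R : ℕ → ℤ) (X : Tab m n) : ℤ := ∑ i, |rowSum X i - R i|

/-- Move one unit inside the column `j` from the row `a` to the row `b`. -/
def mvt (j : Fin n) (a b : Fin m) (X : Tab m n) : Tab m n :=
  fun e => X e - (if e = (a, j) then 1 else 0) + (if e = (b, j) then 1 else 0)

/-- One step of the chain with draws `w x y j`. -/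
def step (R : ℕ → ℤ) (w : ℤ) (x y j : ℕ) (X : Tab m n) : Tab m n :=
  if h : x < m ∧ y < m ∧ j < n then
    if w = 1 ∧ 0 ≤ mvt ⟨j, h.2.2⟩ ⟨x, h.1⟩ ⟨y, h.2.1⟩ X (⟨x, h.1⟩, ⟨j, h.2.2⟩) ∧
        dev R (mvt ⟨j, h.2.2⟩ ⟨x, h.1⟩ ⟨y, h.2.1⟩ X) ≤ 2 then
      mvt ⟨j, h.2.2⟩ ⟨x, h.1⟩ ⟨y, h.2.1⟩ X
    else X
  else X

/-- The kernel of the chain. -/
noncomputable def stepK (R : ℕ → ℤ) (B : ℕ) (X : Tab m n) : PMF (Tab m n) :=
  coin.bind fun w => (unif B).bind fun x => (unif B).bind fun y => (unif B).bind fun j =>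
    PMF.pure (step R w x y j X)

/-- The last index below the bound with `0 < d i` (and `0` if there is none). -/
def pick (d : ℕ → ℤ) : ℕ → ℕ
  | 0 => 0
  | k + 1 => if 0 < d k then k else pick d k

theorem pick_spec {d : ℕ → ℤ} {k : ℕ} (h : ∃ i < k, 0 < d i) : pick d k < k ∧ 0 < d (pick d k) := by
  induction k with
  | zero => obtain ⟨i, hi, _⟩ := h; omega
  | succ k ih =>
      simp only [pick]
      split_ifs with h1
      · exact ⟨by omega, h1⟩
      · obtain ⟨i, hi, hd⟩ := h
        have : i < k := by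
          rcases Nat.lt_succ_iff_lt_or_eq.1 hi with h2 | h2
          · exact h2
          · subst h2; exact absurd hd h1
        obtain ⟨h2, h3⟩ := ih ⟨i, this, hd⟩
        exact ⟨by omega, h3⟩

/-- The margins after `k` units (`len` lines, target margins `r`). -/
def seqM (r : ℕ → ℤ) (len : ℕ) : ℕ → ℕ → ℤ
  | 0 => fun _ => 0
  | k + 1 => fun i =>
      if i = pick (fun l => r l - seqM r len k l) len then seqM r len k i + 1 else seqM r len k i

/-- The line that receives the unit number `k`. -/
def nextLine (r : ℕ → ℤ) (len k : ℕ) : ℕ := pick (fun l => r l - seqM r len k l) len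

/-- Add one unit in the cell `(i, j)`. -/
def addUnit (i j : ℕ) (X : Tab m n) : Tab m n :=
  fun e => X e + if (e.1 : ℕ) = i ∧ (e.2 : ℕ) = j then 1 else 0

/-- The law of the table after `k` phases of one attempt; every phase adds a unit and runs the
chain for `T` steps. -/
noncomputable def att (m n : ℕ) (r c : ℕ → ℤ) (B T : ℕ) : ℕ → PMF (Tab m n)
  | 0 => PMF.pure 0
  | k + 1 => (att m n r c B T k).bind fun X =>
      iterBind (stepK (seqM r m (k + 1)) B) T (addUnit (nextLine r m k) (nextLine c n k) X)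

/-- The default table. -/
def defTab (m n : ℕ) (r c : ℕ → ℤ) : ℕ → Tab m n
  | 0 => 0
  | k + 1 => addUnit (nextLine r m k) (nextLine c n k) (defTab m n r c k)

/-- One round of the main loop: if no table has been accepted so far, make an attempt with `N`
phases and accept its result if it has the row sums `r`. -/
noncomputable def roundK (m n : ℕ) (r c : ℕ → ℤ) (B T N : ℕ) (s : Tab m n × Bool) :
    PMF (Tab m n × Bool) :=
  if s.2 then PMF.pure s
  else (att m n r c B T N).map fun X => if dev r X = 0 then (X, true) else s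

/-- The law of the output after `K` rounds. -/
noncomputable def samp (m n : ℕ) (r c : ℕ → ℤ) (B T N K : ℕ) : PMF (Tab m n) :=
  (iterBind (roundK m n r c B T N) K (defTab m n r c N, false)).map Prod.fst

/-- The set of contingency tables with row sums `r` and column sums `c`. -/
def Omega (m n : ℕ) (r c : ℕ → ℤ) : Set (Tab m n) :=
  {X | (∀ e, 0 ≤ X e) ∧ (∀ i, rowSum X i = r i) ∧ ∀ j, colSum X j = c j}

end Vale.Agent.P328RAM
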