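import Vale.Agent.P328RAM.Prog

namespace Vale.Agent.P328RAM

open P

variable {W Λ m n : ℕ} {M : Mem} {r c : ℕ → ℤ}

theorem asg_det {Q : Mem → Prop} {a : ℕ} {e : Expr} (hW : |e.val M| ≤ (W : ℤ))
    (hQ : Q (M.write a 0 0 (e.val M))) : Det W Λ (asg a e) M Q := Det.set hW hQ

theorem asg_det' {a : ℕ} {e : Expr} {z : ℤ} (hz : e.val M = z) (hW : |z| ≤ (W : ℤ)) :
    Det W Λ (asg a e) M (fun M' => M' = M.write a 0 0 z) :=
  Det.set (by rw [hz]; exact hW) (by rw [hz]; rfl)

theorem v_val (a : ℕ) : (P.v a).val M = M a 0 0 := rfl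

theorem inc_det {a k : ℕ} (h : M a 0 0 = k) (hW : k + 1 ≤ W) :
    Det W Λ (inc a) M (fun M' => M' = M.write a 0 0 ((k : ℤ) + 1)) := by
  refine asg_det' ?_ ?_
  · simp [Expr.val, v_val, h]
  · rw [abs_of_nonneg (by positivity)]
    exact_mod_cast hW

/-- C6. Array routines and parameters. -/
theorem zero1_det {a k : ℕ} {len : Expr} (h1 : a ≠ 7)
    (hlen : ∀ M' : Mem, (∀ a', a' ≠ 7 → M' a' = M a') → len.val M' = k)
    (hk : k ≤ Λ) (hW : k ≤ W) :
    Det W Λ (zero1 a len) M
      (fun M' => (∀ i < k, M' a i 0 = 0) ∧ ∀ i : ℤ, (k : ℤ) ≤ i → M' a i 0 = M a i 0) := by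
  unfold zero1
  refine Det.seq (asg_det' (z := 0) rfl (by simp)) ?_
  rintro M1 rfl
  refine Det.rep (fun (i : ℕ) (M' : Mem) => M' 7 0 0 = (i : ℤ) ∧ (∀ j < i, M' a j 0 = 0) ∧
    ∀ j : ℤ, (i : ℤ) ≤ j → M' a j 0 = M a j 0) k ?_ hk ?_ ?_ ?_
  · rw [hlen _ (fun a' ha' => by funext k l; simp [Mem.write, ha'])]
    simp
  · refine ⟨by simp [Mem.write], by simp, fun j _ => by simp [Mem.write, h1]⟩
  · rintro i hi M' ⟨e1, e2, e3⟩
    refine Det.seq (R := fun M'' => M'' = M'.write a i 0 0)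
      (Det.set (by simp [Expr.val]) (by simp [Expr.val, v_val, e1])) ?_
    rintro M2 rfl
    refine (inc_det (k := i) ?_ (by omega)).mono ?_
    · simp [Mem.write, h1.symm, e1]
    · rintro M3 rfl
      refine ⟨by simp [Mem.write], ?_, ?_⟩
      · intro j hj
        by_cases hji : j = i
        · subst hji; simp [Mem.write, h1]
        · have := e2 j (by omega)
          simp [Mem.write, h1, hji, this]
      · intro j hj
        push_cast at hj
        have h4 : j ≠ (i : ℤ) := by omega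
        have := e3 j (by omega)
        simp [Mem.write, h1, h4, this]
  · rintro M' ⟨_, e2, e3⟩
    exact ⟨e2, e3⟩

theorem zeroX_det (hm : M 0 0 0 = m) (hn : M 0 1 0 = n) (hmΛ : m ≤ Λ) (hnΛ : n ≤ Λ)
    (hmW : m ≤ W) (hnW : n ≤ W) :
    Det W Λ zeroX M (fun M' => tabOf m n 4 M' = 0) := by
  unfold zeroX
  refine Det.seq (asg_det' (z := 0) rfl (by simp)) ?_
  rintro M1 rfl
  refine Det.rep (fun (i : ℕ) (M' : Mem) => M' 7 0 0 = (i : ℤ) ∧ M' 0 1 0 = (n : ℤ) ∧
    ∀ i' < i, ∀ j < n, M' 4 i' j = 0) m ?_ hmΛ ?_ ?_ ?_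
  · simp [P.m, Expr.val, Mem.write, hm]
  · refine ⟨by simp [Mem.write], by simp [Mem.write, hn], by simp⟩
  · rintro i hi M' ⟨e1, e2, e3⟩
    refine Det.seq (asg_det' (z := 0) rfl (by simp)) ?_
    rintro M2 rfl
    refine Det.seq (R := fun (M'' : Mem) => M'' 7 0 0 = (i : ℤ) ∧ M'' 0 1 0 = (n : ℤ) ∧
      ∀ i' < i + 1, ∀ j < n, M'' 4 i' j = 0) ?_ ?_
    · refine Det.rep (fun (k : ℕ) (M' : Mem) => M' 8 0 0 = (k : ℤ) ∧ M' 7 0 0 = (i : ℤ) ∧
        M' 0 1 0 = (n : ℤ) ∧ (∀ i' < i, ∀ j < n, M' 4 i' j = 0) ∧ ∀ j < k, M' 4 i j = 0) n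
        ?_ hnΛ ?_ ?_ ?_
      · simp [P.n, Expr.val, Mem.write, e2]
      · refine ⟨by simp [Mem.write], by simp [Mem.write, e1], by simp [Mem.write, e2], ?_, by simp⟩
        intro i' hi' j hj
        have := e3 i' hi' j hj
        simp [Mem.write, this]
      · rintro k hk M' ⟨f1, f2, f3, f4, f5⟩
        refine Det.seq (R := fun M'' => M'' = M'.write 4 i k 0)
          (Det.set (by simp [Expr.val]) (by simp [Expr.val, v_val, f1, f2])) ?_
        rintro M4 rfl
        refine (inc_det (k := k) (by simp [Mem.write, f1]) (by omega)).mono ?_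
        rintro M5 rfl
        refine ⟨by simp [Mem.write], by simp [Mem.write, f2], by simp [Mem.write, f3], ?_, ?_⟩
        · intro i' hi' j hj
          have h7 := f4 i' hi' j hj
          have h8 : i' ≠ i := by omega
          simp [Mem.write, h8, h7]
        · intro j hj
          by_cases hjk : j = k
          · subst hjk; simp [Mem.write]
          · have := f5 j (by omega)
            simp [Mem.write, hjk, this]
      · rintro M6 ⟨_, f2, f3, f4, f5⟩
        refine ⟨f2, f3, ?_⟩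
        intro i' hi' j hj
        rcases Nat.lt_succ_iff_lt_or_eq.1 hi' with h7 | h7
        · exact f4 i' h7 j hj
        · subst h7; exact f5 j hj
    · rintro M7 ⟨g1, g2, g3⟩
      refine (inc_det (k := i) g1 (by omega)).mono ?_
      rintro M8 rfl
      refine ⟨by simp [Mem.write], by simp [Mem.write, g2], ?_⟩
      intro i' hi' j hj
      have := g3 i' hi' j hj
      simp [Mem.write, this]
  · rintro M' ⟨_, _, e3⟩
    funext e
    exact e3 e.1 e.1.2 e.2 e.2.2

theorem copyX_det (hm : M 0 0 0 = m) (hn : M 0 1 0 = n) (hmΛ : m ≤ Λ) (hnΛ : n ≤ Λ)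
    (hmW : m ≤ W) (hnW : n ≤ W) :
    Det W Λ copyX M (fun M' => tabOf m n 3 M' = tabOf m n 4 M) := by
  unfold copyX
  refine Det.seq (asg_det' (z := 0) rfl (by simp)) ?_
  rintro M1 rfl
  refine Det.rep (fun (i : ℕ) (M' : Mem) => M' 7 0 0 = (i : ℤ) ∧ M' 0 1 0 = (n : ℤ) ∧
    M' 4 = M 4 ∧ ∀ i' < i, ∀ j < n, M' 3 i' j = M 4 i' j) m ?_ hmΛ ?_ ?_ ?_
  · simp [P.m, Expr.val, Mem.write, hm]
  · refine ⟨by simp [Mem.write], by simp [Mem.write, hn], ?_, by simp⟩
    funext k l; simp [Mem.write]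
  · rintro i hi M' ⟨e1, e2, e4, e3⟩
    refine Det.seq (asg_det' (z := 0) rfl (by simp)) ?_
    rintro M2 rfl
    refine Det.seq (R := fun (M'' : Mem) => M'' 7 0 0 = (i : ℤ) ∧ M'' 0 1 0 = (n : ℤ) ∧
      M'' 4 = M 4 ∧ ∀ i' < i + 1, ∀ j < n, M'' 3 i' j = M 4 i' j) ?_ ?_
    · refine Det.rep (fun (k : ℕ) (M' : Mem) => M' 8 0 0 = (k : ℤ) ∧ M' 7 0 0 = (i : ℤ) ∧
        M' 0 1 0 = (n : ℤ) ∧ M' 4 = M 4 ∧ (∀ i' < i, ∀ j < n, M' 3 i' j = M 4 i' j) ∧
        ∀ j < k, M' 3 i j = M 4 i j) n ?_ hnΛ ?_ ?_ ?_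
      · simp [P.n, Expr.val, Mem.write, e2]
      · refine ⟨by simp [Mem.write], by simp [Mem.write, e1], by simp [Mem.write, e2], ?_, ?_,
          by simp⟩
        · funext k l; simp [Mem.write, e4]
        · intro i' hi' j hj
          have := e3 i' hi' j hj
          simp [Mem.write, this]
      · rintro k hk M' ⟨f1, f2, f3, f6, f4, f5⟩
        refine Det.bdd fun hB => ?_
        refine Det.seq (R := fun M'' => M'' = M'.write 3 i k (M 4 i k))
          (Det.set ?_ ?_) ?_
        · have : (Expr.get 4 (P.v 7) (P.v 8)).val M' = M' 4 i k := by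
            simp [Expr.val, v_val, f1, f2]
          rw [this]
          exact hB _ _ _
        · simp [Expr.val, v_val, f1, f2, f6]
        rintro M4 rfl
        refine (inc_det (k := k) (by simp [Mem.write, f1]) (by omega)).mono ?_
        rintro M5 rfl
        refine ⟨by simp [Mem.write], by simp [Mem.write, f2], by simp [Mem.write, f3], ?_, ?_, ?_⟩
        · funext k l; simp [Mem.write, f6]
        · intro i' hi' j hj
          have h7 := f4 i' hi' j hj
          have h8 : i' ≠ i := by omega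
          simp [Mem.write, h8, h7]
        · intro j hj
          by_cases hjk : j = k
          · subst hjk; simp [Mem.write]
          · have := f5 j (by omega)
            simp [Mem.write, hjk, this]
      · rintro M6 ⟨_, f2, f3, f6, f4, f5⟩
        refine ⟨f2, f3, f6, ?_⟩
        intro i' hi' j hj
        rcases Nat.lt_succ_iff_lt_or_eq.1 hi' with h7 | h7
        · exact f4 i' h7 j hj
        · subst h7; exact f5 j hj
    · rintro M7 ⟨g1, g2, g4, g3⟩
      refine (inc_det (k := i) g1 (by omega)).mono ?_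
      rintro M8 rfl
      refine ⟨by simp [Mem.write], by simp [Mem.write, g2], ?_, ?_⟩
      · funext k l; simp [Mem.write, g4]
      · intro i' hi' j hj
        have := g3 i' hi' j hj
        simp [Mem.write, this]
  · rintro M' ⟨_, _, _, e3⟩
    funext e
    exact e3 e.1 e.1.2 e.2 e.2.2

theorem powE_val (e : Expr) (k : ℕ) : (powE e k).val M = e.val M ^ k := by
  induction k with
  | zero => simp [powE, Expr.val]
  | succ k ih => simp [powE, Expr.val, ih, pow_succ]

/-- the part of the memory used by `parC` -/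
def ParI (m n b : ℕ) (M M' : Mem) : Prop :=
  M' 0 0 0 = m ∧ M' 0 1 0 = n ∧ M' 0 2 0 = b ∧ M' 1 = M 1 ∧ M' 2 = M 2

theorem ParI.write {b : ℕ} {M' : Mem} (h : ParI m n b M M') {a : ℕ} (ha : 3 ≤ a) (z : ℤ) :
    ParI m n b M (M'.write a 0 0 z) := by
  obtain ⟨h1, h2, h3, h4, h5⟩ := h
  have a0 : (0 : ℕ) ≠ a := by omega
  have a1 : (1 : ℕ) ≠ a := by omega
  have a2 : (2 : ℕ) ≠ a := by omega
  refine ⟨by simp [Mem.write, a0, h1], by simp [Mem.write, a0, h2], by simp [Mem.write, a0, h3],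
    ?_, ?_⟩
  · funext k l; simp [Mem.write, a1, h4]
  · funext k l; simp [Mem.write, a2, h5]

/-- `base = m + n + N + b + 2` -/
theorem parC_det {b N pT pK : ℕ} (hm : M 0 0 0 = m) (hn : M 0 1 0 = n) (hb : M 0 2 0 = b)
    (hr : ∀ i < m, M 1 i 0 = r i) (hc : ∀ j < n, M 2 j 0 = c j) (hr0 : ∀ i < m, 0 ≤ r i)
    (hN : ∑ i ∈ Finset.range m, r i = N)
    (hΛ : m + n ≤ Λ) (hW : (m + n + N + b + 2) ^ (pT + pK + 2) ≤ W) :
    Det W Λ (parC pT pK) M (fun M' => Env m n r c (Nat.clog 2 (m + n))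
      ((m + n + N + b + 2) ^ pT) N ((m + n + N + b + 2) ^ pK) M') := by
  have hbase : 2 ≤ m + n + N + b + 2 := by omega
  have hWsq : (m + n + N + b + 2) ^ 2 ≤ W :=
    (Nat.pow_le_pow_right (by omega) (by omega)).trans hW
  have hW2 : 2 * (m + n + N + b + 2) ≤ W := by
    refine le_trans ?_ hWsq
    rw [pow_two]
    exact Nat.mul_le_mul_right _ hbase
  have hWT : (m + n + N + b + 2) ^ pT ≤ W :=
    (Nat.pow_le_pow_right (by omega) (by omega)).trans hW
  have hWK : (m + n + N + b + 2) ^ pK ≤ W :=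
    (Nat.pow_le_pow_right (by omega) (by omega)).trans hW
  have hI0 : ParI m n b M M := ⟨hm, hn, hb, rfl, rfl⟩
  have hpart : ∀ i ≤ m, 0 ≤ ∑ l ∈ Finset.range i, r l ∧ ∑ l ∈ Finset.range i, r l ≤ N := by
    intro i hi
    refine ⟨Finset.sum_nonneg fun l hl => hr0 l (by have := Finset.mem_range.1 hl; omega), ?_⟩
    rw [← hN]
    refine Finset.sum_le_sum_of_subset_of_nonneg (Finset.range_mono hi) fun l hl _ =>
      hr0 l (Finset.mem_range.1 hl)
  have hclog1 : Nat.clog 2 (m + n) ≤ m + n :=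
    Nat.clog_le_of_le_pow (Nat.lt_pow_self (by norm_num)).le
  have hclog2 : 2 ^ Nat.clog 2 (m + n) ≤ 2 * (m + n + N + b + 2) := by
    rcases Nat.lt_or_ge 1 (m + n) with h | h
    · have h1 := Nat.pow_pred_clog_lt_self (b := 2) (by norm_num) h
      have h2 : 0 < Nat.clog 2 (m + n) := Nat.clog_pos (by norm_num) h
      have h3 : 2 ^ Nat.clog 2 (m + n) = 2 * 2 ^ (Nat.clog 2 (m + n)).pred := by
        conv_lhs => rw [← Nat.succ_pred_eq_of_pos h2]
        rw [pow_succ]; ring
      omega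
    · have : Nat.clog 2 (m + n) = 0 := Nat.clog_of_right_le_one h 2
      rw [this]; omega
  unfold parC
  refine Det.seq (asg_det' (z := 0) rfl (by simp)) ?_
  rintro M1 rfl
  refine Det.seq (asg_det' (z := 0) rfl (by simp)) ?_
  rintro M2 rfl
  -- the sum
  refine Det.seq (R := fun M' => ParI m n b M M' ∧ M' 18 0 0 = (N : ℤ)) ?_ ?_
  · refine Det.rep (fun (i : ℕ) (M' : Mem) => ParI m n b M M' ∧ M' 7 0 0 = (i : ℤ) ∧
      M' 18 0 0 = ∑ l ∈ Finset.range i, r l) m ?_ (by omega) ?_ ?_ ?_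
    · simp [P.m, Expr.val, Mem.write, hm]
    · refine ⟨(hI0.write (by norm_num) _).write (by norm_num) _, by simp [Mem.write],
        by simp [Mem.write]⟩
    · rintro i hi M' ⟨e1, e2, e3⟩
      have hval : (Expr.add (P.v 18) (at1 1 (P.v 7))).val M' =
          ∑ l ∈ Finset.range (i + 1), r l := by
        rw [Finset.sum_range_succ, ← hr i hi]
        simp [Expr.val, v_val, at1, e2, e3, e1.2.2.2.1]
      refine Det.seq (asg_det' hval ?_) ?_
      · have h7 := hpart (i + 1) (by omega)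
        rw [abs_of_nonneg h7.1]
        have : (N : ℤ) ≤ W := by exact_mod_cast (by omega : N ≤ W)
        omega
      rintro M3 rfl
      refine (inc_det (k := i) (by simp [Mem.write, e2]) (by omega)).mono ?_
      rintro M4 rfl
      refine ⟨(e1.write (by norm_num) _).write (by norm_num) _, by simp [Mem.write],
        by simp [Mem.write]⟩
    · rintro M' ⟨e1, _, e3⟩
      exact ⟨e1, by rw [e3, hN]⟩
  rintro M3 ⟨e1, e2⟩
  refine Det.seq (asg_det' (z := 0) rfl (by simp)) ?_
  rintro M4 rfl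
  refine Det.seq (asg_det' (z := 1) rfl ?_) ?_
  · have : (1 : ℤ) ≤ W := by exact_mod_cast (by omega : 1 ≤ W)
    simpa using this
  rintro M5 rfl
  -- the logarithm
  refine Det.seq (R := fun M' => ParI m n b M M' ∧ M' 18 0 0 = (N : ℤ) ∧
    M' 16 0 0 = (Nat.clog 2 (m + n) : ℤ)) ?_ ?_
  · refine Det.rep (fun (i : ℕ) (M' : Mem) => ParI m n b M M' ∧ M' 18 0 0 = (N : ℤ) ∧
      M' 16 0 0 = ((min i (Nat.clog 2 (m + n)) : ℕ) : ℤ) ∧
      M' 17 0 0 = ((2 ^ (min i (Nat.clog 2 (m + n))) : ℕ) : ℤ)) (m + n) ?_ hΛ ?_ ?_ ?_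
    · have h := (e1.write (a := 16) (by norm_num) 0).write (a := 17) (by norm_num) 1
      simp only [P.m, P.n, Expr.val]
      rw [h.1, h.2.1]
      omega
    · refine ⟨(e1.write (by norm_num) _).write (by norm_num) _, by simp [Mem.write, e2],
        by simp [Mem.write], by simp [Mem.write]⟩
    · rintro i hi M' ⟨f1, f2, f3, f4⟩
      have hval : (Expr.sub (Expr.add P.m P.n) (P.v 17)).val M' =
          (m : ℤ) + n - ((2 ^ (min i (Nat.clog 2 (m + n))) : ℕ) : ℤ) := by
        simp only [Expr.val, P.m, P.n, v_val]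
        rw [f1.1, f1.2.1, f4]
      refine Det.ite ?_ ?_
      · intro h
        rw [hval] at h
        have hlt : i < Nat.clog 2 (m + n) := by
          by_contra hcon
          rw [min_eq_right (not_lt.1 hcon)] at h
          have h8 := Nat.le_pow_clog (b := 2) (by norm_num) (m + n)
          have h9 : ((m + n : ℕ) : ℤ) ≤ ((2 ^ Nat.clog 2 (m + n) : ℕ) : ℤ) := by exact_mod_cast h8
          push_cast at h h9
          omega
        have hmin : min i (Nat.clog 2 (m + n)) = i := min_eq_left hlt.le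
        have hmin' : min (i + 1) (Nat.clog 2 (m + n)) = i + 1 := min_eq_left hlt
        rw [hmin] at f3 f4
        rw [hmin']
        have h10 : 2 ^ (i + 1) ≤ 2 ^ Nat.clog 2 (m + n) :=
          Nat.pow_le_pow_right (by norm_num) hlt
        refine Det.seq (asg_det' (z := ((2 ^ (i + 1) : ℕ) : ℤ)) ?_ ?_) ?_
        · simp only [Expr.val, v_val, f4]
          push_cast
          ring
        · rw [abs_of_nonneg (by positivity)]
          exact_mod_cast (by omega : 2 ^ (i + 1) ≤ W)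
        rintro M6 rfl
        refine (inc_det (k := i) (by simp [Mem.write, f3]) (by omega)).mono ?_
        rintro M7 rfl
        refine ⟨(f1.write (by norm_num) _).write (by norm_num) _, by simp [Mem.write, f2],
          by simp [Mem.write], by simp [Mem.write]⟩
      · intro h
        rw [hval] at h
        have hge : Nat.clog 2 (m + n) ≤ i := by
          by_contra hcon
          rw [min_eq_left (not_le.1 hcon).le] at h
          have h8 : m + n ≤ 2 ^ i := by
            have h9 : ((m + n : ℕ) : ℤ) ≤ ((2 ^ i : ℕ) : ℤ) := by push_cast at h ⊢; omega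
            exact_mod_cast h9
          exact hcon (Nat.clog_le_of_le_pow h8)
        rw [min_eq_right hge] at f3 f4
        rw [min_eq_right (hge.trans (Nat.le_succ i))]
        unfold skip
        refine (asg_det' (z := 0) rfl (by simp)).mono ?_
        rintro M6 rfl
        refine ⟨f1.write (by norm_num) _, by simp [Mem.write, f2], by simp [Mem.write, f3],
          by simp [Mem.write, f4]⟩
    · rintro M' ⟨f1, f2, f3, _⟩
      rw [min_eq_right hclog1] at f3
      exact ⟨f1, f2, f3⟩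
  rintro M6 ⟨g1, g2, g3⟩
  have hval25 : (Expr.add (Expr.add (Expr.add P.m P.n) (Expr.add (P.v 18) P.b))
      (Expr.lit 2)).val M6 = ((m + n + N + b + 2 : ℕ) : ℤ) := by
    simp only [Expr.val, P.m, P.n, P.b, v_val]
    rw [g1.1, g1.2.1, g1.2.2.1, g2]
    push_cast
    ring
  refine Det.seq (asg_det' hval25 ?_) ?_
  · rw [abs_of_nonneg (by positivity)]
    exact_mod_cast (by omega : m + n + N + b + 2 ≤ W)
  rintro M7 rfl
  have hpow : ∀ (p : ℕ) (M' : Mem), M' 25 0 0 = ((m + n + N + b + 2 : ℕ) : ℤ) →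
      (powE (P.v 25) p).val M' = (((m + n + N + b + 2) ^ p : ℕ) : ℤ) := by
    intro p M' h
    rw [powE_val, v_val, h]
    push_cast
    ring
  refine Det.seq (asg_det' (hpow pT _ (by simp [Mem.write])) ?_) ?_
  · rw [abs_of_nonneg (by positivity)]
    exact_mod_cast hWT
  rintro M8 rfl
  refine (asg_det' (hpow pK _ (by simp [Mem.write])) ?_).mono ?_
  · rw [abs_of_nonneg (by positivity)]
    exact_mod_cast hWK
  rintro M9 rfl
  have hfin := ((g1.write (a := 25) (by norm_num) ((m + n + N + b + 2 : ℕ) : ℤ)).write (a := 19)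
    (by norm_num) (((m + n + N + b + 2) ^ pT : ℕ) : ℤ)).write (a := 20)
    (by norm_num) (((m + n + N + b + 2) ^ pK : ℕ) : ℤ)
  refine ⟨hfin.1, hfin.2.1, ?_, ?_, ?_, ?_, ?_, ?_⟩
  · intro i hi
    rw [hfin.2.2.2.1]; exact hr i hi
  · intro j hj
    rw [hfin.2.2.2.2]; exact hc j hj
  · simp [Mem.write, g3]
  · simp [Mem.write, g2]
  · simp [Mem.write]
  · simp [Mem.write]

end Vale.Agent.P328RAM
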