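import Vale.Agent.P328RAM.Lib

/-!
# Arrays: pointwise assignment, folds, sums, products, powers, minima
-/

namespace Vale.Agent.P328RAM

open PMF

variable {W Λ : ℕ} {σ τ : Type}

/-- `M'` agrees with `M` on all arrays outside the list `L` -/
def Same (L : List ℕ) (M M' : Mem) : Prop := ∀ b, b ∉ L → M' b = M b

theorem Same.refl (L : List ℕ) (M : Mem) : Same L M M := fun _ _ => rfl

theorem Same.trans {L : List ℕ} {M M' M'' : Mem} (h : Same L M M') (h' : Same L M' M'') :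
    Same L M M'' := fun b hb => by rw [h' b hb, h b hb]

theorem Same.mono {L L' : List ℕ} {M M' : Mem} (h : Same L M M') (hL : ∀ a ∈ L, a ∈ L') :
    Same L' M M' := fun b hb => h b fun hb' => hb (hL b hb')

theorem Same.write {L : List ℕ} {M M' : Mem} (h : Same L M M') {a : ℕ} (ha : a ∈ L) (i j z : ℤ) :
    Same L M (M'.write a i j z) := by
  intro b hb
  have hba : b ≠ a := by
    rintro rfl
    exact hb ha
  rw [Mem.write_arr _ hba]
  exact h b hb

theorem Det.same {c : Cmd} {M : Mem} {Q : Mem → Prop} (h : Det W Λ c M Q) :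
    Det W Λ c M (fun M' => Q M' ∧ Same c.Wr M M') := h.fr

/-! ### Folds -/

/-- `s := e0; for i := 0 to n - 1 do s := e` -/
def Cmd.fold (s i : ℕ) (n e0 e : Expr) : Cmd :=
  .seq (.setv s e0) (.forL i n (.setv s e))

@[simp] theorem Cmd.Wr_fold (s i : ℕ) (n e0 e : Expr) : (Cmd.fold s i n e0 e).Wr = [s, i, s, i] :=
  rfl

theorem Det.fold {M : Mem} {s i : ℕ} {en e0 e : Expr} (n : ℕ) (a : ℕ → ℤ) (hsi : s ≠ i)
    (hΛ : n ≤ Λ) (hnW : n ≤ W) (haW : ∀ k ≤ n, |a k| ≤ (W : ℤ)) (h0 : e0.val M = a 0)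
    (hn : ∀ M', Same [s, i] M M' → M' s 0 0 = a 0 → M' i 0 0 = 0 → (en.val M').toNat = n)
    (he : ∀ k < n, ∀ M', Same [s, i] M M' → M' i 0 0 = (k : ℤ) → M' s 0 0 = a k →
      e.val M' = a (k + 1)) :
    Det W Λ (.fold s i en e0 e) M (fun M' => M' s 0 0 = a n ∧ Same [s, i] M M') := by
  refine Det.seq (R := fun M' => M' s 0 0 = a 0 ∧ Same [s, i] M M')
    (Det.setv (by rw [h0]; exact haW 0 (Nat.zero_le _)) ?_) ?_
  · rw [h0]
    exact ⟨by simp, (Same.refl _ _).write (by simp) _ _ _⟩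
  · rintro M1 ⟨h1, h2⟩
    refine Det.forL (fun k M' => M' s 0 0 = a k ∧ Same [s, i] M M') n ?_ hΛ hnW ?_ ?_
      ⟨h1, h2⟩ ?_ (fun M' _ h => h)
    · refine hn _ (h2.write (by simp) _ _ _) ?_ (by simp)
      rw [Mem.write_arr _ hsi]
      exact h1
    · simp [hsi.symm]
    · rintro l M' z ⟨g1, g2⟩
      refine ⟨?_, g2.write (by simp) _ _ _⟩
      rw [Mem.write_arr _ hsi]
      exact g1
    · rintro l hl M' g0 ⟨g1, g2⟩
      have hv := he l hl M' g2 g0 g1
      refine Det.setv ?_ ?_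
      · rw [hv]; exact haW _ (by omega)
      · rw [hv]
        exact ⟨by simp, g2.write (by simp) _ _ _⟩

/-- `s := e0; for i < n, j < m do s := e` -/
def Cmd.fold2 (s i j : ℕ) (n m e0 e : Expr) : Cmd :=
  .seq (.setv s e0) (.forL i n (.forL j m (.setv s e)))

@[simp] theorem Cmd.Wr_fold2 (s i j : ℕ) (n m e0 e : Expr) :
    (Cmd.fold2 s i j n m e0 e).Wr = [s, i, j, s, j, i] := rfl

theorem Det.fold2 {M : Mem} {s i j : ℕ} {en em e0 e : Expr} (n m : ℕ) (a : ℕ → ℕ → ℤ)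
    (hsi : s ≠ i) (hsj : s ≠ j) (hij : i ≠ j)
    (hΛn : n ≤ Λ) (hnW : n ≤ W) (hΛm : m ≤ Λ) (hmW : m ≤ W)
    (haW : ∀ k ≤ n, ∀ l ≤ m, |a k l| ≤ (W : ℤ)) (h0 : e0.val M = a 0 0)
    (hstep : ∀ k < n, a k m = a (k + 1) 0)
    (hn : ∀ M', Same [s, i, j] M M' → (en.val M').toNat = n)
    (hm : ∀ M', Same [s, i, j] M M' → (em.val M').toNat = m)
    (he : ∀ k < n, ∀ l < m, ∀ M', Same [s, i, j] M M' → M' i 0 0 = (k : ℤ) → M' j 0 0 = (l : ℤ) →
      M' s 0 0 = a k l → e.val M' = a k (l + 1)) :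
    Det W Λ (.fold2 s i j en em e0 e) M
      (fun M' => M' s 0 0 = a n 0 ∧ Same [s, i, j] M M') := by
  refine Det.seq (R := fun M' => M' s 0 0 = a 0 0 ∧ Same [s, i, j] M M')
    (Det.setv (by rw [h0]; exact haW 0 (Nat.zero_le _) 0 (Nat.zero_le _)) ?_) ?_
  · rw [h0]
    exact ⟨by simp, (Same.refl _ _).write (by simp) _ _ _⟩
  · rintro M1 ⟨h1, h2⟩
    refine Det.forL (fun k M' => M' s 0 0 = a k 0 ∧ Same [s, i, j] M M') n ?_ hΛn hnW ?_ ?_
      ⟨h1, h2⟩ ?_ (fun M' _ h => h)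
    · exact hn _ (h2.write (by simp) _ _ _)
    · simp [hsi.symm, hij]
    · rintro l M' z ⟨g1, g2⟩
      refine ⟨?_, g2.write (by simp) _ _ _⟩
      rw [Mem.write_arr _ hsi]
      exact g1
    · rintro k hk M' g0 ⟨g1, g2⟩
      refine Det.forL (fun l M'' => M'' i 0 0 = (k : ℤ) ∧ M'' s 0 0 = a k l ∧
        Same [s, i, j] M M'') m ?_ hΛm hmW ?_ ?_ ⟨g0, g1, g2⟩ ?_ ?_
      · exact hm _ (g2.write (by simp) _ _ _)
      · simp [hsj.symm]
      · rintro l M'' z ⟨r0, r1, r2⟩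
        refine ⟨?_, ?_, r2.write (by simp) _ _ _⟩
        · rw [Mem.write_arr _ hij]
          exact r0
        · rw [Mem.write_arr _ hsj]
          exact r1
      · rintro l hl M'' r r' 
        obtain ⟨r0, r1, r2⟩ := r'
        have hv := he k hk l hl M'' r2 r0 r r1
        refine Det.setv ?_ ?_
        · rw [hv]; exact haW _ hk.le _ (by omega)
        · rw [hv]
          refine ⟨?_, by simp, r2.write (by simp) _ _ _⟩
          rw [Mem.write_arr _ hsi.symm]
          exact r0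
      · rintro M'' _ ⟨_, r1, r2⟩
        exact ⟨by rw [r1, hstep k hk], r2⟩

/-- sum of `F` over `k < n` -/
theorem Det.sum1 {M : Mem} {s i : ℕ} {en e : Expr} (n : ℕ) (F : ℕ → ℤ) (hsi : s ≠ i)
    (hΛ : n ≤ Λ) (hnW : n ≤ W) (haW : ∀ k ≤ n, |∑ l ∈ Finset.range k, F l| ≤ (W : ℤ))
    (hn : ∀ M', Same [s, i] M M' → (en.val M').toNat = n)
    (he : ∀ k < n, ∀ M', Same [s, i] M M' → M' i 0 0 = (k : ℤ) → e.val M' = F k) :
    Det W Λ (.fold s i en (.lit 0) (.add (.v s) e)) M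
      (fun M' => M' s 0 0 = ∑ l ∈ Finset.range n, F l ∧ Same [s, i] M M') := by
  refine Det.fold n (fun k => ∑ l ∈ Finset.range k, F l) hsi hΛ hnW haW (by simp [Expr.val])
    (fun M' h _ _ => hn M' h) ?_
  intro k hk M' h1 h2 h3
  simp only [Expr.val, h3, he k hk M' h1 h2]
  rw [Finset.sum_range_succ]

/-- product of `F` over `k < n` -/
theorem Det.prod1 {M : Mem} {s i : ℕ} {en e : Expr} (n : ℕ) (F : ℕ → ℤ) (hsi : s ≠ i)
    (hΛ : n ≤ Λ) (hnW : n ≤ W) (haW : ∀ k ≤ n, |∏ l ∈ Finset.range k, F l| ≤ (W : ℤ))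
    (hn : ∀ M', Same [s, i] M M' → (en.val M').toNat = n)
    (he : ∀ k < n, ∀ M', Same [s, i] M M' → M' i 0 0 = (k : ℤ) → e.val M' = F k) :
    Det W Λ (.fold s i en (.lit 1) (.mul (.v s) e)) M
      (fun M' => M' s 0 0 = ∏ l ∈ Finset.range n, F l ∧ Same [s, i] M M') := by
  refine Det.fold n (fun k => ∏ l ∈ Finset.range k, F l) hsi hΛ hnW haW (by simp [Expr.val])
    (fun M' h _ _ => hn M' h) ?_
  intro k hk M' h1 h2 h3
  simp only [Expr.val, h3, he k hk M' h1 h2]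
  rw [Finset.prod_range_succ]

/-- `s := e ^ n`, by `n` multiplications -/
theorem Det.pow {M : Mem} {s i : ℕ} {en e : Expr} (n : ℕ) (z : ℤ) (hsi : s ≠ i)
    (hΛ : n ≤ Λ) (hnW : n ≤ W) (haW : ∀ k ≤ n, |z ^ k| ≤ (W : ℤ))
    (hn : ∀ M', Same [s, i] M M' → (en.val M').toNat = n)
    (he : ∀ M', Same [s, i] M M' → e.val M' = z) :
    Det W Λ (.fold s i en (.lit 1) (.mul (.v s) e)) M
      (fun M' => M' s 0 0 = z ^ n ∧ Same [s, i] M M') := by
  refine Det.fold n (fun k => z ^ k) hsi hΛ hnW haW (by simp [Expr.val])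
    (fun M' h _ _ => hn M' h) ?_
  intro k hk M' h1 h2 h3
  simp only [Expr.val, h3, he M' h1]
  rw [pow_succ]

/-- sum of `F k l` over `k < n`, `l < m`; `B` bounds all partial sums (e.g. the sum of absolute
values) -/
theorem Det.sum2 {M : Mem} {s i j : ℕ} {en em e : Expr} (n m : ℕ) (F : ℕ → ℕ → ℤ)
    (hsi : s ≠ i) (hsj : s ≠ j) (hij : i ≠ j)
    (hΛn : n ≤ Λ) (hnW : n ≤ W) (hΛm : m ≤ Λ) (hmW : m ≤ W)
    (haW : ∑ k ∈ Finset.range n, ∑ l ∈ Finset.range m, |F k l| ≤ (W : ℤ))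
    (hn : ∀ M', Same [s, i, j] M M' → (en.val M').toNat = n)
    (hm : ∀ M', Same [s, i, j] M M' → (em.val M').toNat = m)
    (he : ∀ k < n, ∀ l < m, ∀ M', Same [s, i, j] M M' → M' i 0 0 = (k : ℤ) →
      M' j 0 0 = (l : ℤ) → e.val M' = F k l) :
    Det W Λ (.fold2 s i j en em (.lit 0) (.add (.v s) e)) M
      (fun M' => M' s 0 0 = ∑ k ∈ Finset.range n, ∑ l ∈ Finset.range m, F k l ∧
        Same [s, i, j] M M') := by
  have h := Det.fold2 (W := W) (Λ := Λ) (M := M) (s := s) (i := i) (j := j) (en := en) (em := em)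
    (e0 := .lit 0) (e := .add (.v s) e) n m
    (fun k l => ∑ k' ∈ Finset.range k, ∑ l' ∈ Finset.range m, F k' l' +
      if k < n then ∑ l' ∈ Finset.range l, F k l' else 0)
    hsi hsj hij hΛn hnW hΛm hmW ?_ (by simp [Expr.val]) ?_ hn hm ?_
  · simpa using h
  · intro k hk l hl
    refine le_trans ?_ haW
    refine (abs_add_le _ _).trans ?_
    have h1 : |∑ k' ∈ Finset.range k, ∑ l' ∈ Finset.range m, F k' l'|
        ≤ ∑ k' ∈ Finset.range k, ∑ l' ∈ Finset.range m, |F k' l'| :=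
      (Finset.abs_sum_le_sum_abs _ _).trans
        (Finset.sum_le_sum fun k' _ => Finset.abs_sum_le_sum_abs _ _)
    by_cases hkn : k < n
    · rw [if_pos hkn]
      have h2 : |∑ l' ∈ Finset.range l, F k l'| ≤ ∑ l' ∈ Finset.range m, |F k l'| :=
        (Finset.abs_sum_le_sum_abs _ _).trans
          (Finset.sum_le_sum_of_subset_of_nonneg (by simpa using hl) fun _ _ _ => abs_nonneg _)
      have h3 : ∑ k' ∈ Finset.range (k + 1), ∑ l' ∈ Finset.range m, |F k' l'|
          ≤ ∑ k' ∈ Finset.range n, ∑ l' ∈ Finset.range m, |F k' l'| :=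
        Finset.sum_le_sum_of_subset_of_nonneg (by simpa using hkn)
          fun _ _ _ => Finset.sum_nonneg fun _ _ => abs_nonneg _
      rw [Finset.sum_range_succ] at h3
      linarith
    · obtain rfl : k = n := by omega
      rw [if_neg hkn]
      simpa using h1
  · intro k hk
    simp only [hk, if_true, Finset.sum_range_succ (fun k' => ∑ l' ∈ Finset.range m, F k' l') k]
    simp
  · intro k hk l hl M' h1 h2 h3 h4
    simp only [Expr.val, h4, he k hk l hl M' h1 h2 h3, hk, if_true]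
    rw [Finset.sum_range_succ (fun l' => F k l') l]
    ring

theorem one_le_prodZ {s : Finset ℕ} {f : ℕ → ℤ} (h : ∀ i ∈ s, 1 ≤ f i) : 1 ≤ ∏ i ∈ s, f i := by
  induction s using Finset.cons_induction with
  | empty => simp
  | cons a s ha ih =>
      rw [Finset.prod_cons]
      have h1 := h a (Finset.mem_cons_self _ _)
      have h2 := ih fun i hi => h i (Finset.mem_cons_of_mem hi)
      nlinarith

theorem prodZ_mono {a b : ℕ} {f : ℕ → ℤ} (hab : a ≤ b) (h : ∀ i < b, 1 ≤ f i) :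
    ∏ i ∈ Finset.range a, f i ≤ ∏ i ∈ Finset.range b, f i := by
  rw [← Finset.prod_range_mul_prod_Ico f hab]
  have h1 : 1 ≤ ∏ i ∈ Finset.range a, f i := one_le_prodZ fun i hi => h i (by
    simp only [Finset.mem_range] at hi; omega)
  have h2 : 1 ≤ ∏ i ∈ Finset.Ico a b, f i := one_le_prodZ fun i hi => h i (by
    simp only [Finset.mem_Ico] at hi; omega)
  nlinarith

/-- product of `F k l` over `k < n`, `l < m` when all `F k l ≥ 1` -/
theorem Det.prod2 {M : Mem} {s i j : ℕ} {en em e : Expr} (n m : ℕ) (F : ℕ → ℕ → ℤ)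
    (hsi : s ≠ i) (hsj : s ≠ j) (hij : i ≠ j)
    (hΛn : n ≤ Λ) (hnW : n ≤ W) (hΛm : m ≤ Λ) (hmW : m ≤ W)
    (hF : ∀ k < n, ∀ l < m, 1 ≤ F k l)
    (haW : ∏ k ∈ Finset.range n, ∏ l ∈ Finset.range m, F k l ≤ (W : ℤ))
    (hn : ∀ M', Same [s, i, j] M M' → (en.val M').toNat = n)
    (hm : ∀ M', Same [s, i, j] M M' → (em.val M').toNat = m)
    (he : ∀ k < n, ∀ l < m, ∀ M', Same [s, i, j] M M' → M' i 0 0 = (k : ℤ) →
      M' j 0 0 = (l : ℤ) → e.val M' = F k l) :
    Det W Λ (.fold2 s i j en em (.lit 1) (.mul (.v s) e)) M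
      (fun M' => M' s 0 0 = ∏ k ∈ Finset.range n, ∏ l ∈ Finset.range m, F k l ∧
        Same [s, i, j] M M') := by
  have h := Det.fold2 (W := W) (Λ := Λ) (M := M) (s := s) (i := i) (j := j) (en := en) (em := em)
    (e0 := .lit 1) (e := .mul (.v s) e) n m
    (fun k l => (∏ k' ∈ Finset.range k, ∏ l' ∈ Finset.range m, F k' l') *
      if k < n then ∏ l' ∈ Finset.range l, F k l' else 1)
    hsi hsj hij hΛn hnW hΛm hmW ?_ (by simp [Expr.val]) ?_ hn hm ?_
  · simpa using h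
  · intro k hk l hl
    refine le_trans ?_ haW
    have hrow : ∀ k' < n, ∀ l' ≤ m, 1 ≤ ∏ l'' ∈ Finset.range l', F k' l'' := by
      intro k' hk' l' hl'
      refine one_le_prodZ fun l'' hl'' => ?_
      simp only [Finset.mem_range] at hl''
      exact hF k' hk' l'' (by omega)
    have hall : ∀ k' ≤ n, 1 ≤ ∏ k'' ∈ Finset.range k', ∏ l'' ∈ Finset.range m, F k'' l'' := by
      intro k' hk'
      refine one_le_prodZ fun k'' hk'' => ?_
      simp only [Finset.mem_range] at hk''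
      exact hrow k'' (by omega) m le_rfl
    by_cases hkn : k < n
    · rw [if_pos hkn]
      have e1 := hall k hk
      have e2 := hrow k hkn l hl
      rw [abs_of_nonneg (by positivity)]
      have h2 : ∏ l' ∈ Finset.range l, F k l' ≤ ∏ l' ∈ Finset.range m, F k l' :=
        prodZ_mono hl fun l'' hl'' => hF k hkn l'' hl''
      have h3 : ∏ k' ∈ Finset.range (k + 1), ∏ l' ∈ Finset.range m, F k' l'
          ≤ ∏ k' ∈ Finset.range n, ∏ l' ∈ Finset.range m, F k' l' :=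
        prodZ_mono (f := fun k' => ∏ l' ∈ Finset.range m, F k' l') hkn
          fun k'' hk'' => hrow k'' hk'' m le_rfl
      rw [Finset.prod_range_succ] at h3
      refine le_trans ?_ h3
      exact mul_le_mul_of_nonneg_left h2 (by linarith)
    · have hkn' : k = n := by omega
      subst hkn'
      rw [if_neg hkn, mul_one, abs_of_nonneg (by linarith [hall k le_rfl])]
  · intro k hk
    simp only [hk, if_true, Finset.prod_range_succ (fun k' => ∏ l' ∈ Finset.range m, F k' l') k]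
    simp
  · intro k hk l hl M' h1 h2 h3 h4
    simp only [Expr.val, h4, he k hk l hl M' h1 h2 h3, hk, if_true]
    rw [Finset.prod_range_succ (fun l' => F k l') l]
    ring

/-! ### Pointwise assignment -/

/-- `for i < n do A[i] := e` (column `0`) -/
def Cmd.arr1 (A i : ℕ) (n e : Expr) : Cmd := .forL i n (.set A (.v i) (.lit 0) e)

@[simp] theorem Cmd.Wr_arr1 (A i : ℕ) (n e : Expr) : (Cmd.arr1 A i n e).Wr = [i, A, i] := rfl

theorem Det.arr1 {M : Mem} {A i : ℕ} {en e : Expr} (n : ℕ) (F : ℕ → ℤ) (hAi : A ≠ i)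
    (hΛ : n ≤ Λ) (hnW : n ≤ W) (hF : ∀ k < n, |F k| ≤ (W : ℤ))
    (hn : ∀ M', Same [A, i] M M' → (en.val M').toNat = n)
    (he : ∀ k < n, ∀ M', Same [A, i] M M' → M' i 0 0 = (k : ℤ) →
      (∀ l : ℤ, (k : ℤ) ≤ l → M' A l 0 = M A l 0) → e.val M' = F k) :
    Det W Λ (.arr1 A i en e) M (fun M' => (∀ k : ℕ, k < n → M' A k 0 = F k) ∧
      (∀ k l : ℤ, ¬ (0 ≤ k ∧ k < n ∧ l = 0) → M' A k l = M A k l) ∧ Same [A, i] M M') := by
  refine Det.forL (fun k M' => (∀ k' : ℕ, k' < k → M' A k' 0 = F k') ∧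
      (∀ k' l : ℤ, ¬ (0 ≤ k' ∧ k' < k ∧ l = 0) → M' A k' l = M A k' l) ∧ Same [A, i] M M')
    n ?_ hΛ hnW ?_ ?_ ⟨fun k' hk' => absurd hk' (Nat.not_lt_zero _), fun _ _ _ => rfl,
      Same.refl _ _⟩ ?_ (fun M' _ h => h)
  · exact hn _ ((Same.refl _ _).write (by simp) _ _ _)
  · simp [hAi.symm]
  · rintro l M' z ⟨g1, g2, g3⟩
    refine ⟨?_, ?_, g3.write (by simp) _ _ _⟩
    · intro k' hk'
      rw [Mem.write_arr _ hAi]
      exact g1 k' hk'
    · intro k' l' h
      rw [Mem.write_arr _ hAi]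
      exact g2 k' l' h
  · rintro k hk M' g0 ⟨g1, g2, g3⟩
    have hv : e.val M' = F k := he k hk M' g3 g0 fun l hl => g2 l 0 (by omega)
    have hi : (Expr.v i).val M' = (k : ℤ) := by simp [Expr.val, g0]
    refine Det.set ?_ ?_
    · rw [hv]; exact hF k hk
    · rw [hv, hi]
      simp only [Expr.val]
      refine ⟨?_, ?_, g3.write (by simp) _ _ _⟩
      · intro k' hk'
        by_cases hkk : k' = k
        · subst hkk; simp
        · rw [Mem.write_cell _ _ (by omega)]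
          exact g1 k' (by omega)
      · intro k' l' h
        push_cast at h
        rw [Mem.write_cell _ _ (by omega)]
        exact g2 k' l' (by omega)

/-- `for i < n, j < m do A[i,j] := e` -/
def Cmd.arr2 (A i j : ℕ) (n m e : Expr) : Cmd := .forL i n (.forL j m (.set A (.v i) (.v j) e))

@[simp] theorem Cmd.Wr_arr2 (A i j : ℕ) (n m e : Expr) :
    (Cmd.arr2 A i j n m e).Wr = [i, j, A, j, i] := rfl

theorem Det.arr2 {M : Mem} {A i j : ℕ} {en em e : Expr} (n m : ℕ) (F : ℕ → ℕ → ℤ)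
    (hAi : A ≠ i) (hAj : A ≠ j) (hij : i ≠ j)
    (hΛn : n ≤ Λ) (hnW : n ≤ W) (hΛm : m ≤ Λ) (hmW : m ≤ W)
    (hF : ∀ k < n, ∀ l < m, |F k l| ≤ (W : ℤ))
    (hn : ∀ M', Same [A, i, j] M M' → (en.val M').toNat = n)
    (hm : ∀ M', Same [A, i, j] M M' → (em.val M').toNat = m)
    (he : ∀ k < n, ∀ l < m, ∀ M', Same [A, i, j] M M' → M' i 0 0 = (k : ℤ) →
      M' j 0 0 = (l : ℤ) → M' A k l = M A k l → e.val M' = F k l) :
    Det W Λ (.arr2 A i j en em e) M (fun M' =>
      (∀ k l : ℕ, k < n → l < m → M' A k l = F k l) ∧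
      (∀ k l : ℤ, ¬ (0 ≤ k ∧ k < n ∧ 0 ≤ l ∧ l < m) → M' A k l = M A k l) ∧
      Same [A, i, j] M M') := by
  refine Det.forL (fun r M' => (∀ k l : ℕ, k < r → l < m → M' A k l = F k l) ∧
      (∀ k l : ℤ, ¬ (0 ≤ k ∧ k < r ∧ 0 ≤ l ∧ l < m) → M' A k l = M A k l) ∧
      Same [A, i, j] M M')
    n ?_ hΛn hnW ?_ ?_ ⟨fun k _ hk => absurd hk (Nat.not_lt_zero _), fun _ _ _ => rfl,
      Same.refl _ _⟩ ?_ (fun M' _ h => h)
  · exact hn _ ((Same.refl _ _).write (by simp) _ _ _)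
  · simp [hAi.symm, hij]
  · rintro l M' z ⟨g1, g2, g3⟩
    refine ⟨?_, ?_, g3.write (by simp) _ _ _⟩
    · intro k l hk hl
      rw [Mem.write_arr _ hAi]
      exact g1 k l hk hl
    · intro k' l' h
      rw [Mem.write_arr _ hAi]
      exact g2 k' l' h
  · rintro r hr M' g0 ⟨g1, g2, g3⟩
    refine Det.forL (fun s M'' => M'' i 0 0 = (r : ℤ) ∧
        (∀ k l : ℕ, k < r → l < m → M'' A k l = F k l) ∧
        (∀ l : ℕ, l < s → M'' A r l = F r l) ∧
        (∀ k l : ℤ, ¬ (0 ≤ k ∧ k < r ∧ 0 ≤ l ∧ l < m) → ¬ (k = r ∧ 0 ≤ l ∧ l < s) →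
          M'' A k l = M A k l) ∧
        Same [A, i, j] M M'') m ?_ hΛm hmW ?_ ?_
        ⟨g0, g1, fun l hl => absurd hl (Nat.not_lt_zero _), fun k l h _ => g2 k l h, g3⟩ ?_ ?_
    · exact hm _ (g3.write (by simp) _ _ _)
    · simp [hAj.symm]
    · rintro l M'' z ⟨r0, r1, r2, r3, r4⟩
      refine ⟨?_, ?_, ?_, ?_, r4.write (by simp) _ _ _⟩
      · rw [Mem.write_arr _ hij]; exact r0
      · intro k l hk hl
        rw [Mem.write_arr _ hAj]; exact r1 k l hk hl
      · intro l hl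
        rw [Mem.write_arr _ hAj]; exact r2 l hl
      · intro k l h1 h2
        rw [Mem.write_arr _ hAj]; exact r3 k l h1 h2
    · intro s hs M'' q0 q
      obtain ⟨r0, r1, r2, r3, r4⟩ := q
      have hv : e.val M'' = F r s :=
        he r hr s hs M'' r4 r0 q0 (r3 r s (by omega) (by omega))
      have hi' : (Expr.v i).val M'' = (r : ℤ) := by simp [Expr.val, r0]
      have hj' : (Expr.v j).val M'' = (s : ℤ) := by simp [Expr.val, q0]
      refine Det.set ?_ ?_
      · rw [hv]; exact hF r hr s hs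
      · rw [hv, hi', hj']
        refine ⟨?_, ?_, ?_, ?_, r4.write (by simp) _ _ _⟩
        · rw [Mem.write_arr _ hAi.symm]; exact r0
        · intro k l hk hl
          rw [Mem.write_cell _ _ (by omega)]; exact r1 k l hk hl
        · intro l hl
          by_cases hls : l = s
          · subst hls; simp
          · rw [Mem.write_cell _ _ (by omega)]; exact r2 l (by omega)
        · intro k l h1 h2
          push_cast at h2
          rw [Mem.write_cell _ _ (by omega)]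
          exact r3 k l h1 (by omega)
    · rintro M'' _ ⟨r0, r1, r2, r3, r4⟩
      refine ⟨?_, ?_, r4⟩
      · intro k l hk hl
        by_cases hkr : k = r
        · subst hkr; exact r2 l hl
        · exact r1 k l (by omega) hl
      · intro k l h
        push_cast at h
        exact r3 k l (by omega) (by omega)

/-! ### Minimum, maximum -/

/-- `x := min e f` -/
def Cmd.minv (x : ℕ) (e f : Expr) : Cmd := .ite (.sub f e) (.setv x e) (.setv x f)

/-- `x := max e f` -/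
def Cmd.maxv (x : ℕ) (e f : Expr) : Cmd := .ite (.sub f e) (.setv x f) (.setv x e)

@[simp] theorem Cmd.Wr_minv (x : ℕ) (e f : Expr) : (Cmd.minv x e f).Wr = [x, x] := rfl

@[simp] theorem Cmd.Wr_maxv (x : ℕ) (e f : Expr) : (Cmd.maxv x e f).Wr = [x, x] := rfl

theorem Det.minv {M : Mem} {Q : Mem → Prop} {x : ℕ} {e f : Expr}
    (hW : |min (e.val M) (f.val M)| ≤ (W : ℤ))
    (hQ : Q (M.write x 0 0 (min (e.val M) (f.val M)))) : Det W Λ (.minv x e f) M Q := by
  refine Det.ite (fun h => ?_) (fun h => ?_)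
  · simp only [Expr.val] at h
    rw [min_eq_left (by omega)] at hW hQ
    exact Det.setv hW hQ
  · simp only [Expr.val] at h
    rw [min_eq_right (by omega)] at hW hQ
    exact Det.setv hW hQ

theorem Det.maxv {M : Mem} {Q : Mem → Prop} {x : ℕ} {e f : Expr}
    (hW : |max (e.val M) (f.val M)| ≤ (W : ℤ))
    (hQ : Q (M.write x 0 0 (max (e.val M) (f.val M)))) : Det W Λ (.maxv x e f) M Q := by
  refine Det.ite (fun h => ?_) (fun h => ?_)
  · simp only [Expr.val] at h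
    rw [max_eq_right (by omega)] at hW hQ
    exact Det.setv hW hQ
  · simp only [Expr.val] at h
    rw [max_eq_left (by omega)] at hW hQ
    exact Det.setv hW hQ

end Vale.Agent.P328RAM
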