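import Vale.Agent.P328RAM.PassC

/-!
# Passes and the body of the program
-/

namespace Vale.Agent.P328RAM

open Vale.Agent.P328R

variable {W Λ : ℕ} {p : Par} {m n : ℕ} {g : Mg}

/-- one pass -/
theorem passC_sim2 {stepC : Cmd} {SP : Mem → Prop} {P T S A A1 : ℕ}
    (hv : Valid m n g) (hz : Sizes p m n g P T S W Λ A A1)
    (hstep : StepOK p m n g P W Λ A A1 stepC SP)
    (hmW : m ≤ Λ ∧ m ≤ W) (hnW : n ≤ Λ ∧ n ≤ W) {M : Mem} {s : ℕ}
    (hR : RunPar p m n P T S M) (hS : SchedOK g m n P M) (hSP : SP M)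
    (hcnt : ∀ k, 0 ≤ cnt M k ∧ cnt M k ≤ s) (hs : s + 2 ≤ W) :
    Sim W Λ (G.passC stepC) M cnt (passK p g m n T P (cnt M))
      (fun M' => RunPar p m n P T S M' ∧ SchedOK g m n P M' ∧ SP M' ∧
        ∀ k, 0 ≤ cnt M' k ∧ cnt M' k ≤ ((s + 1 : ℕ) : ℤ)) := by
  refine Det.seqSim (Det.arr2 m n (fun _ _ => 0) (by decide) (by decide) (by decide) hmW.1 hmW.2
    hnW.1 hnW.2 (fun _ _ _ _ => by simp) ?_ ?_ (fun _ _ _ _ _ _ _ _ _ => by simp [Expr.val])) ?_
  · intro M' h
    simp [G.em, Expr.val, h 0 (by decide), hR.m_eq]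
  · intro M' h
    simp [G.en, Expr.val, h 0 (by decide), hR.n_eq]
  rintro M1 ⟨a1, -, a2⟩
  have hR1 := hR.same p a2 (by decide)
  have hS1 := hS.same g a2 (by decide)
  have hSP1 := hstep.same M M1 (a2.mono (by decide)) hSP
  have htab : tab m n M1 = 0 := by
    funext e
    exact a1 e.1 e.2 e.1.2 e.2.2
  have hcn : cnt M1 = cnt M := by
    funext e; simp only [cnt]; rw [a2 52 (by decide)]
  have hfor := Sim.forL (W := W) (Λ := Λ) (M := M1) (i := 53) (e := .v 50)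
    (c := G.phaseC stepC) (f := fun M' => (tab m n M', cnt M'))
    (Q := fun M' => RunPar p m n P T S M' ∧ SchedOK g m n P M' ∧ SP M' ∧
        ∀ k, 0 ≤ cnt M' k ∧ cnt M' k ≤ ((s + 1 : ℕ) : ℤ))
    (fun l => phaseK p g T (P - 1 - l))
    (fun l M' => RunPar p m n P T S M' ∧ SchedOK g m n P M' ∧ SP M' ∧
      (∀ e, |tab m n M' e| ≤ ((l * A : ℕ) : ℤ)) ∧
      ∀ k, 0 ≤ cnt M' k ∧ cnt M' k ≤ ((s + if P ≤ k + l then 1 else 0 : ℕ) : ℤ)) P
    ?_ hz.P_le.1 hz.P_le.2 ?_ ?_ ?_ ?_ ?_ ?_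
  · have h2 := hfor.map Prod.snd
    rw [htab, hcn] at h2
    exact h2
  · simp [Expr.val, Mem.write, hR1.P_eq]
  · have h53 := hstep.wr 53 (by decide)
    simp only [G.phaseC, Cmd.Wr_seq, Cmd.Wr_rep, List.mem_append, not_or]
    exact ⟨by decide, h53, by decide⟩
  · intro M' z
    refine Prod.ext ?_ ?_
    · funext e; simp only [tab]; rw [Mem.write_arr _ (by decide)]
    · funext e; simp only [cnt]; rw [Mem.write_arr _ (by decide)]
  · rintro l M' z ⟨q1, q2, q3, q4, q5⟩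
    have hs' : Same [53] M' (M'.write 53 0 0 z) := (Same.refl _ _).write (by decide) _ _ _
    refine ⟨q1.same p hs' (by decide), q2.same g hs' (by decide),
      hstep.same _ _ (hs'.mono (by decide)) q3, ?_, ?_⟩
    · intro e
      simp only [tab]
      rw [Mem.write_arr _ (by decide)]
      exact q4 e
    · intro k
      simp only [cnt]
      rw [Mem.write_arr _ (by decide)]
      exact q5 k
  · refine ⟨hR1, hS1, hSP1, ?_, ?_⟩
    · intro e; rw [htab]; simp
    · intro k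
      rw [hcn]
      refine ⟨(hcnt k).1, (hcnt k).2.trans ?_⟩
      exact_mod_cast Nat.le_add_right _ _
  · rintro l hl M' h53 ⟨q1, q2, q3, q4, q5⟩
    have hA1 : l * A + A ≤ A1 := by
      have h1 := hz.A1_le
      have h2 : (l + 1) * A ≤ (P + 2) * A := Nat.mul_le_mul_right _ (by omega)
      have h3 : l * A + A = (l + 1) * A := by ring
      omega
    refine (phaseC_sim2 hv hz hstep (S' := s + 1) hl h53 q1 q2 q3 hA1 q4 ?_ (by omega)).mono ?_
    · intro k
      refine ⟨(q5 k).1, (q5 k).2.trans ?_⟩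
      have : s + (if P ≤ k + l then 1 else 0) ≤ s + 1 := by split_ifs <;> omega
      exact_mod_cast this
    · rintro M2 ⟨r1, r2, r3, r4, r5, -⟩
      refine ⟨r1, r2, r3, ?_, ?_⟩
      · intro e
        have h3 : l * A + A = (l + 1) * A := by ring
        rw [← h3]
        exact r4 e
      · intro k
        have h5 := q5 k
        rcases r5 k with h | ⟨hk, h⟩
        · rw [h]
          refine ⟨h5.1, h5.2.trans ?_⟩
          have : s + (if P ≤ k + l then 1 else 0) ≤ s + (if P ≤ k + (l + 1) then 1 else 0) := by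
            split_ifs <;> omega
          exact_mod_cast this
        · rw [h]
          rw [if_neg (by omega)] at h5
          rw [if_pos (by omega)]
          refine ⟨by omega, ?_⟩
          push_cast at h5 ⊢
          omega
  · rintro M' - ⟨q1, q2, q3, q4, q5⟩
    refine ⟨q1, q2, q3, ?_⟩
    intro k
    refine ⟨(q5 k).1, (q5 k).2.trans ?_⟩
    have : s + (if P ≤ k + P then 1 else 0) ≤ s + 1 := by split_ifs <;> omega
    exact_mod_cast this

/-- the output -/
def outOf (M : Mem) : ℤ × ℤ := (M 3 0 0, M 3 1 0)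

theorem outC_det {P T S : ℕ} {M : Mem} (hR : RunPar p m n P T S M)
    (hcnt : ∀ k, 0 ≤ cnt M k ∧ cnt M k ≤ S) (hPW : P ≤ Λ ∧ P ≤ W) (hSW : S ^ P ≤ W)
    (hW1 : 1 ≤ W) :
    Det W Λ G.outC M (fun M' => outOf M' = ((S : ℤ) ^ P, ∏ k ∈ Finset.range P, cnt M k)) := by
  have hpow : ∀ k ≤ P, S ^ k ≤ W := by
    intro k hk
    rcases Nat.eq_zero_or_pos S with h0 | h0
    · subst h0
      rcases Nat.eq_zero_or_pos k with hk0 | hk0
      · subst hk0; simpa using hW1
      · rw [zero_pow (by omega)]; omega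
    · exact (Nat.pow_le_pow_right h0 hk).trans hSW
  refine Det.seq (Det.pow P (S : ℤ) (by decide) hPW.1 hPW.2 ?_ ?_ ?_) ?_
  · intro k hk
    rw [abs_of_nonneg (by positivity)]
    exact_mod_cast hpow k hk
  · intro M' h; simp [Expr.val, h 50 (by decide), hR.P_eq]
  · intro M' h; simp [Expr.val, h 20 (by decide), hR.S_eq]
  rintro M1 ⟨a1, a2⟩
  refine Det.seq (Det.prod1 P (fun k => cnt M k) (by decide) hPW.1 hPW.2 ?_ ?_ ?_) ?_
  · intro k hk
    rw [abs_of_nonneg (Finset.prod_nonneg fun i _ => (hcnt i).1)]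
    have h1 : ∏ l ∈ Finset.range k, cnt M l ≤ ∏ _l ∈ Finset.range k, (S : ℤ) :=
      Finset.prod_le_prod (fun i _ => (hcnt i).1) fun i _ => (hcnt i).2
    rw [Finset.prod_const, Finset.card_range] at h1
    refine h1.trans ?_
    exact_mod_cast hpow k hk
  · intro M' h; simp [Expr.val, h 50 (by decide), a2 50 (by decide), hR.P_eq]
  · intro k hk M' h h7
    simp only [Expr.val, h7, h 52 (by decide), a2 52 (by decide)]
    rfl
  rintro M2 ⟨b1, b2⟩
  have e35 : M2 35 0 0 = (S : ℤ) ^ P := by rw [b2 35 (by decide)]; exact a1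
  refine Det.bdd fun hB => ?_
  refine Det.seq (R := fun M' => M' = M2.write 3 0 0 ((S : ℤ) ^ P)) (Det.set ?_ ?_) ?_
  · simp only [Expr.val]; exact hB 35 0 0
  · simp only [Expr.val, e35]
  rintro M3 rfl
  refine Det.set ?_ ?_
  · simp only [Expr.val]
    rw [Mem.write_arr _ (by decide)]
    exact hB 36 0 0
  · simp only [Expr.val]
    rw [Mem.write_arr _ (by decide), b1]
    unfold outOf
    refine Prod.ext ?_ ?_
    · simp [Mem.write]
    · simp [Mem.write]

/-- **The body.** -/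
theorem bodyC_sim2 {stepC : Cmd} {SP : Mem → Prop} {P T S A A1 : ℕ}
    (hv : Valid m n g) (hz : Sizes p m n g P T S W Λ A A1)
    (hstep : StepOK p m n g P W Λ A A1 stepC SP)
    (hmW : m ≤ Λ ∧ m ≤ W) (hnW : n ≤ Λ ∧ n ≤ W) {M : Mem}
    (hR : RunPar p m n P T S M) (hSP : SP M)
    (h1 : ∀ i : ℕ, i < m → M 1 i 0 = g.r i) (h2 : ∀ j : ℕ, j < n → M 2 j 0 = g.c j)
    (hcnt : ∀ k, cnt M k = 0) (hSPW : S ^ P ≤ W) (hS2 : S + 2 ≤ W) :
    Sim W Λ (G.bodyC stepC) M outOf
      ((counts p g m n T P S).map fun c => ((S : ℤ) ^ P, ∏ k ∈ Finset.range P, c k))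
      (fun _ => True) := by
  refine Det.seqSim (schedC_det g hv hR.m_eq hR.n_eq hR.P_eq h1 h2 hR.mx_eq (by omega) hmW hnW
    hz.P_le) ?_
  rintro M1 ⟨a1, a2⟩
  have hR1 := hR.same p a2 (by decide)
  have hSP1 := hstep.same M M1 (a2.mono (by decide)) hSP
  have hcn : cnt M1 = fun _ => 0 := by
    funext k
    simp only [cnt]
    rw [a2 52 (by decide)]
    exact hcnt k
  have hrep := Sim.rep (W := W) (Λ := Λ) (M := M1) (e := .v 20) (c := G.passC stepC) (f := cnt)
    (Q := fun M' => RunPar p m n P T S M' ∧ SchedOK g m n P M' ∧ SP M' ∧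
        ∀ k, 0 ≤ cnt M' k ∧ cnt M' k ≤ (S : ℤ))
    (passK p g m n T P)
    (fun s M' => RunPar p m n P T S M' ∧ SchedOK g m n P M' ∧ SP M' ∧
        ∀ k, 0 ≤ cnt M' k ∧ cnt M' k ≤ (s : ℤ)) S
    (by simp [Expr.val, hR1.S_eq]) hz.S_le.1 ⟨hR1, a1, hSP1, fun k => by rw [hcn]; simp⟩ ?_
    (fun _ h => h)
  swap
  · rintro s hs M' ⟨q1, q2, q3, q4⟩
    exact passC_sim2 hv hz hstep hmW hnW q1 q2 q3 q4 (by omega)
  rw [hcn] at hrep
  have hmap : ((counts p g m n T P S).map fun c => ((S : ℤ) ^ P, ∏ k ∈ Finset.range P, c k))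
      = (iterBind (passK p g m n T P) S fun _ => 0).bind fun c =>
        PMF.pure ((S : ℤ) ^ P, ∏ k ∈ Finset.range P, c k) := rfl
  rw [hmap]
  refine Sim.seq hrep ?_
  rintro M2 ⟨q1, q2, q3, q4⟩
  exact ((outC_det q1 q4 hz.P_le hSPW (by omega)).sim (f := outOf) fun M' h => h).mono
    fun _ _ => trivial

end Vale.Agent.P328RAM
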