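import Vale.Agent.P328RAM.Arr

namespace Vale.Agent.P328RAM

open P

variable {W Λ m n : ℕ} {M : Mem} {r c : ℕ → ℤ}

theorem dev_abs_sum_le {A k : ℕ} {f : ℕ → ℤ} (h : ∀ j < k, |f j| ≤ (A : ℤ)) :
    |∑ j ∈ Finset.range k, f j| ≤ ((k * A : ℕ) : ℤ) := by
  calc |∑ j ∈ Finset.range k, f j| ≤ ∑ j ∈ Finset.range k, |f j| :=
        Finset.abs_sum_le_sum_abs _ _
    _ ≤ ∑ _j ∈ Finset.range k, (A : ℤ) :=
        Finset.sum_le_sum fun j hj => h j (Finset.mem_range.1 hj)
    _ = ((k * A : ℕ) : ℤ) := by simp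

/-- the deviation written with natural number indices -/
theorem dev_eq_range (m n : ℕ) (M : Mem) :
    dev (vecOf 5 M) (tabOf m n 4 M) =
      ∑ i ∈ Finset.range m, |∑ j ∈ Finset.range n, M 4 i j - M 5 i 0| := by
  unfold dev
  rw [Finset.sum_range]
  refine Finset.sum_congr rfl fun i _ => ?_
  unfold rowSum
  rw [Finset.sum_range]
  rfl

/-- C3. The deviation routine. -/
theorem devC_det (hm : M 0 0 0 = m) (hn : M 0 1 0 = n) {A : ℕ}
    (hA : ∀ e, |tabOf m n 4 M e| ≤ (A : ℤ)) (hR : ∀ i < m, |M 5 i 0| ≤ (A : ℤ))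
    (hW : (m + 1) * (n + 2) * (A + 1) ≤ W) (hmΛ : m ≤ Λ) (hnΛ : n ≤ Λ) :
    Det W Λ devC M (fun M' => M' 10 0 0 = dev (vecOf 5 M) (tabOf m n 4 M)) := by
  have hA' : ∀ i < m, ∀ j < n, |M 4 i j| ≤ (A : ℤ) := fun i hi j hj => hA (⟨i, hi⟩, ⟨j, hj⟩)
  have hmW : m + 1 ≤ W := by
    refine le_trans ?_ hW
    calc m + 1 = (m + 1) * 1 * 1 := by ring
      _ ≤ (m + 1) * (n + 2) * (A + 1) := by gcongr <;> omega
  have hnW : n + 1 ≤ W := by
    refine le_trans ?_ hW
    calc n + 1 = 1 * (n + 1) * 1 := by ring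
      _ ≤ (m + 1) * (n + 2) * (A + 1) := by gcongr <;> omega
  have hrow : ∀ i < m, ∀ k ≤ n, |∑ j ∈ Finset.range k, M 4 i j| ≤ ((k * A : ℕ) : ℤ) := by
    intro i hi k hk
    exact dev_abs_sum_le fun j hj => hA' i hi j (by omega)
  have hnA : (n + 1) * A ≤ W := by
    refine le_trans ?_ hW
    calc (n + 1) * A = 1 * (n + 1) * A := by ring
      _ ≤ (m + 1) * (n + 2) * (A + 1) := by gcongr <;> omega
  have hterm : ∀ i < m, |∑ j ∈ Finset.range n, M 4 i j - M 5 i 0| ≤ (((n + 1) * A : ℕ) : ℤ) := by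
    intro i hi
    have h1 := hrow i hi n le_rfl
    have h2 := hR i hi
    have h3 := abs_sub (∑ j ∈ Finset.range n, M 4 i j) (M 5 i 0)
    push_cast at h1 ⊢
    linarith
  have hmn : m * ((n + 1) * A) ≤ W := by
    refine le_trans ?_ hW
    rw [← mul_assoc]
    gcongr <;> omega
  have htot : ∀ k ≤ m, 0 ≤ ∑ i ∈ Finset.range k, |∑ j ∈ Finset.range n, M 4 i j - M 5 i 0| ∧
      ∑ i ∈ Finset.range k, |∑ j ∈ Finset.range n, M 4 i j - M 5 i 0| ≤ (W : ℤ) := by
    intro k hk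
    refine ⟨Finset.sum_nonneg fun _ _ => abs_nonneg _, ?_⟩
    calc ∑ i ∈ Finset.range k, |∑ j ∈ Finset.range n, M 4 i j - M 5 i 0| ≤
          ∑ _i ∈ Finset.range k, (((n + 1) * A : ℕ) : ℤ) :=
          Finset.sum_le_sum fun i hi => hterm i (by have := Finset.mem_range.1 hi; omega)
      _ = ((k * ((n + 1) * A) : ℕ) : ℤ) := by simp
      _ ≤ ((m * ((n + 1) * A) : ℕ) : ℤ) := by
          exact_mod_cast Nat.mul_le_mul_right _ hk
      _ ≤ (W : ℤ) := by exact_mod_cast hmn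
  rw [dev_eq_range]
  unfold devC
  refine Det.seq (asg_det' (z := 0) rfl (by simp)) ?_
  rintro M1 rfl
  refine Det.seq (asg_det' (z := 0) rfl (by simp)) ?_
  rintro M2 rfl
  refine Det.rep (fun (i : ℕ) (M' : Mem) => M' 7 0 0 = (i : ℤ) ∧
    M' 10 0 0 = ∑ i' ∈ Finset.range i, |∑ j ∈ Finset.range n, M 4 i' j - M 5 i' 0| ∧
    M' 0 = M 0 ∧ M' 4 = M 4 ∧ M' 5 = M 5) m ?_ hmΛ ?_ ?_ ?_
  · simp [P.m, Expr.val, Mem.write, hm]
  · refine ⟨by simp [Mem.write], by simp [Mem.write], ?_, ?_, ?_⟩ <;>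
      · funext k l; simp [Mem.write]
  · rintro i hi M' ⟨e1, e2, e3, e4, e5⟩
    refine Det.seq (asg_det' (z := 0) rfl (by simp)) ?_
    rintro M3 rfl
    refine Det.seq (asg_det' (z := 0) rfl (by simp)) ?_
    rintro M4 rfl
    -- the row sum
    refine Det.seq (R := fun (M'' : Mem) => M'' 7 0 0 = (i : ℤ) ∧
      M'' 10 0 0 = ∑ i' ∈ Finset.range i, |∑ j ∈ Finset.range n, M 4 i' j - M 5 i' 0| ∧
      M'' 0 = M 0 ∧ M'' 4 = M 4 ∧ M'' 5 = M 5 ∧
      M'' 9 0 0 = ∑ j ∈ Finset.range n, M 4 i j) ?_ ?_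
    · refine Det.rep (fun (k : ℕ) (M'' : Mem) => M'' 8 0 0 = (k : ℤ) ∧ M'' 7 0 0 = (i : ℤ) ∧
        M'' 10 0 0 = ∑ i' ∈ Finset.range i, |∑ j ∈ Finset.range n, M 4 i' j - M 5 i' 0| ∧
        M'' 0 = M 0 ∧ M'' 4 = M 4 ∧ M'' 5 = M 5 ∧
        M'' 9 0 0 = ∑ j ∈ Finset.range k, M 4 i j) n ?_ hnΛ ?_ ?_ ?_
      · simp [P.n, Expr.val, Mem.write, e3, hn]
      · refine ⟨by simp [Mem.write], by simp [Mem.write, e1], by simp [Mem.write, e2],
          ?_, ?_, ?_, by simp [Mem.write]⟩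
        · funext k l; simp [Mem.write, e3]
        · funext k l; simp [Mem.write, e4]
        · funext k l; simp [Mem.write, e5]
      · rintro k hk M5 ⟨f1, f2, f3, f4, f5, f6, f7⟩
        have hval : (Expr.add (P.v 9) (.get 4 (P.v 7) (P.v 8))).val M5 =
            ∑ j ∈ Finset.range (k + 1), M 4 i j := by
          rw [Finset.sum_range_succ]
          simp [Expr.val, v_val, f1, f2, f5, f7]
        refine Det.seq (asg_det' hval ?_) ?_
        · refine (hrow i hi (k + 1) (by omega)).trans ?_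
          have : (k + 1) * A ≤ W := (Nat.mul_le_mul_right _ (by omega)).trans hnA
          exact_mod_cast this
        rintro M6 rfl
        refine (inc_det (k := k) (by simp [Mem.write, f1]) (by omega)).mono ?_
        rintro M7 rfl
        refine ⟨by simp [Mem.write], by simp [Mem.write, f2], by simp [Mem.write, f3],
          ?_, ?_, ?_, by simp [Mem.write]⟩
        · funext k l; simp [Mem.write, f4]
        · funext k l; simp [Mem.write, f5]
        · funext k l; simp [Mem.write, f6]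
      · rintro M8 ⟨_, f2, f3, f4, f5, f6, f7⟩
        exact ⟨f2, f3, f4, f5, f6, f7⟩
    rintro M5 ⟨g1, g2, g3, g4, g5, g6⟩
    -- subtract the target
    obtain ⟨z, hz⟩ : ∃ z : ℤ, z = ∑ j ∈ Finset.range n, M 4 i j - M 5 i 0 := ⟨_, rfl⟩
    have hzW : |z| ≤ (W : ℤ) := by
      rw [hz]
      refine (hterm i hi).trans ?_
      exact_mod_cast hnA
    have hval : (Expr.sub (P.v 9) (at1 5 (P.v 7))).val M5 = z := by
      rw [hz]
      simp [Expr.val, v_val, at1, g1, g5, g6]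
    refine Det.seq (asg_det' hval hzW) ?_
    rintro M6 rfl
    -- absolute value
    refine Det.seq (R := fun (M'' : Mem) => M'' 7 0 0 = (i : ℤ) ∧
      M'' 10 0 0 = ∑ i' ∈ Finset.range i, |∑ j ∈ Finset.range n, M 4 i' j - M 5 i' 0| ∧
      M'' 0 = M 0 ∧ M'' 4 = M 4 ∧ M'' 5 = M 5 ∧ M'' 9 0 0 = |z|) ?_ ?_
    · have hneg : (Expr.sub (.lit 0) (P.v 9)).val (M5.write 9 0 0 z) = -z := by
        simp [Expr.val, v_val, Mem.write]
      refine Det.ite ?_ ?_
      · intro hpos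
        rw [hneg] at hpos
        refine (asg_det' hneg (by rw [abs_neg]; exact hzW)).mono ?_
        rintro M7 rfl
        refine ⟨by simp [Mem.write, g1], by simp [Mem.write, g2], ?_, ?_, ?_, ?_⟩
        · funext k l; simp [Mem.write, g3]
        · funext k l; simp [Mem.write, g4]
        · funext k l; simp [Mem.write, g5]
        · rw [abs_of_neg (by omega)]; simp [Mem.write]
      · intro hneg'
        rw [hneg] at hneg'
        refine (asg_det' (z := 0) rfl (by simp)).mono ?_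
        rintro M7 rfl
        refine ⟨by simp [Mem.write, g1], by simp [Mem.write, g2], ?_, ?_, ?_, ?_⟩
        · funext k l; simp [Mem.write, g3]
        · funext k l; simp [Mem.write, g4]
        · funext k l; simp [Mem.write, g5]
        · rw [abs_of_nonneg (by omega)]; simp [Mem.write]
    rintro M7 ⟨h1, h2, h3, h4, h5, h6⟩
    have hval2 : (Expr.add (P.v 10) (P.v 9)).val M7 =
        ∑ i' ∈ Finset.range (i + 1), |∑ j ∈ Finset.range n, M 4 i' j - M 5 i' 0| := by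
      rw [Finset.sum_range_succ, ← hz]
      simp [Expr.val, v_val, h2, h6]
    have htot' := htot (i + 1) (by omega)
    refine Det.seq (asg_det' hval2 (by rw [abs_of_nonneg htot'.1]; exact htot'.2)) ?_
    rintro M8 rfl
    refine (inc_det (k := i) (by simp [Mem.write, h1]) (by omega)).mono ?_
    rintro M9 rfl
    refine ⟨by simp [Mem.write], by simp [Mem.write], ?_, ?_, ?_⟩
    · funext k l; simp [Mem.write, h3]
    · funext k l; simp [Mem.write, h4]
    · funext k l; simp [Mem.write, h5]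
  · rintro M' ⟨_, e2, _⟩
    exact e2

end Vale.Agent.P328RAM
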