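import Vale.Agent.P328RAM.MainSim
import Vale.Agent.P328RAM.Bridge
import Vale.Agent.P328R.GABound

/-!
# The final theorem
-/

namespace Vale.Agent.P328RAM

open Vale.Agent.P328R

theorem input_abs_le {m n : ℕ} (r : Fin m → ℕ) (c : Fin n → ℕ) (hrc : ∑ i, r i = ∑ j, c j)
    (a b x : ℕ) (i j : ℤ) :
    |input r c a b x i j| ≤ ((m + n + ∑ i, r i + a + b : ℕ) : ℤ) := by
  have hr : ∀ i, r i ≤ ∑ i, r i := fun i =>
    Finset.single_le_sum (f := r) (fun i _ => Nat.zero_le _) (Finset.mem_univ i)
  have hc : ∀ j, c j ≤ ∑ i, r i := fun j => by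
    rw [hrc]
    exact Finset.single_le_sum (f := c) (fun i _ => Nat.zero_le _) (Finset.mem_univ j)
  have key : ∀ z : ℕ, z ≤ m + n + ∑ i, r i + a + b →
      |((z : ℕ) : ℤ)| ≤ ((m + n + ∑ i, r i + a + b : ℕ) : ℤ) := by
    intro z hz
    rw [abs_of_nonneg (by positivity)]
    exact_mod_cast hz
  have h0 : |(0 : ℤ)| ≤ ((m + n + ∑ i, r i + a + b : ℕ) : ℤ) := key 0 (Nat.zero_le _)
  unfold input
  split_ifs
  · exact key m (by omega)
  · exact key n (by omega)
  · exact key a (by omega)
  · exact key b (by omega)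
  · exact h0
  · exact key _ ((hr _).trans (by omega))
  · exact h0
  · exact key _ ((hc _).trans (by omega))
  · exact h0
  · exact h0
  · exact h0

theorem mainOK (kT : ℕ) : MainOK kT (G.mainC kT) := by
  obtain ⟨K, hK⟩ := mainC_final kT
  refine ⟨K, ?_⟩
  intro m n r c a b hm hn hrc _ _
  have h := hK m n (∑ i, r i) a b (Nat.size b) (gOf r c) (input r c a b)
    (gOf_valid hm hn hrc) (tot_gOf r c) (by simp [input]) (by simp [input]) (by simp [input])
    (by simp [input]) rfl (fun i hi => by simp [input, gOf, hi])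
    (fun j hj => by simp [input, gOf, hj]) (fun k => by simp [input])
    (fun x i j => input_abs_le r c hrc a b x i j) 0
  refine ⟨h.1, fun s hs => ?_⟩
  have := h.2 s hs
  rwa [Nat.zero_add] at this

/-- **There is a fully polynomial randomized approximation scheme for the number of contingency
tables with arbitrary margins.** -/
theorem fpras : ∃ prog : Cmd, IsFPRAS prog :=
  ⟨G.mainC 5404, fpras_of (phaseFacts 5404) (by norm_num) (mainOK 5404)⟩

end Vale.Agent.P328RAM
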