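import Vale.Agent.P328RAM.ArrLib

/-!
# Double loops with an arbitrary body; products and sums of computed values
-/

namespace Vale.Agent.P328RAM

open PMF

variable {W Λ : ℕ} {σ τ : Type}

/-- `for i < n, j < m do c` -/
def Cmd.for2 (i j : ℕ) (n m : Expr) (c : Cmd) : Cmd := .forL i n (.forL j m c)

@[simp] theorem Cmd.Wr_for2 (i j : ℕ) (n m : Expr) (c : Cmd) :
    (Cmd.for2 i j n m c).Wr = i :: ((j :: (c.Wr ++ [j])) ++ [i]) := rfl

/-- Double loops: `I k l` is the invariant before the round `(k, l)`. -/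
theorem Det.for2 {M : Mem} {i j : ℕ} {en em : Expr} {c : Cmd} (n m : ℕ)
    (I : ℕ → ℕ → Mem → Prop) (hij : i ≠ j) (hi : i ∉ c.Wr) (hj : j ∉ c.Wr)
    (hΛn : n ≤ Λ) (hnW : n ≤ W) (hΛm : m ≤ Λ) (hmW : m ≤ W)
    (hn : ∀ M', I 0 0 M' → (en.val M').toNat = n)
    (hm : ∀ k < n, ∀ M', I k 0 M' → (em.val M').toNat = m)
    (hsti : ∀ k l M' z, I k l M' → I k l (M'.write i 0 0 z))
    (hstj : ∀ k l M' z, I k l M' → I k l (M'.write j 0 0 z))
    (h0 : I 0 0 M) (hrow : ∀ k < n, ∀ M', I k m M' → I (k + 1) 0 M')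
    (hI : ∀ k < n, ∀ l < m, ∀ M' : Mem, M' i 0 0 = (k : ℤ) → M' j 0 0 = (l : ℤ) → I k l M' →
      Det W Λ c M' (I k (l + 1))) :
    Det W Λ (.for2 i j en em c) M (I n 0) := by
  refine Det.forL (fun k M' => I k 0 M') n ?_ hΛn hnW ?_ (fun k M' z h => hsti k 0 M' z h) h0 ?_
    (fun M' _ h => h)
  · exact hn _ (hsti _ _ _ _ h0)
  · simp [hij, hi]
  · intro k hk M' g0 g1
    refine Det.forL (fun l M'' => M'' i 0 0 = (k : ℤ) ∧ I k l M'') m ?_ hΛm hmW hj ?_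
      ⟨g0, g1⟩ ?_ (fun M'' _ h => hrow k hk M'' h.2)
    · exact hm k hk _ (hstj _ _ _ _ g1)
    · rintro l M'' z ⟨q1, q2⟩
      exact ⟨by rw [Mem.write_arr _ hij]; exact q1, hstj _ _ _ _ q2⟩
    · rintro l hl M'' q0 ⟨q1, q2⟩
      refine (hI k hk l hl M'' q1 q0 q2).fr.mono ?_
      rintro M3 ⟨p1, p2⟩
      exact ⟨by rw [p2 i hi]; exact q1, p1⟩

/-- Random double loops. -/
theorem Sim.for2 {M : Mem} {i j : ℕ} {en em : Expr} {c : Cmd} {f : Mem → σ} (n m : ℕ)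
    (κ : ℕ → ℕ → σ → PMF σ)
    (I : ℕ → ℕ → Mem → Prop) (hij : i ≠ j) (hi : i ∉ c.Wr) (hj : j ∉ c.Wr)
    (hΛn : n ≤ Λ) (hnW : n ≤ W) (hΛm : m ≤ Λ) (hmW : m ≤ W)
    (hfi : ∀ M' z, f (M'.write i 0 0 z) = f M') (hfj : ∀ M' z, f (M'.write j 0 0 z) = f M')
    (hn : ∀ M', I 0 0 M' → (en.val M').toNat = n)
    (hm : ∀ k < n, ∀ M', I k 0 M' → (em.val M').toNat = m)
    (hsti : ∀ k l M' z, I k l M' → I k l (M'.write i 0 0 z))
    (hstj : ∀ k l M' z, I k l M' → I k l (M'.write j 0 0 z))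
    (h0 : I 0 0 M) (hrow : ∀ k < n, ∀ M', I k m M' → I (k + 1) 0 M')
    (hI : ∀ k < n, ∀ l < m, ∀ M' : Mem, M' i 0 0 = (k : ℤ) → M' j 0 0 = (l : ℤ) → I k l M' →
      Sim W Λ c M' f (κ k l (f M')) (I k (l + 1))) :
    Sim W Λ (.for2 i j en em c) M f (seqBind (fun k => seqBind (κ k) m) n (f M)) (I n 0) := by
  refine Sim.forL (fun k => seqBind (κ k) m) (fun k M' => I k 0 M') n ?_ hΛn hnW ?_ hfi
    (fun k M' z h => hsti k 0 M' z h) h0 ?_ (fun M' _ h => h)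
  · exact hn _ (hsti _ _ _ _ h0)
  · simp [hij, hi]
  · intro k hk M' g0 g1
    refine Sim.forL (κ k) (fun l M'' => M'' i 0 0 = (k : ℤ) ∧ I k l M'') m ?_ hΛm hmW hj hfj ?_
      ⟨g0, g1⟩ ?_ (fun M'' _ h => hrow k hk M'' h.2)
    · exact hm k hk _ (hstj _ _ _ _ g1)
    · rintro l M'' z ⟨q1, q2⟩
      exact ⟨by rw [Mem.write_arr _ hij]; exact q1, hstj _ _ _ _ q2⟩
    · rintro l hl M'' q0 ⟨q1, q2⟩
      refine (hI k hk l hl M'' q1 q0 q2).fr.mono ?_
      rintro M3 ⟨p1, p2⟩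
      exact ⟨by rw [p2 i hi]; exact q1, p1⟩

/-- `s := 1; for i < n, j < m do (c; s := s * z)`, where `c` computes the scalar `z` -/
def Cmd.prodC (s i j z : ℕ) (n m : Expr) (c : Cmd) : Cmd :=
  .seq (.setv s (.lit 1)) (.for2 i j n m (.seq c (.setv s (.mul (.v s) (.v z)))))

@[simp] theorem Cmd.Wr_prodC (s i j z : ℕ) (n m : Expr) (c : Cmd) :
    (Cmd.prodC s i j z n m c).Wr = s :: i :: ((j :: ((c.Wr ++ [s]) ++ [j])) ++ [i]) := rfl

/-- Product over all cells of a computed natural number. -/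
theorem Det.prodC {M : Mem} {s i j z : ℕ} {en em : Expr} {c : Cmd} {L : List ℕ} (n m : ℕ)
    (F : ℕ → ℕ → ℕ) (B : ℕ)
    (hsi : s ≠ i) (hsj : s ≠ j) (hij : i ≠ j)
    (hs : s ∉ c.Wr) (hi : i ∉ c.Wr) (hj : j ∉ c.Wr)
    (hL : s ∈ L ∧ i ∈ L ∧ j ∈ L)
    (hΛn : n ≤ Λ) (hnW : n ≤ W) (hΛm : m ≤ Λ) (hmW : m ≤ W)
    (hF : ∀ k < n, ∀ l < m, F k l ≤ B) (hB1 : 1 ≤ B) (hBW : B ^ (n * m) ≤ W)
    (hn : ∀ M', Same L M M' → (en.val M').toNat = n)
    (hm : ∀ M', Same L M M' → (em.val M').toNat = m)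
    (hc : ∀ k < n, ∀ l < m, ∀ M', Same L M M' → M' i 0 0 = (k : ℤ) → M' j 0 0 = (l : ℤ) →
      Det W Λ c M' (fun M'' => M'' z 0 0 = (F k l : ℤ) ∧ Same L M' M'')) :
    Det W Λ (.prodC s i j z en em c) M (fun M' =>
      M' s 0 0 = ((∏ k ∈ Finset.range n, ∏ l ∈ Finset.range m, F k l : ℕ) : ℤ) ∧ Same L M M') := by
  obtain ⟨hLs, hLi, hLj⟩ := hL
  have hW1 : (1 : ℤ) ≤ W := by
    have : 1 ≤ W := le_trans (Nat.one_le_pow _ _ hB1) hBW
    exact_mod_cast this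
  -- the partial product before the round `(k, l)`
  set a : ℕ → ℕ → ℕ := fun k l =>
    (∏ k' ∈ Finset.range k, ∏ l' ∈ Finset.range m, F k' l') *
      if k < n then ∏ l' ∈ Finset.range l, F k l' else 1 with ha
  have ha_le : ∀ k ≤ n, ∀ l ≤ m, a k l ≤ B ^ (n * m) := by
    intro k hk l hl
    have hrow : ∀ k' < n, ∀ l' ≤ m, ∏ l'' ∈ Finset.range l', F k' l'' ≤ B ^ l' := by
      intro k' hk' l' hl'
      calc ∏ l'' ∈ Finset.range l', F k' l'' ≤ ∏ _l'' ∈ Finset.range l', B := by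
            refine Finset.prod_le_prod' fun l'' hl'' => ?_
            simp only [Finset.mem_range] at hl''
            exact hF k' hk' l'' (by omega)
        _ = B ^ l' := by simp
    have hall : ∀ k' ≤ n, ∏ k'' ∈ Finset.range k', ∏ l'' ∈ Finset.range m, F k'' l''
        ≤ B ^ (k' * m) := by
      intro k' hk'
      calc ∏ k'' ∈ Finset.range k', ∏ l'' ∈ Finset.range m, F k'' l''
          ≤ ∏ _k'' ∈ Finset.range k', B ^ m := by
            refine Finset.prod_le_prod' fun k'' hk'' => ?_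
            simp only [Finset.mem_range] at hk''
            exact hrow k'' (by omega) m le_rfl
        _ = B ^ (k' * m) := by simp [← pow_mul, mul_comm]
    by_cases hkn : k < n
    · simp only [ha, hkn, if_true]
      calc _ ≤ B ^ (k * m) * B ^ l := Nat.mul_le_mul (hall k hk) (hrow k hkn l hl)
        _ = B ^ (k * m + l) := (pow_add _ _ _).symm
        _ ≤ B ^ (n * m) := by
            refine Nat.pow_le_pow_right hB1 ?_
            calc k * m + l ≤ k * m + m := by omega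
              _ = (k + 1) * m := by ring
              _ ≤ n * m := Nat.mul_le_mul_right _ hkn
    · obtain rfl : k = n := by omega
      simp only [ha, hkn, if_false, mul_one]
      exact hall k hk
  refine Det.seq (R := fun M' => M' s 0 0 = (a 0 0 : ℤ) ∧ Same L M M')
    (Det.setv (by simpa [Expr.val] using hW1)
      ⟨by simp [Expr.val, ha], (Same.refl _ _).write hLs _ _ _⟩) ?_
  rintro M1 ⟨g1, g2⟩
  refine (Det.for2 n m (fun k l M' => M' s 0 0 = (a k l : ℤ) ∧ Same L M M') hij ?_ ?_ hΛn hnW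
    hΛm hmW ?_ ?_ ?_ ?_ ⟨g1, g2⟩ ?_ ?_).mono ?_
  · simp [hi, hsi.symm]
  · simp [hj, hsj.symm]
  · rintro M' ⟨_, q⟩; exact hn _ q
  · rintro k _ M' ⟨_, q⟩; exact hm _ q
  · rintro k l M' z' ⟨q1, q2⟩
    exact ⟨by rw [Mem.write_arr _ hsi]; exact q1, q2.write hLi _ _ _⟩
  · rintro k l M' z' ⟨q1, q2⟩
    exact ⟨by rw [Mem.write_arr _ hsj]; exact q1, q2.write hLj _ _ _⟩
  · rintro k hk M' ⟨q1, q2⟩
    refine ⟨?_, q2⟩
    rw [q1]
    congr 1
    simp only [ha, hk, if_true,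
      Finset.prod_range_succ (fun k' => ∏ l' ∈ Finset.range m, F k' l') k]
    simp
  · rintro k hk l hl M' g3 g4 ⟨q1, q2⟩
    refine Det.seq (R := fun M'' => M'' z 0 0 = (F k l : ℤ) ∧ M'' s 0 0 = (a k l : ℤ) ∧
      Same L M M'') ?_ ?_
    · refine (hc k hk l hl M' q2 g3 g4).fr.mono ?_
      rintro M'' ⟨⟨p1, p2⟩, p3⟩
      exact ⟨p1, by rw [p3 s hs]; exact q1, q2.trans p2⟩
    · rintro M'' ⟨p1, p2, p3⟩
      have hstep : a k l * F k l = a k (l + 1) := by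
        simp only [ha, hk, if_true]
        rw [Finset.prod_range_succ, mul_assoc]
      have hv : (Expr.mul (.v s) (.v z)).val M'' = (a k (l + 1) : ℤ) := by
        simp only [Expr.val, p1, p2]
        rw [← hstep]; push_cast; ring
      refine Det.setv ?_ ?_
      · rw [hv, abs_of_nonneg (by positivity)]
        exact_mod_cast (ha_le k hk.le (l + 1) (by omega)).trans hBW
      · rw [hv]
        exact ⟨by simp, p3.write hLs _ _ _⟩
  · rintro M' ⟨q1, q2⟩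
    refine ⟨?_, q2⟩
    rw [q1]
    simp [ha]

end Vale.Agent.P328RAM
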