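import Vale.Agent.P328RAM.Spec

/-!
# Generic data of the weighted chain: cell weights and Metropolis acceptance
-/

namespace Vale.Agent.P328RAM

variable {m n : ℕ}

/-- Data of a weighted table space: row sums, the allowed range `[lo, hi]` of every cell, and the
cell weight `(Lc + min 0 x) ^ q`. -/
structure Dat (m n : ℕ) where
  /-- row sums -/
  R : ℕ → ℤ
  /-- lower end of the range -/
  lo : Fin m → Fin n → ℤ
  /-- upper end of the range -/
  hi : Fin m → Fin n → ℤ
  /-- size of the weight -/
  Lc : Fin m → Fin n → ℤ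
  /-- exponent -/
  q : ℕ

/-- Weight of the value `x` in a cell with data `lo hi L q`. -/
def cw (lo hi L : ℤ) (q : ℕ) (x : ℤ) : ℤ :=
  if lo ≤ x ∧ x ≤ hi then (L + min 0 x) ^ q else 0

/-- Weight of a table. -/
def Dat.Wt (D : Dat m n) (X : Tab m n) : ℤ :=
  if dev D.R X = 0 then ∏ i, ∏ j, cw (D.lo i j) (D.hi i j) (D.Lc i j) D.q (X (i, j)) else 0

/-- Metropolis acceptance with a uniform integer of `K` bits. -/
noncomputable def accK (D : Dat m n) (K : ℕ) (X Y : Tab m n) : PMF (Tab m n) :=
  (unif K).map fun U => if (U : ℤ) * D.Wt X < 2 ^ K * D.Wt Y then Y else X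

end Vale.Agent.P328RAM
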