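import Vale.Agent.P328R.Algo
import Vale.Agent.P328RAM.GSpec
import Vale.Agent.P328RAM.For2

/-!
# The geometry of a phase

Arrays: 0 input scalars (`m` at (0,0), `n` at (1,0)), 5 row margins, 6 column margins of the phase
(column `0`), scalars 7 `i`, 8 `j`, 22 `is`, 23 `js`, 26 `Q`, 27 `Lp`, 28 `Lc`, 29 `k1`;
30 `lo`, 31 `hi`, 32 `L`, 33 `lb`, 34 `blk` (the cell data), temporaries 35 - 39, 44 - 48.
-/

namespace Vale.Agent.P328RAM

open Vale.Agent.P328R

variable {W Λ : ℕ}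

/-! ### The least index of the maximum -/

/-- `b := ` the least index of the maximum of `A[0..n-1]` -/
def Cmd.argmax (b i A : ℕ) (n : Expr) : Cmd :=
  .seq (.setv b (.lit 0))
    (.forL i n (.when (.sub (.at1 A (.v i)) (.at1 A (.v b))) (.setv b (.v i))))

@[simp] theorem Cmd.Wr_argmax (b i A : ℕ) (n : Expr) : (Cmd.argmax b i A n).Wr = [b, i, b, b, i] :=
  rfl

theorem am_lt_of_lt (a : ℕ → ℤ) {k n : ℕ} (hk : k ≤ n) (hn : 0 < n) : am a k < n := by
  induction k with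
  | zero => simpa [am] using hn
  | succ k ih =>
      simp only [am]
      split_ifs
      · omega
      · exact ih (by omega)

theorem le_am (a : ℕ → ℤ) {k i : ℕ} (hi : i < k) : a i ≤ a (am a k) := by
  induction k with
  | zero => omega
  | succ k ih =>
      simp only [am]
      rcases Nat.lt_succ_iff_lt_or_eq.1 hi with h | h
      · have := ih h
        split_ifs with h1
        · omega
        · exact this
      · subst h
        split_ifs with h1
        · exact le_rfl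
        · omega

theorem Det.argmax {M : Mem} {b i A : ℕ} {en : Expr} (n : ℕ) (a : ℕ → ℤ) (hbi : b ≠ i)
    (hAb : A ≠ b) (hAi : A ≠ i) (hΛ : n ≤ Λ) (hnW : n ≤ W)
    (ha : ∀ k : ℕ, k < n → M A k 0 = a k)
    (hn : ∀ M', Same [b, i] M M' → (en.val M').toNat = n) :
    Det W Λ (.argmax b i A en) M (fun M' => M' b 0 0 = (am a n : ℤ) ∧ Same [b, i] M M') := by
  refine Det.seq (R := fun M' => M' b 0 0 = (0 : ℕ) ∧ Same [b, i] M M')
    (Det.setv (by simp [Expr.val]) ⟨by simp [Expr.val], (Same.refl _ _).write (by simp) _ _ _⟩) ?_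
  rintro M1 ⟨g1, g2⟩
  refine Det.forL (fun k M' => M' b 0 0 = (am a k : ℤ) ∧ Same [b, i] M M') n ?_ hΛ hnW ?_ ?_
    ⟨by simpa [am] using g1, g2⟩ ?_ (fun M' _ h => h)
  · exact hn _ (g2.write (by simp) _ _ _)
  · simp [hbi.symm]
  · rintro l M' z ⟨q1, q2⟩
    exact ⟨by rw [Mem.write_arr _ hbi]; exact q1, q2.write (by simp) _ _ _⟩
  · rintro k hk M' q0 ⟨q1, q2⟩
    have hA : ∀ x : ℕ, x < n → M' A x 0 = a x := fun x hx => by
      rw [q2 A (by simp [hAb, hAi])]; exact ha x hx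
    have hval : (Expr.sub (.at1 A (.v i)) (.at1 A (.v b))).val M' = a k - a (am a k) := by
      simp only [Expr.val, q0, q1]
      rw [hA k hk, hA _ (am_lt_of_lt a hk.le (by omega))]
    refine Det.when (fun h => ?_) (fun h => ?_)
    · rw [hval] at h
      have hv : (Expr.v i).val M' = (k : ℤ) := by simp [Expr.val, q0]
      refine Det.setv ?_ ?_
      · rw [hv, abs_of_nonneg (by positivity)]
        have : k ≤ W := by omega
        exact_mod_cast this
      · rw [hv]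
        refine ⟨?_, q2.write (by simp) _ _ _⟩
        simp only [Mem.write_self, am]
        rw [if_pos (by omega)]
    · rw [hval] at h
      refine ⟨?_, q2⟩
      simp only [am]
      rw [if_neg (by omega)]
      exact q1

/-! ### The cell data -/

variable (p : Par) {m n : ℕ} (g : Mg)

/-- lower end of the range of a cell -/
def dlo (m n : ℕ) (k l : ℕ) : ℤ := if Piv p m n g k l then - Ls p m n g k l else 0

/-- upper end of the range of a cell -/
def dhi (m n : ℕ) (k l : ℕ) : ℤ :=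
  if Piv p m n g k l then Ls p m n g k l
  else if Blk p m n g k l then sg g k l - 1 else sc g k l

/-- size of the weight of a cell -/
def dL (m n : ℕ) (k l : ℕ) : ℤ := if Piv p m n g k l then Ls p m n g k l else 1

/-- number of bits of the block moves of a cell -/
def dlb (m n : ℕ) (k l : ℕ) : ℕ := if Blk p m n g k l then lb p g k l else 0

/-- is the cell a block cell? -/
def dbl (m n : ℕ) (k l : ℕ) : ℤ := if Blk p m n g k l then 1 else 0

/-- The data of a phase. -/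
def datOf (m n : ℕ) : Dat m n where
  R := g.r
  lo := fun i j => dlo p g m n i j
  hi := fun i j => dhi p g m n i j
  Lc := fun i j => dL p g m n i j
  q := p.q

/-- the geometry is stored in the memory -/
structure Geo (m n : ℕ) (M : Mem) : Prop where
  is_eq : M 22 0 0 = (is m g : ℤ)
  js_eq : M 23 0 0 = (js n g : ℤ)
  lo_eq : ∀ k l : ℕ, k < m → l < n → M 30 k l = dlo p g m n k l
  hi_eq : ∀ k l : ℕ, k < m → l < n → M 31 k l = dhi p g m n k l
  L_eq : ∀ k l : ℕ, k < m → l < n → M 32 k l = dL p g m n k l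
  lb_eq : ∀ k l : ℕ, k < m → l < n → M 33 k l = (dlb p g m n k l : ℤ)
  bl_eq : ∀ k l : ℕ, k < m → l < n → M 34 k l = dbl p g m n k l

theorem dev_eq_zero {R : ℕ → ℤ} {X : Tab m n} : dev R X = 0 ↔ ∀ i, rowSum X i = R i := by
  unfold dev
  rw [Finset.sum_eq_zero_iff_of_nonneg (fun i _ => abs_nonneg _)]
  simp only [Finset.mem_univ, true_implies, abs_eq_zero, sub_eq_zero]

theorem cw_eq (i j : ℕ) (x : ℤ) :
    P328RAM.cw (dlo p g m n i j) (dhi p g m n i j) (dL p g m n i j) p.q x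
      = (P328R.cw p m n g i j x : ℤ) := by
  unfold P328RAM.cw P328R.cw dlo dhi dL
  by_cases h1 : Piv p m n g i j
  · simp only [h1, if_true]
    by_cases h2 : |x| ≤ Ls p m n g i j
    · have h3 := abs_le.1 h2
      rw [if_pos h3, if_pos h2]
      push_cast
      rw [Int.toNat_of_nonneg]
      rcases le_total 0 x with h | h
      · rw [min_eq_left h]; omega
      · rw [min_eq_right h]; omega
    · rw [if_neg (fun h => h2 (abs_le.2 h)), if_neg h2]
      rfl
  · simp only [h1, if_false]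
    have key : ∀ s : ℤ, (if 0 ≤ x ∧ x ≤ s then (1 + min 0 x) ^ p.q else 0)
        = ((if 0 ≤ x ∧ x ≤ s then 1 else 0 : ℕ) : ℤ) := by
      intro s
      split_ifs with h
      · rw [min_eq_left h.1]; simp
      · rfl
    by_cases h2 : Blk p m n g i j
    · simp only [h2, if_true]
      rw [key]
      congr 2
      exact propext ⟨fun h => ⟨h.1, by omega⟩, fun h => ⟨h.1, by omega⟩⟩
    · simp only [h2, if_false]
      rw [key]

/-- The two definitions of the weight agree. -/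
theorem Wt_eq (X : Tab m n) : (datOf p g m n).Wt X = (Wt p g X : ℤ) := by
  have hR : (datOf p g m n).R = g.r := rfl
  unfold Dat.Wt Wt
  rw [hR]
  by_cases h : ∀ i : Fin m, rowSum X i = g.r i
  · rw [if_pos (dev_eq_zero.2 h), if_pos h]
    push_cast
    rw [Fintype.prod_prod_type]
    refine Finset.prod_congr rfl fun i _ => Finset.prod_congr rfl fun j _ => ?_
    exact cw_eq p g i j _
  · rw [if_neg (fun h' => h (dev_eq_zero.1 h')), if_neg h]
    rfl

/-! ### The program computing the cell data -/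

namespace G

/-- assign the five scalars 44 - 48 -/
def asg5 (e1 e2 e3 e4 e5 : Expr) : Cmd :=
  .seq (.setv 44 e1) (.seq (.setv 45 e2) (.seq (.setv 46 e3) (.seq (.setv 47 e4) (.setv 48 e5))))

/-- row margin of the current cell -/
def ri : Expr := .get 5 (.v 7) (.lit 0)

/-- column margin of the current cell -/
def cj : Expr := .get 6 (.v 8) (.lit 0)

/-- scalars 35 := min, 36 := its size, 37 := 2 ^ size -/
def prepC : Cmd :=
  .seq (.minv 35 ri cj) (.seq (.setv 36 (.size (.v 35)))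
    (.fold 37 38 (.v 36) (.lit 1) (.mul (.v 37) (.lit 2))))

/-- the case distinction -/
def treeC : Cmd :=
  .seq (asg5 (.lit 0) (.v 35) (.lit 1) (.lit 0) (.lit 0))
  (.when (.sub ri (.v 26)) (.when (.sub cj (.v 26))
    (.ite (.mul (.sub (.v 7) (.v 22)) (.sub (.v 7) (.v 22)))
      (.ite (.mul (.sub (.v 8) (.v 23)) (.sub (.v 8) (.v 23)))
        (.seq (.maxv 39 (.lit 0) (.sub (.v 36) (.v 29)))
          (asg5 (.lit 0) (.sub (.v 37) (.lit 1)) (.lit 1) (.v 39) (.lit 1)))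
        (asg5 (.sub (.lit 0) (.mul (.v 27) (.v 37))) (.mul (.v 27) (.v 37))
          (.mul (.v 27) (.v 37)) (.lit 0) (.lit 0)))
      (.ite (.mul (.sub (.v 8) (.v 23)) (.sub (.v 8) (.v 23)))
        (asg5 (.sub (.lit 0) (.mul (.v 27) (.v 37))) (.mul (.v 27) (.v 37))
          (.mul (.v 27) (.v 37)) (.lit 0) (.lit 0))
        (asg5 (.sub (.lit 0) (.mul (.v 28) (.v 37))) (.mul (.v 28) (.v 37))
          (.mul (.v 28) (.v 37)) (.lit 0) (.lit 0))))))

/-- store the cell data -/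
def storeC : Cmd :=
  .seq (.set 30 (.v 7) (.v 8) (.v 44)) (.seq (.set 31 (.v 7) (.v 8) (.v 45))
    (.seq (.set 32 (.v 7) (.v 8) (.v 46)) (.seq (.set 33 (.v 7) (.v 8) (.v 47))
      (.set 34 (.v 7) (.v 8) (.v 48)))))

/-- the data of the cell `(7, 8)` -/
def cellC : Cmd := .seq prepC (.seq treeC storeC)

/-- number of rows -/
def em : Expr := .get 0 (.lit 0) (.lit 0)

/-- number of columns -/
def en : Expr := .get 0 (.lit 1) (.lit 0)

/-- the geometry of a phase -/
def geoC : Cmd :=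
  .seq (.argmax 22 7 5 em) (.seq (.argmax 23 8 6 en) (.for2 7 8 em en cellC))

end G

/-- the inputs of the geometry routine -/
structure GeoIn (m n : ℕ) (M : Mem) : Prop where
  m_eq : M 0 0 0 = m
  n_eq : M 0 1 0 = n
  r_eq : ∀ i : ℕ, i < m → M 5 i 0 = g.r i
  c_eq : ∀ j : ℕ, j < n → M 6 j 0 = g.c j
  Q_eq : M 26 0 0 = p.Q
  Lp_eq : M 27 0 0 = p.Lp
  Lc_eq : M 28 0 0 = p.Lc
  k1_eq : M 29 0 0 = (p.k1 : ℤ)

theorem asg5_det {M : Mem} {e1 e2 e3 e4 e5 : Expr} (z1 z2 z3 z4 z5 : ℤ)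
    (h : ∀ M', Same [44, 45, 46, 47, 48] M M' → e1.val M' = z1 ∧ e2.val M' = z2 ∧
      e3.val M' = z3 ∧ e4.val M' = z4 ∧ e5.val M' = z5)
    (hW : |z1| ≤ (W : ℤ) ∧ |z2| ≤ (W : ℤ) ∧ |z3| ≤ (W : ℤ) ∧ |z4| ≤ (W : ℤ) ∧ |z5| ≤ (W : ℤ)) :
    Det W Λ (G.asg5 e1 e2 e3 e4 e5) M (fun M' => M' 44 0 0 = z1 ∧ M' 45 0 0 = z2 ∧
      M' 46 0 0 = z3 ∧ M' 47 0 0 = z4 ∧ M' 48 0 0 = z5 ∧ Same [44, 45, 46, 47, 48] M M') := by
  obtain ⟨w1, w2, w3, w4, w5⟩ := hW
  have s0 := Same.refl [44, 45, 46, 47, 48] M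
  have v1 := (h M s0).1
  refine Det.seq (R := fun M' => M' = M.write 44 0 0 z1)
    (Det.setv (by rw [v1]; exact w1) (by rw [v1])) ?_
  rintro M1 rfl
  have s1 := s0.write (a := 44) (by simp) 0 0 z1
  have v2 := (h _ s1).2.1
  refine Det.seq (R := fun M' => M' = (M.write 44 0 0 z1).write 45 0 0 z2)
    (Det.setv (by rw [v2]; exact w2) (by rw [v2])) ?_
  rintro M2 rfl
  have s2 := s1.write (a := 45) (by simp) 0 0 z2
  have v3 := (h _ s2).2.2.1
  refine Det.seq (R := fun M' => M' = ((M.write 44 0 0 z1).write 45 0 0 z2).write 46 0 0 z3)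
    (Det.setv (by rw [v3]; exact w3) (by rw [v3])) ?_
  rintro M3 rfl
  have s3 := s2.write (a := 46) (by simp) 0 0 z3
  have v4 := (h _ s3).2.2.2.1
  refine Det.seq (R := fun M' => M' = (((M.write 44 0 0 z1).write 45 0 0 z2).write 46 0 0 z3).write
    47 0 0 z4) (Det.setv (by rw [v4]; exact w4) (by rw [v4])) ?_
  rintro M4 rfl
  have s4 := s3.write (a := 47) (by simp) 0 0 z4
  have v5 := (h _ s4).2.2.2.2
  refine Det.setv (by rw [v5]; exact w5) ?_
  rw [v5]
  refine ⟨by simp [Mem.write], by simp [Mem.write], by simp [Mem.write], by simp [Mem.write],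
    by simp [Mem.write], s4.write (by simp) _ _ _⟩

theorem prepC_det {M : Mem} {k l : ℕ} (hk : k < m) (hl : l < n) (hG : GeoIn p g m n M)
    (h7 : M 7 0 0 = k) (h8 : M 8 0 0 = l) (hsc : 0 ≤ sc g k l)
    (hΛ : sb g k l ≤ Λ) (hW : sg g k l ≤ (W : ℤ)) :
    Det W Λ G.prepC M (fun M' => M' 35 0 0 = sc g k l ∧ M' 36 0 0 = (sb g k l : ℤ) ∧
      M' 37 0 0 = sg g k l ∧ Same [35, 36, 37, 38] M M') := by
  have hscW : sc g k l ≤ (W : ℤ) := by
    refine le_trans ?_ hW
    unfold sg sb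
    have h1 := Nat.lt_size_self (sc g k l).toNat
    have h2 : ((sc g k l).toNat : ℤ) < 2 ^ (Nat.size (sc g k l).toNat) := by exact_mod_cast h1
    rw [Int.toNat_of_nonneg hsc] at h2
    exact h2.le
  have hri : G.ri.val M = g.r k := by simp [G.ri, Expr.val, h7, hG.r_eq k hk]
  have hcj : G.cj.val M = g.c l := by simp [G.cj, Expr.val, h8, hG.c_eq l hl]
  refine Det.seq (R := fun M' => M' 35 0 0 = sc g k l ∧ Same [35] M M')
    (Det.minv ?_ ?_) ?_
  · rw [hri, hcj]
    change |sc g k l| ≤ _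
    rw [abs_of_nonneg hsc]
    exact hscW
  · rw [hri, hcj]
    exact ⟨by simp [sc], (Same.refl _ _).write (by simp) _ _ _⟩
  rintro M1 ⟨g1, g2⟩
  have hsz : (Expr.size (.v 35)).val M1 = (sb g k l : ℤ) := by
    simp only [Expr.val, g1, sb]
    congr 2
    omega
  have hsbW : (sb g k l : ℤ) ≤ W := by
    refine le_trans ?_ hW
    unfold sg
    exact_mod_cast (Nat.lt_pow_self (by norm_num)).le
  refine Det.seq (R := fun M' => M' 35 0 0 = sc g k l ∧ M' 36 0 0 = (sb g k l : ℤ) ∧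
    Same [35, 36] M M') (Det.setv ?_ ?_) ?_
  · rw [hsz, abs_of_nonneg (by positivity)]
    exact hsbW
  · rw [hsz]
    refine ⟨?_, by simp, (g2.mono (by decide)).write (by simp) _ _ _⟩
    rw [Mem.write_arr _ (by decide)]
    exact g1
  rintro M2 ⟨q1, q2, q3⟩
  refine (Det.fold (sb g k l) (fun k' => 2 ^ k') (by decide) hΛ (by exact_mod_cast hsbW) ?_
    (by simp [Expr.val]) ?_ ?_).mono ?_
  · intro k' hk'
    rw [abs_of_nonneg (by positivity)]
    exact le_trans (pow_le_pow_right₀ (by norm_num) hk') hW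
  · intro M' hM' _ _
    simp [Expr.val, hM' 36 (by decide), q2]
  · intro k' _ M' _ _ h37
    simp only [Expr.val, h37]
    ring
  · rintro M' ⟨p1, p2⟩
    refine ⟨?_, ?_, p1, ?_⟩
    · rw [p2 35 (by decide)]; exact q1
    · rw [p2 36 (by decide)]; exact q2
    · exact (q3.mono (by decide)).trans (p2.mono (by decide))

theorem big_is {k : ℕ} (hk : k < m) (h : p.Q < g.r k) : p.Q < g.r (is m g) :=
  lt_of_lt_of_le h (le_am g.r hk)

theorem big_js {l : ℕ} (hl : l < n) (h : p.Q < g.c l) : p.Q < g.c (js n g) :=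
  lt_of_lt_of_le h (le_am g.c hl)

theorem Piv_iff {k l : ℕ} (hk : k < m) (hl : l < n) :
    Piv p m n g k l ↔ p.Q < g.r k ∧ p.Q < g.c l ∧ (k = is m g ∨ l = js n g) := by
  unfold Piv
  constructor
  · rintro ⟨⟨h1, h2⟩, h3 | h3⟩
    · refine ⟨?_, h3.2, Or.inl h3.1⟩
      rw [h3.1]; exact h1
    · refine ⟨h3.2, ?_, Or.inr h3.1⟩
      rw [h3.1]; exact h2
  · rintro ⟨h1, h2, h3⟩
    refine ⟨⟨big_is p g hk h1, big_js p g hl h2⟩, ?_⟩
    rcases h3 with h3 | h3
    · exact Or.inl ⟨h3, h2⟩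
    · exact Or.inr ⟨h3, h1⟩

theorem sub_mul_self_pos {a b : ℕ} : 0 < ((a : ℤ) - b) * ((a : ℤ) - b) ↔ a ≠ b := by
  constructor
  · rintro h rfl
    simp at h
  · intro h
    have : ((a : ℤ) - b) ≠ 0 := by omega
    exact mul_self_pos.2 this

theorem treeC_det {M : Mem} {k l : ℕ} (hk : k < m) (hl : l < n) (hG : GeoIn p g m n M)
    (h7 : M 7 0 0 = k) (h8 : M 8 0 0 = l) (h22 : M 22 0 0 = (is m g : ℤ))
    (h23 : M 23 0 0 = (js n g : ℤ)) (h35 : M 35 0 0 = sc g k l) (h36 : M 36 0 0 = (sb g k l : ℤ))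
    (h37 : M 37 0 0 = sg g k l) (hsc : 0 ≤ sc g k l) (hLp : 1 ≤ p.Lp) (hLc : 1 ≤ p.Lc)
    (hWp : p.Lp * sg g k l ≤ (W : ℤ)) (hWc : p.Lc * sg g k l ≤ (W : ℤ)) (hW1 : 1 ≤ W) :
    Det W Λ G.treeC M (fun M' => M' 44 0 0 = dlo p g m n k l ∧ M' 45 0 0 = dhi p g m n k l ∧
      M' 46 0 0 = dL p g m n k l ∧ M' 47 0 0 = (dlb p g m n k l : ℤ) ∧
      M' 48 0 0 = dbl p g m n k l ∧ Same [39, 44, 45, 46, 47, 48] M M') := by
  have hsg1 : 1 ≤ sg g k l := by
    unfold sg
    exact one_le_pow₀ (by norm_num)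
  have hsgW : sg g k l ≤ (W : ℤ) := by nlinarith
  have hscsg : sc g k l < sg g k l := by
    unfold sg sb
    have h1 := Nat.lt_size_self (sc g k l).toNat
    have h2 : ((sc g k l).toNat : ℤ) < 2 ^ (Nat.size (sc g k l).toNat) := by exact_mod_cast h1
    rwa [Int.toNat_of_nonneg hsc] at h2
  have hsbsg : (sb g k l : ℤ) ≤ sg g k l := by
    unfold sg
    exact_mod_cast (Nat.lt_pow_self (by norm_num)).le
  have hW1' : (1 : ℤ) ≤ W := by exact_mod_cast hW1
  have hpos : (0 : ℤ) ≤ (W : ℤ) := by positivity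
  -- first assignment
  refine Det.seq (R := fun M' => M' 44 0 0 = 0 ∧ M' 45 0 0 = sc g k l ∧ M' 46 0 0 = 1 ∧
    M' 47 0 0 = 0 ∧ M' 48 0 0 = 0 ∧ Same [44, 45, 46, 47, 48] M M')
    (asg5_det 0 (sc g k l) 1 0 0 ?_ ?_) ?_
  · intro M' h
    refine ⟨rfl, ?_, rfl, rfl, rfl⟩
    simp [Expr.val, h 35 (by decide), h35]
  · refine ⟨by simpa using hpos, ?_, by simpa using hW1', by simp, by simp⟩
    rw [abs_of_nonneg hsc]; omega
  rintro M1 ⟨a1, a2, a3, a4, a5, a6⟩
  have e7 : M1 7 0 0 = k := by rw [a6 7 (by decide)]; exact h7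
  have e8 : M1 8 0 0 = l := by rw [a6 8 (by decide)]; exact h8
  have e22 : M1 22 0 0 = (is m g : ℤ) := by rw [a6 22 (by decide)]; exact h22
  have e23 : M1 23 0 0 = (js n g : ℤ) := by rw [a6 23 (by decide)]; exact h23
  have e26 : M1 26 0 0 = p.Q := by rw [a6 26 (by decide)]; exact hG.Q_eq
  have e27 : M1 27 0 0 = p.Lp := by rw [a6 27 (by decide)]; exact hG.Lp_eq
  have e28 : M1 28 0 0 = p.Lc := by rw [a6 28 (by decide)]; exact hG.Lc_eq
  have e29 : M1 29 0 0 = p.k1 := by rw [a6 29 (by decide)]; exact hG.k1_eq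
  have e36 : M1 36 0 0 = (sb g k l : ℤ) := by rw [a6 36 (by decide)]; exact h36
  have e37 : M1 37 0 0 = sg g k l := by rw [a6 37 (by decide)]; exact h37
  have e5 : M1 5 k 0 = g.r k := by rw [a6 5 (by decide)]; exact hG.r_eq k hk
  have e6 : M1 6 l 0 = g.c l := by rw [a6 6 (by decide)]; exact hG.c_eq l hl
  have hri : (Expr.sub G.ri (.v 26)).val M1 = g.r k - p.Q := by
    simp [G.ri, Expr.val, e7, e5, e26]
  have hcj : (Expr.sub G.cj (.v 26)).val M1 = g.c l - p.Q := by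
    simp [G.cj, Expr.val, e8, e6, e26]
  have hvi : (Expr.mul (.sub (.v 7) (.v 22)) (.sub (.v 7) (.v 22))).val M1
      = ((k : ℤ) - is m g) * ((k : ℤ) - is m g) := by
    simp [Expr.val, e7, e22]
  have hvj : (Expr.mul (.sub (.v 8) (.v 23)) (.sub (.v 8) (.v 23))).val M1
      = ((l : ℤ) - js n g) * ((l : ℤ) - js n g) := by
    simp [Expr.val, e8, e23]
  have hsame : ∀ {M'}, Same [44, 45, 46, 47, 48] M1 M' → Same [39, 44, 45, 46, 47, 48] M M' := by
    intro M' h
    exact (a6.trans h).mono (by decide)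
  -- not big: nothing to do
  have hsmall : (¬ Piv p m n g k l) → (¬ Blk p m n g k l) →
      (M1 44 0 0 = dlo p g m n k l ∧ M1 45 0 0 = dhi p g m n k l ∧
      M1 46 0 0 = dL p g m n k l ∧ M1 47 0 0 = (dlb p g m n k l : ℤ) ∧
      M1 48 0 0 = dbl p g m n k l ∧ Same [39, 44, 45, 46, 47, 48] M M1) := by
    intro hP hB
    unfold dlo dhi dL dlb dbl
    simp only [hP, hB, if_false]
    exact ⟨a1, a2, a3, by simpa using a4, a5, hsame (Same.refl _ _)⟩
  -- pivots
  have hpiv : ∀ (x : ℕ) (L : ℤ), x = 27 ∨ x = 28 → M1 x 0 0 = L → 1 ≤ L →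
      L * sg g k l ≤ (W : ℤ) → Piv p m n g k l → (¬ Blk p m n g k l) →
      Ls p m n g k l = L * sg g k l →
      Det W Λ (G.asg5 (.sub (.lit 0) (.mul (.v x) (.v 37))) (.mul (.v x) (.v 37))
          (.mul (.v x) (.v 37)) (.lit 0) (.lit 0)) M1
        (fun M' => M' 44 0 0 = dlo p g m n k l ∧ M' 45 0 0 = dhi p g m n k l ∧
          M' 46 0 0 = dL p g m n k l ∧ M' 47 0 0 = (dlb p g m n k l : ℤ) ∧
          M' 48 0 0 = dbl p g m n k l ∧ Same [39, 44, 45, 46, 47, 48] M M') := by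
    intro x L hx hxL hL1 hLW hP hB hLs
    have h0 : 0 ≤ L * sg g k l := by positivity
    refine (asg5_det (- (L * sg g k l)) (L * sg g k l) (L * sg g k l) 0 0 ?_ ?_).mono ?_
    · intro M' h
      have h1 : M' x 0 0 = L := by
        rw [h x (by rcases hx with rfl | rfl <;> decide)]; exact hxL
      have h2 : M' 37 0 0 = sg g k l := by rw [h 37 (by decide)]; exact e37
      refine ⟨?_, ?_, ?_, rfl, rfl⟩
      · simp [Expr.val, h1, h2]
      · simp [Expr.val, h1, h2]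
      · simp [Expr.val, h1, h2]
    · rw [abs_neg, abs_of_nonneg h0]
      exact ⟨hLW, hLW, hLW, by simpa using hpos, by simpa using hpos⟩
    · rintro M' ⟨b1, b2, b3, b4, b5, b6⟩
      unfold dlo dhi dL dlb dbl
      simp only [hP, hB, if_true, if_false]
      rw [hLs]
      exact ⟨b1, b2, b3, by simpa using b4, b5, hsame b6⟩
  refine Det.when (fun h1 => ?_) (fun h1 => ?_)
  swap
  · rw [hri] at h1
    refine hsmall ?_ ?_
    · rw [Piv_iff p g hk hl]
      rintro ⟨h, -⟩; omega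
    · rintro ⟨⟨_, h⟩, _⟩; omega
  rw [hri] at h1
  refine Det.when (fun h2 => ?_) (fun h2 => ?_)
  swap
  · rw [hcj] at h2
    refine hsmall ?_ ?_
    · rw [Piv_iff p g hk hl]
      rintro ⟨_, h, -⟩; omega
    · rintro ⟨_, ⟨_, h⟩⟩; omega
  rw [hcj] at h2
  have hQr : p.Q < g.r k := by omega
  have hQc : p.Q < g.c l := by omega
  refine Det.ite (fun h3 => ?_) (fun h3 => ?_)
  · rw [hvi, sub_mul_self_pos] at h3
    refine Det.ite (fun h4 => ?_) (fun h4 => ?_)
    · -- block cell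
      rw [hvj, sub_mul_self_pos] at h4
      have hB : Blk p m n g k l := ⟨⟨h3, hQr⟩, ⟨h4, hQc⟩⟩
      have hP : ¬ Piv p m n g k l := by
        rw [Piv_iff p g hk hl]
        rintro ⟨_, _, h | h⟩
        · exact h3 h
        · exact h4 h
      have hmax : max ((Expr.lit 0).val M1) ((Expr.sub (.v 36) (.v 29)).val M1)
          = (lb p g k l : ℤ) := by
        simp only [Expr.val, e36, e29, lb]
        omega
      have hlb : (lb p g k l : ℤ) ≤ W := by
        have : lb p g k l ≤ sb g k l := Nat.sub_le _ _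
        have : (lb p g k l : ℤ) ≤ sb g k l := by exact_mod_cast this
        omega
      refine Det.seq (R := fun M' => M' 39 0 0 = (lb p g k l : ℤ) ∧ Same [39] M1 M')
        (Det.maxv ?_ ?_) ?_
      · rw [hmax, abs_of_nonneg (by positivity)]; exact hlb
      · rw [hmax]
        exact ⟨by simp, (Same.refl _ _).write (by simp) _ _ _⟩
      · rintro M2 ⟨b1, b2⟩
        refine (asg5_det 0 (sg g k l - 1) 1 (lb p g k l : ℤ) 1 ?_ ?_).mono ?_
        · intro M' h
          refine ⟨rfl, ?_, rfl, ?_, rfl⟩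
          · simp [Expr.val, h 37 (by decide), b2 37 (by decide), e37]
          · simp [Expr.val, h 39 (by decide), b1]
        · refine ⟨by simpa using hpos, ?_, by simpa using hW1', ?_, by simpa using hW1'⟩
          · rw [abs_of_nonneg (by omega)]; omega
          · rw [abs_of_nonneg (by positivity)]; exact hlb
        · rintro M' ⟨c1, c2, c3, c4, c5, c6⟩
          unfold dlo dhi dL dlb dbl
          simp only [hP, hB, if_true, if_false]
          refine ⟨c1, c2, c3, c4, c5, ?_⟩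
          exact (a6.mono (by decide)).trans ((b2.mono (by decide)).trans (c6.mono (by decide)))
    · -- pivot in the column `js`
      rw [hvj] at h4
      have hljs : l = js n g := by
        by_contra hne
        exact absurd (sub_mul_self_pos.2 hne) (by omega)
      refine hpiv 27 p.Lp (Or.inl rfl) e27 hLp hWp ?_ ?_ ?_
      · rw [Piv_iff p g hk hl]; exact ⟨hQr, hQc, Or.inr hljs⟩
      · rintro ⟨_, ⟨h, _⟩⟩; exact h hljs
      · unfold Ls; rw [if_neg (fun h => h3 h.1)]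
  · rw [hvi] at h3
    have hkis : k = is m g := by
      by_contra hne
      exact absurd (sub_mul_self_pos.2 hne) (by omega)
    have hP : Piv p m n g k l := by
      rw [Piv_iff p g hk hl]; exact ⟨hQr, hQc, Or.inl hkis⟩
    have hB : ¬ Blk p m n g k l := by
      rintro ⟨⟨h, _⟩, _⟩; exact h hkis
    refine Det.ite (fun h4 => ?_) (fun h4 => ?_)
    · rw [hvj, sub_mul_self_pos] at h4
      refine hpiv 27 p.Lp (Or.inl rfl) e27 hLp hWp hP hB ?_
      unfold Ls; rw [if_neg (fun h => h4 h.2)]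
    · rw [hvj] at h4
      have hljs : l = js n g := by
        by_contra hne
        exact absurd (sub_mul_self_pos.2 hne) (by omega)
      refine hpiv 28 p.Lc (Or.inr rfl) e28 hLc hWc hP hB ?_
      unfold Ls; rw [if_pos ⟨hkis, hljs⟩]

/-- the data of the cell `(k, l)` are stored -/
structure CellOK (m n k l : ℕ) (M : Mem) : Prop where
  lo_eq : M 30 k l = dlo p g m n k l
  hi_eq : M 31 k l = dhi p g m n k l
  L_eq : M 32 k l = dL p g m n k l
  lb_eq : M 33 k l = (dlb p g m n k l : ℤ)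
  bl_eq : M 34 k l = dbl p g m n k l

theorem storeC_det {M : Mem} {k l : ℕ} (h7 : M 7 0 0 = k) (h8 : M 8 0 0 = l) {z1 z2 z3 z4 z5 : ℤ}
    (h44 : M 44 0 0 = z1) (h45 : M 45 0 0 = z2) (h46 : M 46 0 0 = z3) (h47 : M 47 0 0 = z4)
    (h48 : M 48 0 0 = z5) :
    Det W Λ G.storeC M (fun M' => M' 30 k l = z1 ∧ M' 31 k l = z2 ∧ M' 32 k l = z3 ∧
      M' 33 k l = z4 ∧ M' 34 k l = z5 ∧ Same [30, 31, 32, 33, 34] M M' ∧
      ∀ a (k' l' : ℤ), ¬ (k' = k ∧ l' = l) → M' a k' l' = M a k' l') := by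
  refine Det.bdd fun hB => ?_
  have key : ∀ {M0 : Mem} {x y : ℕ} {z : ℤ}, M0 7 0 0 = k → M0 8 0 0 = l → M0 y 0 0 = z →
      Bdd W M0 → Det W Λ (.set x (.v 7) (.v 8) (.v y)) M0 (fun M' => M' = M0.write x k l z ∧
        Bdd W M') := by
    intro M0 x y z g7 g8 gy gB
    have hz : |z| ≤ (W : ℤ) := by rw [← gy]; exact gB y 0 0
    refine Det.set ?_ ?_
    · simp only [Expr.val, gy]; exact hz
    · simp only [Expr.val, g7, g8, gy]
      exact ⟨trivial, gB.write hz⟩
  refine Det.seq (key h7 h8 h44 hB) ?_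
  rintro M1 ⟨rfl, hB1⟩
  refine Det.seq (key (z := z2) ?_ ?_ ?_ hB1) ?_
  · rw [Mem.write_arr _ (by decide)]; exact h7
  · rw [Mem.write_arr _ (by decide)]; exact h8
  · rw [Mem.write_arr _ (by decide)]; exact h45
  rintro M2 ⟨rfl, hB2⟩
  refine Det.seq (key (z := z3) ?_ ?_ ?_ hB2) ?_
  · rw [Mem.write_arr _ (by decide), Mem.write_arr _ (by decide)]; exact h7
  · rw [Mem.write_arr _ (by decide), Mem.write_arr _ (by decide)]; exact h8
  · rw [Mem.write_arr _ (by decide), Mem.write_arr _ (by decide)]; exact h46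
  rintro M3 ⟨rfl, hB3⟩
  refine Det.seq (key (z := z4) ?_ ?_ ?_ hB3) ?_
  · rw [Mem.write_arr _ (by decide), Mem.write_arr _ (by decide), Mem.write_arr _ (by decide)]
    exact h7
  · rw [Mem.write_arr _ (by decide), Mem.write_arr _ (by decide), Mem.write_arr _ (by decide)]
    exact h8
  · rw [Mem.write_arr _ (by decide), Mem.write_arr _ (by decide), Mem.write_arr _ (by decide)]
    exact h47
  rintro M4 ⟨rfl, hB4⟩
  refine (key (z := z5) ?_ ?_ ?_ hB4).mono ?_
  · rw [Mem.write_arr _ (by decide), Mem.write_arr _ (by decide), Mem.write_arr _ (by decide),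
      Mem.write_arr _ (by decide)]
    exact h7
  · rw [Mem.write_arr _ (by decide), Mem.write_arr _ (by decide), Mem.write_arr _ (by decide),
      Mem.write_arr _ (by decide)]
    exact h8
  · rw [Mem.write_arr _ (by decide), Mem.write_arr _ (by decide), Mem.write_arr _ (by decide),
      Mem.write_arr _ (by decide)]
    exact h48
  rintro M5 ⟨rfl, _⟩
  refine ⟨by simp [Mem.write], by simp [Mem.write], by simp [Mem.write], by simp [Mem.write],
    by simp [Mem.write], ?_, ?_⟩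
  · exact (((((Same.refl _ _).write (by decide) _ _ _).write (by decide) _ _ _).write
      (by decide) _ _ _).write (by decide) _ _ _).write (by decide) _ _ _
  · intro a k' l' h
    simp only [Mem.write]
    rw [if_neg (fun h' => h h'.2), if_neg (fun h' => h h'.2), if_neg (fun h' => h h'.2),
      if_neg (fun h' => h h'.2), if_neg (fun h' => h h'.2)]

theorem GeoIn.same {M M' : Mem} {L : List ℕ} (h : GeoIn p g m n M) (hs : Same L M M')
    (hL : 0 ∉ L ∧ 5 ∉ L ∧ 6 ∉ L ∧ 26 ∉ L ∧ 27 ∉ L ∧ 28 ∉ L ∧ 29 ∉ L) : GeoIn p g m n M' := by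
  obtain ⟨h0, h5, h6, h26, h27, h28, h29⟩ := hL
  refine ⟨?_, ?_, ?_, ?_, ?_, ?_, ?_, ?_⟩
  · rw [hs 0 h0]; exact h.m_eq
  · rw [hs 0 h0]; exact h.n_eq
  · intro i hi; rw [hs 5 h5]; exact h.r_eq i hi
  · intro i hi; rw [hs 6 h6]; exact h.c_eq i hi
  · rw [hs 26 h26]; exact h.Q_eq
  · rw [hs 27 h27]; exact h.Lp_eq
  · rw [hs 28 h28]; exact h.Lc_eq
  · rw [hs 29 h29]; exact h.k1_eq

/-- bounds needed by the geometry routine -/
structure GeoB (W Λ m n : ℕ) : Prop where
  m_le : m ≤ Λ ∧ m ≤ W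
  n_le : n ≤ Λ ∧ n ≤ W
  r_nn : ∀ i < m, 0 ≤ g.r i
  c_nn : ∀ j < n, 0 ≤ g.c j
  Lp_pos : 1 ≤ p.Lp
  Lc_pos : 1 ≤ p.Lc
  sb_le : ∀ k < m, ∀ l < n, sb g k l ≤ Λ
  Lp_le : ∀ k < m, ∀ l < n, p.Lp * sg g k l ≤ (W : ℤ)
  Lc_le : ∀ k < m, ∀ l < n, p.Lc * sg g k l ≤ (W : ℤ)

theorem cellC_det {M : Mem} {k l : ℕ} (hk : k < m) (hl : l < n) (hG : GeoIn p g m n M)
    (hb : GeoB p g W Λ m n)
    (h7 : M 7 0 0 = k) (h8 : M 8 0 0 = l) (h22 : M 22 0 0 = (is m g : ℤ))
    (h23 : M 23 0 0 = (js n g : ℤ)) :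
    Det W Λ G.cellC M (fun M' => CellOK p g m n k l M' ∧
      Same [30, 31, 32, 33, 34, 35, 36, 37, 38, 39, 44, 45, 46, 47, 48] M M' ∧
      ∀ a ∈ [30, 31, 32, 33, 34], ∀ (k' l' : ℤ), ¬ (k' = k ∧ l' = l) →
        M' a k' l' = M a k' l') := by
  have hsc : 0 ≤ sc g k l := le_min (hb.r_nn k hk) (hb.c_nn l hl)
  have hsg1 : 1 ≤ sg g k l := by
    unfold sg
    exact one_le_pow₀ (by norm_num)
  have hWp := hb.Lp_le k hk l hl
  have hsgW : sg g k l ≤ (W : ℤ) := by nlinarith [hb.Lp_pos]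
  have hW1 : 1 ≤ W := by
    have : (1 : ℤ) ≤ W := by linarith
    exact_mod_cast this
  refine Det.seq (prepC_det p g hk hl hG h7 h8 hsc (hb.sb_le k hk l hl) hsgW) ?_
  rintro M1 ⟨a1, a2, a3, a4⟩
  refine Det.seq (treeC_det p g hk hl (hG.same p g a4 (by decide)) ?_ ?_ ?_ ?_ a1 a2 a3 hsc
    hb.Lp_pos hb.Lc_pos hWp (hb.Lc_le k hk l hl) hW1) ?_
  · rw [a4 7 (by decide)]; exact h7
  · rw [a4 8 (by decide)]; exact h8
  · rw [a4 22 (by decide)]; exact h22
  · rw [a4 23 (by decide)]; exact h23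
  rintro M2 ⟨b1, b2, b3, b4, b5, b6⟩
  refine (storeC_det (k := k) (l := l) ?_ ?_ b1 b2 b3 b4 b5).mono ?_
  · rw [b6 7 (by decide), a4 7 (by decide)]; exact h7
  · rw [b6 8 (by decide), a4 8 (by decide)]; exact h8
  rintro M3 ⟨c1, c2, c3, c4, c5, c6, c7⟩
  refine ⟨⟨c1, c2, c3, c4, c5⟩, ?_, ?_⟩
  · exact ((a4.mono (by decide)).trans (b6.mono (by decide))).trans (c6.mono (by decide))
  · intro a ha k' l' h
    rw [c7 a k' l' h]
    have ha4 : a ∉ [35, 36, 37, 38] := by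
      intro h'
      simp only [List.mem_cons, List.not_mem_nil, or_false] at ha h'
      omega
    have hb6 : a ∉ [39, 44, 45, 46, 47, 48] := by
      intro h'
      simp only [List.mem_cons, List.not_mem_nil, or_false] at ha h'
      omega
    rw [b6 a hb6, a4 a ha4]

/-- **The geometry routine.** -/
theorem geoC_det {M : Mem} (hG : GeoIn p g m n M) (hb : GeoB p g W Λ m n) :
    Det W Λ G.geoC M (fun M' => Geo p g m n M' ∧
      Same [7, 8, 22, 23, 30, 31, 32, 33, 34, 35, 36, 37, 38, 39, 44, 45, 46, 47, 48] M M') := by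
  refine Det.seq (Det.argmax m g.r (by decide) (by decide) (by decide) hb.m_le.1 hb.m_le.2
    hG.r_eq ?_) ?_
  · intro M' h
    simp [G.em, Expr.val, h 0 (by decide), hG.m_eq]
  rintro M1 ⟨a1, a2⟩
  have hG1 := hG.same p g a2 (by decide)
  refine Det.seq (Det.argmax n g.c (by decide) (by decide) (by decide) hb.n_le.1 hb.n_le.2
    hG1.c_eq ?_) ?_
  · intro M' h
    simp [G.en, Expr.val, h 0 (by decide), hG1.n_eq]
  rintro M2 ⟨b1, b2⟩
  have hG2 := hG1.same p g b2 (by decide)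
  have s2 : Same [7, 8, 22, 23, 30, 31, 32, 33, 34, 35, 36, 37, 38, 39, 44, 45, 46, 47, 48] M M2 :=
    (a2.mono (by decide)).trans (b2.mono (by decide))
  refine (Det.for2 m n (fun k l M' =>
      (∀ k' l' : ℕ, (k' < k ∨ k' = k ∧ l' < l) → k' < m → l' < n → CellOK p g m n k' l' M') ∧
      M' 22 0 0 = (is m g : ℤ) ∧ M' 23 0 0 = (js n g : ℤ) ∧
      Same [7, 8, 30, 31, 32, 33, 34, 35, 36, 37, 38, 39, 44, 45, 46, 47, 48] M2 M')
    (by decide) (by decide) (by decide) hb.m_le.1 hb.m_le.2 hb.n_le.1 hb.n_le.2 ?_ ?_ ?_ ?_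
    ⟨?_, ?_, b1, Same.refl _ _⟩ ?_ ?_).mono ?_
  · rintro M' ⟨-, -, -, h⟩
    simp [G.em, Expr.val, h 0 (by decide), hG2.m_eq]
  · rintro k _ M' ⟨-, -, -, h⟩
    simp [G.en, Expr.val, h 0 (by decide), hG2.n_eq]
  · rintro k l M' z ⟨h1, h2, h3, h4⟩
    refine ⟨?_, ?_, ?_, h4.write (by decide) _ _ _⟩
    · intro k' l' h hk' hl'
      obtain ⟨e1, e2, e3, e4, e5⟩ := h1 k' l' h hk' hl'
      constructor <;> (rw [Mem.write_arr _ (by decide)]; assumption)
    · rw [Mem.write_arr _ (by decide)]; exact h2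
    · rw [Mem.write_arr _ (by decide)]; exact h3
  · rintro k l M' z ⟨h1, h2, h3, h4⟩
    refine ⟨?_, ?_, ?_, h4.write (by decide) _ _ _⟩
    · intro k' l' h hk' hl'
      obtain ⟨e1, e2, e3, e4, e5⟩ := h1 k' l' h hk' hl'
      constructor <;> (rw [Mem.write_arr _ (by decide)]; assumption)
    · rw [Mem.write_arr _ (by decide)]; exact h2
    · rw [Mem.write_arr _ (by decide)]; exact h3
  · intro k' l' h; omega
  · rw [b2 22 (by decide)]; exact a1
  · rintro k hk M' ⟨h1, h2, h3, h4⟩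
    refine ⟨fun k' l' h hk' hl' => h1 k' l' (by omega) hk' hl', h2, h3, h4⟩
  · rintro k hk l hl M' g7 g8 ⟨h1, h2, h3, h4⟩
    refine (cellC_det p g hk hl (hG2.same p g h4 (by decide)) hb g7 g8 h2 h3).mono ?_
    rintro M'' ⟨q1, q2, q3⟩
    refine ⟨?_, ?_, ?_, ?_⟩
    · intro k' l' h hk' hl'
      by_cases hkl : k' = k ∧ l' = l
      · obtain ⟨rfl, rfl⟩ := hkl
        exact q1
      · obtain ⟨e1, e2, e3, e4, e5⟩ := h1 k' l' (by omega) hk' hl'
        have hne : ¬ ((k' : ℤ) = k ∧ (l' : ℤ) = l) := by omega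
        constructor
        · rw [q3 30 (by decide) _ _ hne]; exact e1
        · rw [q3 31 (by decide) _ _ hne]; exact e2
        · rw [q3 32 (by decide) _ _ hne]; exact e3
        · rw [q3 33 (by decide) _ _ hne]; exact e4
        · rw [q3 34 (by decide) _ _ hne]; exact e5
    · rw [q2 22 (by decide)]; exact h2
    · rw [q2 23 (by decide)]; exact h3
    · exact h4.trans (q2.mono (by decide))
  · rintro M' ⟨h1, h2, h3, h4⟩
    refine ⟨⟨h2, h3, ?_, ?_, ?_, ?_, ?_⟩, s2.trans (h4.mono (by decide))⟩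
    · intro k l hk hl; exact (h1 k l (Or.inl hk) hk hl).lo_eq
    · intro k l hk hl; exact (h1 k l (Or.inl hk) hk hl).hi_eq
    · intro k l hk hl; exact (h1 k l (Or.inl hk) hk hl).L_eq
    · intro k l hk hl; exact (h1 k l (Or.inl hk) hk hl).lb_eq
    · intro k l hk hl; exact (h1 k l (Or.inl hk) hk hl).bl_eq

end Vale.Agent.P328RAM
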