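import Vale.Agent.P328RAM.HWeight
import Vale.Agent.P328RAM.HTools

namespace Vale.Agent.P328RAM

open Vale.Agent.P328R

variable {W Λ m n : ℕ} {M : Mem} {p : Par} {g : Mg} {A : ℕ}

/-- PH2. Copy. -/
theorem copyA_det {dst src : ℕ} (h1 : dst ≠ 7) (h2 : dst ≠ 8) (h3 : src ≠ 7) (h4 : src ≠ 8)
    (h5 : dst ≠ src) (h6 : dst ≠ 0) (hm : M 0 0 0 = m) (hn : M 0 1 0 = n)
    (hmΛ : m ≤ Λ) (hnΛ : n ≤ Λ) (hmW : m ≤ W) (hnW : n ≤ W)
    (hsW : ∀ e, |tabOf m n src M e| ≤ (W : ℤ)) :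
    Det W Λ (H.copyA dst src) M (fun M' => tabOf m n dst M' = tabOf m n src M) := by
  unfold H.copyA
  refine (Det.arr2 (A := dst) (i := 7) (j := 8) m n (fun k l => M src k l) h1 h2 (by decide) hmΛ hmW
    hnΛ hnW ?_ ?_ ?_ ?_).mono ?_
  · intro k hk l hl
    exact hsW (⟨k, hk⟩, ⟨l, hl⟩)
  · intro M' hS
    simp only [Expr.val]
    rw [hS 0 (by simp [h6.symm]), hm]; simp
  · intro M' hS
    simp only [Expr.val]
    rw [hS 0 (by simp [h6.symm]), hn]; simp
  · intro k hk l hl M' hS e7 e8 _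
    simp only [Expr.val, e7, e8]
    rw [hS src (by simp [h3, h4, h5.symm])]
  · rintro M' ⟨q1, -, -⟩
    funext e
    exact q1 e.1 e.2 e.1.2 e.2.2

/-- PH2. Metropolis acceptance. -/
theorem accC_sim (hG : StepIn p g m n M) (hA : BdG p m n g A)
    (hX : ∀ e, |tabOf m n 4 M e| ≤ 3 * (A : ℤ) + 10)
    (hY : ∀ e, |tabOf m n 60 M e| ≤ 3 * (A : ℤ) + 10)
    (hW : stepW p m n A ≤ W) (hΛ : stepΛ p m n A ≤ Λ) :
    Sim W Λ H.accC M (tabOf m n 4) (P328R.accK p g (tabOf m n 4 M) (tabOf m n 60 M))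
      (fun M' => tabOf m n 4 M' = tabOf m n 4 M ∨
        (tabOf m n 4 M' = tabOf m n 60 M ∧ Wt p g (tabOf m n 60 M) ≠ 0)) := by
  have hmn := lin_le_stepW.trans hW
  have hlin : ((10 * (A + m + n + 10) : ℕ) : ℤ) ≤ W := by exact_mod_cast hmn
  push_cast at hlin
  have hmΛ : m ≤ Λ := by refine le_trans ?_ hΛ; unfold stepΛ; omega
  have hnΛ : n ≤ Λ := by refine le_trans ?_ hΛ; unfold stepΛ; omega
  have hbW : 2 ^ p.b ≤ W := by
    refine le_trans ?_ hW
    unfold stepW
    calc 2 ^ p.b = 2 ^ p.b * 1 := (mul_one _).symm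
      _ ≤ 2 ^ (p.b + p.B + 2) * (A + m + n + 10) ^ (p.q * (m * n) + 5) :=
        Nat.mul_le_mul (Nat.pow_le_pow_right (by norm_num) (by omega))
          (Nat.one_le_pow _ _ (by omega))
  unfold H.accC
  refine Det.seqSim (weightC_det (Or.inl rfl) (Or.inl rfl) hG hA hX hW hΛ).fr ?_
  rintro M1 ⟨w1, f1⟩
  have k1 : ∀ a, a ∉ wL → M1 a = M a := by
    intro a ha
    refine f1 a ?_
    intro h
    apply ha
    simp only [H.weightC, Cmd.Wr, Cmd.Wr_prodC, H.cellW, H.rowBad, Cmd.Wr_forL, Cmd.Wr_when,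
      Cmd.Wr_fold, Cmd.Wr_setv, List.mem_append, List.mem_cons, List.not_mem_nil, or_false] at h
    simp only [wL, List.mem_cons, List.not_mem_nil, or_false]
    tauto
  have hG1 : StepIn p g m n M1 := hG.congr fun a ha => k1 a (by
    simp only [stepL, List.mem_cons, List.not_mem_nil, or_false] at ha
    rcases ha with rfl | rfl | rfl | rfl | rfl | rfl | rfl | rfl | rfl | rfl | rfl | rfl | rfl <;>
      decide)
  have t4 : tabOf m n 4 M1 = tabOf m n 4 M := tabOf_congr (k1 4 (by decide))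
  have t60 : tabOf m n 60 M1 = tabOf m n 60 M := tabOf_congr (k1 60 (by decide))
  refine Det.seqSim (weightC_det (Or.inr rfl) (Or.inr rfl) hG1 hA (by rw [t60]; exact hY) hW hΛ).fr
    ?_
  rintro M2 ⟨w2, f2⟩
  have k2 : ∀ a, a ∉ [7, 8, 9, 10, 11, 12, 13, 64] → M2 a = M1 a := by
    intro a ha
    refine f2 a ?_
    intro h
    apply ha
    simp only [H.weightC, Cmd.Wr, Cmd.Wr_prodC, H.cellW, H.rowBad, Cmd.Wr_forL, Cmd.Wr_when,
      Cmd.Wr_fold, Cmd.Wr_setv, List.mem_append, List.mem_cons, List.not_mem_nil, or_false] at h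
    simp only [List.mem_cons, List.not_mem_nil, or_false]
    tauto
  have hG2 : StepIn p g m n M2 := hG1.congr fun a ha => k2 a (by
    simp only [stepL, List.mem_cons, List.not_mem_nil, or_false] at ha
    rcases ha with rfl | rfl | rfl | rfl | rfl | rfl | rfl | rfl | rfl | rfl | rfl | rfl | rfl <;>
      decide)
  have s4 : tabOf m n 4 M2 = tabOf m n 4 M := (tabOf_congr (k2 4 (by decide))).trans t4
  have s60 : tabOf m n 60 M2 = tabOf m n 60 M := (tabOf_congr (k2 60 (by decide))).trans t60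
  have e63 : M2 63 0 0 = (Wt p g (tabOf m n 4 M) : ℕ) := by rw [k2 63 (by decide), w1]
  have e64 : M2 64 0 0 = (Wt p g (tabOf m n 60 M) : ℕ) := by rw [w2, t60]
  have hacc : P328R.accK p g (tabOf m n 4 M) (tabOf m n 60 M)
      = (unif p.b).bind fun U => PMF.pure (if U * Wt p g (tabOf m n 4 M)
        < 2 ^ p.b * Wt p g (tabOf m n 60 M) then tabOf m n 60 M else tabOf m n 4 M) := by
    unfold P328R.accK
    rfl
  rw [hacc]
  refine Sim.rand_seq p.b (by decide) ?_ ?_ hbW ?_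
  · simp only [Expr.val]; rw [Mem.write_arr _ (by decide), hG2.b_eq]; simp
  · refine le_trans ?_ hΛ; unfold stepΛ; omega
  rintro k hk M3 e65 f3
  have g63 : M3 63 0 0 = (Wt p g (tabOf m n 4 M) : ℕ) := by
    rw [f3 63 (by decide) (by decide)]; exact e63
  have g64 : M3 64 0 0 = (Wt p g (tabOf m n 60 M) : ℕ) := by
    rw [f3 64 (by decide) (by decide)]; exact e64
  have g66 : M3 66 0 0 = 2 ^ p.b := by rw [f3 66 (by decide) (by decide)]; exact hG2.pb_eq
  have g0 : M3 0 = M2 0 := f3 0 (by decide) (by decide)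
  have r4 : tabOf m n 4 M3 = tabOf m n 4 M := (tabOf_congr (f3 4 (by decide) (by decide))).trans s4
  have r60 : tabOf m n 60 M3 = tabOf m n 60 M :=
    (tabOf_congr (f3 60 (by decide) (by decide))).trans s60
  have hval : (Expr.sub (.mul (H.v 66) (H.v 64)) (.mul (H.v 65) (H.v 63))).val M3
      = 2 ^ p.b * (Wt p g (tabOf m n 60 M) : ℕ) - k * (Wt p g (tabOf m n 4 M) : ℕ) := by
    simp only [Expr.val, g63, g64, g66, e65]
  refine Sim.when (fun h => ?_) (fun h => ?_)
  · rw [hval] at h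
    have h' : k * Wt p g (tabOf m n 4 M) < 2 ^ p.b * Wt p g (tabOf m n 60 M) := by
      have : ((k * Wt p g (tabOf m n 4 M) : ℕ) : ℤ)
          < ((2 ^ p.b * Wt p g (tabOf m n 60 M) : ℕ) : ℤ) := by
        push_cast; linarith
      exact_mod_cast this
    rw [if_pos h']
    refine ((copyA_det (dst := 4) (src := 60) (by decide) (by decide) (by decide) (by decide)
      (by decide) (by decide) (by rw [g0]; exact hG2.m_eq) (by rw [g0]; exact hG2.n_eq) hmΛ hnΛ
      (by omega) (by omega) ?_).sim (fun M' h => h.trans r60)).mono ?_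
    · intro e
      rw [r60]
      refine (hY e).trans ?_
      linarith
    · intro M' h1
      refine Or.inr ⟨h1.trans r60, ?_⟩
      intro h0
      rw [h0] at h'
      omega
  · rw [hval] at h
    have h' : ¬ k * Wt p g (tabOf m n 4 M) < 2 ^ p.b * Wt p g (tabOf m n 60 M) := by
      intro h1
      have : ((k * Wt p g (tabOf m n 4 M) : ℕ) : ℤ)
          < ((2 ^ p.b * Wt p g (tabOf m n 60 M) : ℕ) : ℤ) := by exact_mod_cast h1
      push_cast at this
      linarith
    rw [if_neg h', r4]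
    exact ⟨Or.inl rfl, rfl⟩

end Vale.Agent.P328RAM
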