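import Vale.Agent.P328RAM.HProg
import Vale.Agent.P328RAM.Rand

namespace Vale.Agent.P328RAM

open Vale.Agent.P328R

variable {W Λ m n : ℕ} {M : Mem} {p : Par} {g : Mg} {A : ℕ}

namespace Blk5

theorem unifZ_eq (B : ℕ) : unifZ B = PMF.map (fun k : ℕ => (k : ℤ)) (unif B) := by
  rw [← unif_map_cast]; exact PMF.map_id _

theorem unif_bind {α : Type} (B : ℕ) (G : ℕ → PMF α) :
    (unif B).bind G = (unifZ B).bind fun z => G z.toNat := by
  rw [unifZ_eq, PMF.bind_map]
  congr 1

theorem unif_map {α : Type} (B : ℕ) (G : ℕ → α) :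
    PMF.map G (unif B) = PMF.map (fun z : ℤ => G z.toNat) (unifZ B) := by
  rw [unifZ_eq, PMF.map_comp]
  congr 1

theorem le_stepW (hA : 1 ≤ A) : 2 ^ p.B ≤ stepW p m n A ∧ 5 * A ≤ stepW p m n A := by
  unfold stepW
  have h1 : 2 ^ p.B ≤ 2 ^ (p.b + p.B + 2) := Nat.pow_le_pow_right (by norm_num) (by omega)
  have h2 : 1 ≤ (A + m + n + 10) ^ (p.q * (m * n) + 5) := Nat.one_le_pow _ _ (by omega)
  have h3 : (A + m + n + 10) ^ 2 ≤ (A + m + n + 10) ^ (p.q * (m * n) + 5) :=
    Nat.pow_le_pow_right (by omega) (by omega)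
  have h4 : 1 ≤ 2 ^ (p.b + p.B + 2) := Nat.one_le_pow _ _ (by norm_num)
  constructor
  · calc 2 ^ p.B = 2 ^ p.B * 1 := (mul_one _).symm
      _ ≤ _ := Nat.mul_le_mul h1 h2
  · calc 5 * A ≤ (A + m + n + 10) ^ 2 := by nlinarith [Nat.zero_le (m + n)]
      _ ≤ (A + m + n + 10) ^ (p.q * (m * n) + 5) := h3
      _ = 1 * (A + m + n + 10) ^ (p.q * (m * n) + 5) := (one_mul _).symm
      _ ≤ _ := Nat.mul_le_mul_right _ h4

theorem tab_write (M : Mem) (i j : ℕ) (d : ℤ) :
    tabOf m n 60 (M.write 60 i j (M 60 i j + d)) = addc i j d (tabOf m n 60 M) := by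
  funext e
  simp only [tabOf, addc, Mem.write_apply, true_and, Nat.cast_inj]
  by_cases h : (e.1 : ℕ) = i ∧ (e.2 : ℕ) = j
  · rw [if_pos h, if_pos h, h.1, h.2]
  · rw [if_neg h, if_neg h, add_zero]

theorem addc_le {X : Tab m n} {C D d : ℤ} (hX : ∀ e, |X e| ≤ C) (i j : ℕ) (hd : |d| ≤ D) :
    ∀ e, |addc i j d X e| ≤ C + D := by
  intro e
  have hD : 0 ≤ D := (abs_nonneg _).trans hd
  have h0 := hX e
  unfold addc
  split_ifs
  · exact (abs_add_le _ _).trans (add_le_add h0 hd)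
  · rw [add_zero]; linarith

theorem addC_det {M : Mem} {ei ej ee : Expr} {i j : ℕ} {d C D : ℤ} (hi : ei.val M = i)
    (hj : ej.val M = j) (hd : ee.val M = d) (him : i < m) (hjn : j < n)
    (hC : ∀ e, |tabOf m n 60 M e| ≤ C) (hD : |d| ≤ D) (hW : C + D ≤ (W : ℤ)) :
    Det W Λ (H.addC 60 ei ej ee) M (fun M' => tabOf m n 60 M' = addc i j d (tabOf m n 60 M) ∧
      ∀ a, a ≠ 60 → M' a = M a) := by
  unfold H.addC
  have h1 := hC (⟨i, him⟩, ⟨j, hjn⟩)
  simp only [tabOf] at h1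
  refine Det.set ?_ ?_
  · simp only [Expr.val, hi, hj, hd]
    exact (abs_add_le _ _).trans ((add_le_add h1 hD).trans hW)
  · simp only [Expr.val, hi, hj, hd]
    exact ⟨tab_write M i j d, fun a ha => Mem.write_arr _ ha _ _ _⟩

/-- the four additions -/
def add4 : Cmd :=
      (.seq (H.addC 60 (H.v 22) (H.v 23) (H.v 71))
      (.seq (H.addC 60 (H.v 22) (H.v 67) (.sub (.lit 0) (H.v 71)))
      (.seq (H.addC 60 (H.v 68) (H.v 23) (.sub (.lit 0) (H.v 71)))
        (H.addC 60 (H.v 68) (H.v 67) (H.v 71)))))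

theorem add4_det {M : Mem} {i j : ℕ} {d : ℤ} (h22 : M 22 0 0 = (is m g : ℕ))
    (h23 : M 23 0 0 = (js n g : ℕ)) (h68 : M 68 0 0 = i) (h67 : M 67 0 0 = j)
    (h71 : M 71 0 0 = d) (him : i < m) (hjn : j < n) (hY : ∀ e, |tabOf m n 60 M e| ≤ (A : ℤ))
    (hd : |d| ≤ (A : ℤ)) (hW : 5 * A ≤ W) :
    Det W Λ add4 M (fun M' => tabOf m n 60 M' = bmv g i j d (tabOf m n 60 M)) := by
  have hW' : 5 * (A : ℤ) ≤ W := by exact_mod_cast hW
  have hA0 : (0 : ℤ) ≤ A := by positivity
  have his : is m g < m := am_lt_of_lt _ le_rfl (by omega)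
  have hjs : js n g < n := am_lt_of_lt _ le_rfl (by omega)
  have hd' : |(-d)| ≤ (A : ℤ) := by rw [abs_neg]; exact hd
  unfold add4
  refine Det.seq (addC_det (i := is m g) (j := js n g) (d := d) (C := A) (D := A)
    (by simpa [Expr.val] using h22) (by simpa [Expr.val] using h23) (by simpa [Expr.val] using h71)
    his hjs hY hd (by linarith)) ?_
  rintro M1 ⟨t1, f1⟩
  have b1 : ∀ e, |tabOf m n 60 M1 e| ≤ (A : ℤ) + A := by rw [t1]; exact addc_le hY _ _ hd
  refine Det.seq (addC_det (i := is m g) (j := j) (d := -d) (C := A + A) (D := A)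
    ?_ ?_ ?_ his hjn b1 hd' (by linarith)) ?_
  · simp [Expr.val, f1 22, h22]
  · simp [Expr.val, f1 67, h67]
  · simp [Expr.val, f1 71, h71]
  rintro M2 ⟨t2, f2⟩
  have b2 : ∀ e, |tabOf m n 60 M2 e| ≤ (A : ℤ) + A + A := by rw [t2]; exact addc_le b1 _ _ hd'
  refine Det.seq (addC_det (i := i) (j := js n g) (d := -d) (C := A + A + A) (D := A)
    ?_ ?_ ?_ him hjs b2 hd' (by linarith)) ?_
  · simp [Expr.val, f2 68, f1 68, h68]
  · simp [Expr.val, f2 23, f1 23, h23]
  · simp [Expr.val, f2 71, f1 71, h71]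
  rintro M3 ⟨t3, f3⟩
  have b3 : ∀ e, |tabOf m n 60 M3 e| ≤ (A : ℤ) + A + A + A := by rw [t3]; exact addc_le b2 _ _ hd'
  refine (addC_det (i := i) (j := j) (d := d) (C := A + A + A + A) (D := A)
    ?_ ?_ ?_ him hjn b3 hd (by linarith)).mono ?_
  · simp [Expr.val, f3 68, f2 68, f1 68, h68]
  · simp [Expr.val, f3 67, f2 67, f1 67, h67]
  · simp [Expr.val, f3 71, f2 71, f1 71, h71]
  · rintro M4 ⟨t4, _⟩
    rw [t4, t3, t2, t1]
    rfl

theorem bmv_le {X : Tab m n} {i j : ℕ} {d : ℤ} (hX : ∀ e, |X e| ≤ (A : ℤ)) (hd : |d| ≤ (A : ℤ))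
    (h : Blk p m n g i j ∨ d = 0) : ∀ e, |bmv g i j d X e| ≤ 2 * (A : ℤ) := by
  intro e
  have h0 := hX e
  rw [abs_le] at h0 hd ⊢
  rcases h with h | h
  · obtain ⟨⟨h1, _⟩, h2, _⟩ := h
    unfold bmv addc
    constructor
    · split_ifs <;> omega
    · split_ifs <;> omega
  · subst h
    unfold bmv addc
    simp only [neg_zero, ite_self, add_zero]
    omega

theorem bmv_zero (X : Tab m n) (i j : ℕ) : bmv g i j 0 X = X := by
  funext e
  unfold bmv addc
  simp

end Blk5

open Blk5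

/-- PH5. The block move. -/
theorem blockC_sim (hG : StepIn p g m n M) (hA : BdG p m n g A)
    (hY : ∀ e, |tabOf m n 60 M e| ≤ (A : ℤ))
    (hW : stepW p m n A ≤ W) (hΛ : stepΛ p m n A ≤ Λ) :
    Sim W Λ H.blockC M (tabOf m n 60) (blockK p g (tabOf m n 60 M))
      (fun M' => ∀ e, |tabOf m n 60 M' e| ≤ 2 * (A : ℤ)) := by
  obtain ⟨hW1, hW2⟩ := le_stepW (p := p) (m := m) (n := n) hA.A1
  have hWB : 2 ^ p.B ≤ W := hW1.trans hW
  have hW5 : 5 * A ≤ W := hW2.trans hW
  have hA1 := hA.A1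
  have hA0 : (0 : ℤ) ≤ A := by positivity
  have hWone : 1 ≤ W := by omega
  have hΛB : p.B ≤ Λ := by unfold stepΛ at hΛ; omega
  obtain ⟨X, hX⟩ : ∃ X, X = tabOf m n 60 M := ⟨_, rfl⟩
  have hXA : ∀ e, |X e| ≤ 2 * (A : ℤ) := fun e => by rw [hX]; linarith [hY e]
  rw [← hX]
  -- the laws
  have e1 : blockK p g X = (unifZ p.B).bind fun zi => (unifZ p.B).bind fun zj => coin.bind fun s =>
      PMF.map (fun z : ℤ => blockM p g zi.toNat zj.toNat
        (if s = 0 then (z.toNat : ℤ) else -(z.toNat : ℤ)) X) (unifZ (lb p g zi.toNat zj.toNat)) := by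
    unfold blockK
    rw [unif_bind]
    congr 1
    funext zi
    rw [unif_bind]
    congr 1
    funext zj
    congr 1
    funext s
    exact unif_map _ (fun d : ℕ => blockM p g zi.toNat zj.toNat
        (if s = 0 then (d : ℤ) else -(d : ℤ)) X)
  rw [e1]
  unfold H.blockC
  -- first index
  refine Sim.seq (Sim.rand (x := 68) (t := 15) (e := H.v 16) p.B (by norm_num)
    (by simp [Expr.val, Mem.write_apply, hG.B_eq]) hΛB hWB).fr ?_
  rintro M1 ⟨⟨a1, a2, _⟩, fr1⟩
  have hG1 : StepIn p g m n M1 := hG.congr fun a ha => fr1 a (by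
    simp only [stepL, List.mem_cons, List.not_mem_nil, or_false] at ha
    simp only [Cmd.Wr_rand, List.mem_cons, List.not_mem_nil, or_false]
    omega)
  have hX1 : tabOf m n 60 M1 = X := by
    rw [hX]; unfold tabOf; rw [fr1 60 (by simp)]
  obtain ⟨i, hi⟩ : ∃ i : ℕ, (i : ℤ) = M1 68 0 0 := ⟨_, Int.toNat_of_nonneg a1⟩
  rw [← hi]
  rw [Int.toNat_natCast]
  -- second index
  refine Sim.seq (Sim.rand (x := 67) (t := 15) (e := H.v 16) p.B (by norm_num)
    (by simp [Expr.val, Mem.write_apply, hG1.B_eq]) hΛB hWB).fr ?_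
  rintro M2 ⟨⟨b1, b2, _⟩, fr2⟩
  have hG2 : StepIn p g m n M2 := hG1.congr fun a ha => fr2 a (by
    simp only [stepL, List.mem_cons, List.not_mem_nil, or_false] at ha
    simp only [Cmd.Wr_rand, List.mem_cons, List.not_mem_nil, or_false]
    omega)
  have hX2 : tabOf m n 60 M2 = X := by
    rw [← hX1]; unfold tabOf; rw [fr2 60 (by simp)]
  have hi2 : M2 68 0 0 = i := by rw [fr2 68 (by simp), hi]
  obtain ⟨j, hj⟩ : ∃ j : ℕ, (j : ℤ) = M2 67 0 0 := ⟨_, Int.toNat_of_nonneg b1⟩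
  rw [← hj]
  simp only [Int.toNat_natCast]
  -- the sign
  have hflip : Sim W Λ (.flip 70) M2 (fun M' => M' 70 0 0) coin
      (fun M' => (M' 70 0 0 = 0 ∨ M' 70 0 0 = 1)) := by
    have h := Sim.flip (W := W) (Λ := Λ) (M := M2) (a := 70)
      (f := fun M' : Mem => M' 70 0 0) (Q := fun M' => (M' 70 0 0 = 0 ∨ M' 70 0 0 = 1)) hWone
      (by simp) (by simp)
    have h5 : (coin.map fun z => (M2.write 70 0 0 z) 70 0 0) = coin := by
      simp only [Mem.write_self]
      exact PMF.map_id _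
    rwa [h5] at h
  refine Sim.seq hflip.fr ?_
  rintro M3 ⟨c1, fr3⟩
  have hG3 : StepIn p g m n M3 := hG2.congr fun a ha => fr3 a (by
    simp only [stepL, List.mem_cons, List.not_mem_nil, or_false] at ha
    simp only [Cmd.Wr_flip, List.mem_cons, List.not_mem_nil, or_false]
    omega)
  have hX3 : tabOf m n 60 M3 = X := by
    rw [← hX2]; unfold tabOf; rw [fr3 60 (by simp)]
  have hi3 : M3 68 0 0 = i := by rw [fr3 68 (by simp), hi2]
  have hj3 : M3 67 0 0 = j := by rw [fr3 67 (by simp), hj]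
  obtain ⟨s, hs⟩ : ∃ s : ℤ, s = M3 70 0 0 := ⟨_, rfl⟩
  rw [← hs] at c1 ⊢
  have hout : ¬ (i < m ∧ j < n) → (∀ e, |tabOf m n 60 M3 e| ≤ 2 * (A : ℤ)) ∧
      PMF.map (fun z : ℤ => blockM p g i j (if s = 0 then (z.toNat : ℤ) else -(z.toNat : ℤ)) X)
        (unifZ (lb p g i j)) = PMF.pure (tabOf m n 60 M3) := by
    intro h
    refine ⟨fun e => by rw [hX3]; exact hXA e, ?_⟩
    rw [hX3]
    have : (fun z : ℤ => blockM p g i j (if s = 0 then (z.toNat : ℤ) else -(z.toNat : ℤ)) X) =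
        Function.const ℤ X := by
      funext z
      unfold blockM
      rw [if_neg (fun hc => h hc.1)]
      rfl
    rw [this]
    exact PMF.map_const _ _
  refine Sim.when (fun hlt => ?_) (fun hle => ?_)
  swap
  · apply hout
    simp only [Expr.val, hG3.m_eq, hi3] at hle
    omega
  refine Sim.when (fun hlt2 => ?_) (fun hle => ?_)
  swap
  · apply hout
    simp only [Expr.val, hG3.n_eq, hj3] at hle
    omega
  simp only [Expr.val, hG3.m_eq, hi3] at hlt
  simp only [Expr.val, hG3.n_eq, hj3] at hlt2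
  have him : i < m := by omega
  have hjn : j < n := by omega
  -- sizes
  have hsb : 2 ^ sb g i j ≤ A := by
    have h := hA.sgA i him j hjn
    unfold sg at h
    exact_mod_cast h
  have hlbsb : dlb p g m n i j ≤ sb g i j := by
    unfold dlb lb
    split_ifs <;> omega
  have hlbA : 2 ^ dlb p g m n i j ≤ A := (Nat.pow_le_pow_right (by norm_num) hlbsb).trans hsb
  have hlbΛ : dlb p g m n i j ≤ Λ := by
    have h1 : sb g i j < Nat.size A := Nat.lt_size.2 hsb
    unfold stepΛ at hΛ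
    omega
  have hlbW : 2 ^ dlb p g m n i j ≤ W := hlbA.trans (by omega)
  -- the target law
  have e2 : PMF.map (fun z : ℤ => blockM p g i j
        (if s = 0 then (z.toNat : ℤ) else -(z.toNat : ℤ)) X) (unifZ (lb p g i j)) =
      (unifZ (dlb p g m n i j)).bind fun z => PMF.pure
        (bmv g i j (if s = 0 then z else -z) X) := by
    by_cases hB : Blk p m n g i j
    · have h1 : dlb p g m n i j = lb p g i j := by unfold dlb; rw [if_pos hB]
      rw [h1]
      have h2 : ((unifZ (lb p g i j)).bind fun z => PMF.pure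
          (bmv g i j (if s = 0 then z else -z) X)) =
          PMF.map (fun z => bmv g i j (if s = 0 then z else -z) X) (unifZ (lb p g i j)) := rfl
      rw [h2]
      refine map_congr_support fun z hz => ?_
      obtain ⟨z0, z1⟩ := mem_unifZ.1 hz
      unfold blockM
      rw [if_pos ⟨⟨him, hjn⟩, hB⟩, Int.toNat_of_nonneg z0]
    · have h1 : dlb p g m n i j = 0 := by unfold dlb; rw [if_neg hB]
      rw [h1, unifZ_zero, PMF.pure_bind]
      have h2 : bmv g i j (if s = 0 then (0 : ℤ) else -0) X = X := by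
        rw [neg_zero, ite_self]; exact bmv_zero X i j
      rw [h2]
      have : (fun z : ℤ => blockM p g i j (if s = 0 then (z.toNat : ℤ) else -(z.toNat : ℤ)) X) =
          Function.const ℤ X := by
        funext z
        unfold blockM
        rw [if_neg (fun hc => hB hc.2)]
        rfl
      rw [this]
      exact PMF.map_const _ _
  rw [e2]
  -- the length
  refine Sim.seq (Sim.rand (x := 71) (t := 15) (e := .get 33 (H.v 68) (H.v 67))
    (dlb p g m n i j) (by norm_num) ?_ hlbΛ hlbW).fr ?_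
  · simp only [Expr.val, Mem.write_apply]
    norm_num
    rw [hi3, hj3, hG3.geo.lb_eq i j him hjn]
    simp
  rintro M4 ⟨⟨d1, d2, _⟩, fr4⟩
  have hi4 : M4 68 0 0 = i := by rw [fr4 68 (by simp), hi3]
  have hj4 : M4 67 0 0 = j := by rw [fr4 67 (by simp), hj3]
  have hs4 : M4 70 0 0 = s := by rw [fr4 70 (by simp), hs]
  have h22 : M4 22 0 0 = (is m g : ℕ) := by rw [fr4 22 (by simp), hG3.geo.is_eq]
  have h23 : M4 23 0 0 = (js n g : ℕ) := by rw [fr4 23 (by simp), hG3.geo.js_eq]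
  have hX4 : tabOf m n 60 M4 = X := by
    rw [← hX3]; unfold tabOf; rw [fr4 60 (by simp)]
  obtain ⟨z, hz⟩ : ∃ z : ℤ, z = M4 71 0 0 := ⟨_, rfl⟩
  rw [← hz] at d1 d2 ⊢
  have hzA : z ≤ A := by
    have : ((2 ^ dlb p g m n i j : ℕ) : ℤ) ≤ A := by exact_mod_cast hlbA
    push_cast at this
    linarith
  obtain ⟨d, hd⟩ : ∃ d : ℤ, d = if s = 0 then z else -z := ⟨_, rfl⟩
  rw [← hd]
  have hdA : |d| ≤ (A : ℤ) := by
    rw [hd, abs_le]
    split_ifs
    · constructor <;> linarith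
    · constructor <;> linarith
  have hd0 : Blk p m n g i j ∨ d = 0 := by
    by_cases hB : Blk p m n g i j
    · exact Or.inl hB
    · right
      have h1 : dlb p g m n i j = 0 := by unfold dlb; rw [if_neg hB]
      rw [h1] at d2
      have : z = 0 := by
        norm_num at d2
        omega
      rw [hd, this]
      simp
  have hAW : (A : ℤ) ≤ W := by
    have : A ≤ W := by omega
    exact_mod_cast this
  -- the sign is applied
  have hsign : Det W Λ (.when (H.v 70) (.setv 71 (.sub (.lit 0) (H.v 71)))) M4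
      (fun M' => M' 71 0 0 = d) := by
    refine Det.when (fun h => ?_) (fun h => ?_)
    · simp only [Expr.val, hs4] at h
      refine Det.setv ?_ ?_
      · simp only [Expr.val, ← hz, zero_sub, abs_neg, abs_of_nonneg d1]
        exact hzA.trans hAW
      · simp only [Expr.val, Mem.write_self, ← hz, zero_sub]
        rw [hd, if_neg (by omega)]
    · simp only [Expr.val, hs4] at h
      have : s = 0 := by omega
      rw [hd, if_pos this, hz]
  have hfin : Det W Λ (.seq (.when (H.v 70) (.setv 71 (.sub (.lit 0) (H.v 71)))) add4) M4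
      (fun M' => tabOf m n 60 M' = bmv g i j d X) := by
    refine Det.seq hsign.fr ?_
    rintro M5 ⟨g1, fr5⟩
    have hX5 : tabOf m n 60 M5 = X := by
      rw [← hX4]; unfold tabOf; rw [fr5 60 (by simp)]
    have h := add4_det (W := W) (Λ := Λ) (M := M5) (g := g) (A := A) (i := i) (j := j) (d := d)
      (by rw [fr5 22 (by simp), h22]) (by rw [fr5 23 (by simp), h23])
      (by rw [fr5 68 (by simp), hi4]) (by rw [fr5 67 (by simp), hj4]) g1 him hjn
      (fun e => by rw [hX5, hX]; exact hY e) hdA hW5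
    rwa [hX5] at h
  refine (hfin.sim (f := tabOf m n 60) (x := bmv g i j d X) fun M' h => h).mono ?_
  intro M' h e
  rw [h]
  exact bmv_le (fun e => by rw [hX]; exact hY e) hdA hd0 e

end Vale.Agent.P328RAM
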