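import Vale.Agent.P328RAM.Lang

/-!
# Program logic for the language of `Lang.lean`
-/

namespace Vale.Agent.P328RAM

open PMF

theorem bits_le_of_abs_le {z : ℤ} {W : ℕ} (h : |z| ≤ (W : ℤ)) : bits z ≤ bits (W : ℤ) := by
  unfold bits
  have h1 : z.natAbs ≤ W := by
    have := abs_le.1 h
    omega
  have h2 : ((W : ℤ)).natAbs = W := by simp
  rw [h2]
  have := Nat.size_le_size h1
  omega

theorem one_le_bits (z : ℤ) : 1 ≤ bits z := by unfold bits; omega

theorem abs_lt_two_pow_bits (z : ℤ) : |z| < 2 ^ bits z := by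
  unfold bits
  have h := Nat.lt_size_self z.natAbs
  have h3 : (z.natAbs : ℤ) < 2 ^ (z.natAbs.size) := by exact_mod_cast h
  have h4 : |z| = (z.natAbs : ℤ) := by simp
  rw [h4, pow_succ]
  have : (0 : ℤ) < 2 ^ (z.natAbs.size) := by positivity
  linarith

theorem bits_le_of_abs_lt {z : ℤ} {k : ℕ} (h : |z| < 2 ^ k) : bits z ≤ k + 1 := by
  unfold bits
  have h1 : z.natAbs < 2 ^ k := by
    have : (z.natAbs : ℤ) < ((2 ^ k : ℕ) : ℤ) := by push_cast; simpa using h
    exact_mod_cast this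
  have := Nat.size_le.2 h1
  omega

/-- every cell is at most `W` in absolute value -/
def Bdd (W : ℕ) (M : Mem) : Prop := ∀ a i j, |M a i j| ≤ (W : ℤ)

/-- exponent bounding the size of the value of an expression, in units of `bits W` -/
def Expr.deg : Expr → ℕ
  | .lit k => bits k
  | .get _ _ _ => 1
  | .add e f => e.deg + f.deg
  | .sub e f => e.deg + f.deg
  | .mul e f => e.deg + f.deg
  | .div e f => e.deg + f.deg
  | .size e => e.deg

theorem Expr.one_le_deg : ∀ e : Expr, 1 ≤ e.deg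
  | .lit k => one_le_bits k
  | .get _ _ _ => le_rfl
  | .add e f => by have := e.one_le_deg; simp only [Expr.deg]; omega
  | .sub e f => by have := e.one_le_deg; simp only [Expr.deg]; omega
  | .mul e f => by have := e.one_le_deg; simp only [Expr.deg]; omega
  | .div e f => by have := e.one_le_deg; simp only [Expr.deg]; omega
  | .size e => by have := e.one_le_deg; simp only [Expr.deg]; omega

theorem add_le_two_pow {x y : ℤ} {a b : ℕ} (ha : 1 ≤ a) (hb : 1 ≤ b) (hx : x ≤ 2 ^ a)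
    (hy : y ≤ 2 ^ b) : x + y ≤ 2 ^ (a + b) := by
  rw [pow_add]
  have h1 : (2 : ℤ) ≤ 2 ^ a := by
    calc (2 : ℤ) = 2 ^ 1 := by norm_num
      _ ≤ 2 ^ a := pow_le_pow_right₀ (by norm_num) ha
  have h2 : (2 : ℤ) ≤ 2 ^ b := by
    calc (2 : ℤ) = 2 ^ 1 := by norm_num
      _ ≤ 2 ^ b := pow_le_pow_right₀ (by norm_num) hb
  nlinarith [mul_nonneg (sub_nonneg.2 h1) (sub_nonneg.2 h2)]

theorem Expr.abs_val_le {W : ℕ} {M : Mem} (hM : Bdd W M) :
    ∀ e : Expr, |e.val M| ≤ 2 ^ (e.deg * bits (W : ℤ))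
  | .lit k => by
      have h1 := one_le_bits (W : ℤ)
      simp only [Expr.val, Expr.deg]
      refine (abs_lt_two_pow_bits k).le.trans (pow_le_pow_right₀ (by norm_num) ?_)
      exact Nat.le_mul_of_pos_right _ h1
  | .get a i j => by
      simp only [Expr.val, Expr.deg, one_mul]
      have h1 := hM a (i.val M) (j.val M)
      have h2 := abs_lt_two_pow_bits (W : ℤ)
      have h3 : |((W : ℕ) : ℤ)| = (W : ℤ) := by simp
      linarith [h2.le]
  | .add e f => by
      have h1 := e.abs_val_le hM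
      have h2 := f.abs_val_le hM
      have hb := one_le_bits (W : ℤ)
      simp only [Expr.val, Expr.deg]
      rw [add_mul]
      refine (abs_add_le _ _).trans (add_le_two_pow ?_ ?_ h1 h2)
      · exact Nat.mul_pos e.one_le_deg hb
      · exact Nat.mul_pos f.one_le_deg hb
  | .sub e f => by
      have h1 := e.abs_val_le hM
      have h2 := f.abs_val_le hM
      have hb := one_le_bits (W : ℤ)
      simp only [Expr.val, Expr.deg]
      rw [add_mul]
      refine (abs_sub _ _).trans (add_le_two_pow ?_ ?_ h1 h2)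
      · exact Nat.mul_pos e.one_le_deg hb
      · exact Nat.mul_pos f.one_le_deg hb
  | .mul e f => by
      have h1 := e.abs_val_le hM
      have h2 := f.abs_val_le hM
      simp only [Expr.val, Expr.deg]
      rw [add_mul, pow_add, abs_mul]
      exact mul_le_mul h1 h2 (abs_nonneg _) (by positivity)
  | .div e f => by
      have h1 := e.abs_val_le hM
      simp only [Expr.val, Expr.deg]
      have h3 : |e.val M / f.val M| ≤ |e.val M| := by
        have := Int.natAbs_ediv_le_natAbs (e.val M) (f.val M)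
        have h4 : ((e.val M / f.val M).natAbs : ℤ) ≤ ((e.val M).natAbs : ℤ) := by exact_mod_cast this
        simpa using h4
      refine h3.trans (h1.trans (pow_le_pow_right₀ (by norm_num) ?_))
      nlinarith [Nat.zero_le (f.deg * bits (W : ℤ))]
  | .size e => by
      have h1 := e.abs_val_le hM
      simp only [Expr.val, Expr.deg]
      have h3 : (e.val M).natAbs.size ≤ (e.val M).natAbs :=
        Nat.size_le.2 (Nat.lt_pow_self (by norm_num))
      have h4 : (((e.val M).natAbs.size : ℕ) : ℤ) ≤ |e.val M| := by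
        rw [← Int.natCast_natAbs]; exact_mod_cast h3
      have h5 : (0 : ℤ) ≤ (((e.val M).natAbs.size : ℕ) : ℤ) := by positivity
      rw [abs_of_nonneg h5]
      exact h4.trans h1

theorem Expr.bits_val_le {W : ℕ} {M : Mem} (hM : Bdd W M) (e : Expr) :
    bits (e.val M) ≤ (e.deg + 2) * bits (W : ℤ) := by
  have h1 := e.abs_val_le hM
  have h2 : |e.val M| < 2 ^ (e.deg * bits (W : ℤ) + 1) := by
    rw [pow_succ]
    have : (0 : ℤ) < 2 ^ (e.deg * bits (W : ℤ)) := by positivity
    linarith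
  have h3 := bits_le_of_abs_lt h2
  have h4 := one_le_bits (W : ℤ)
  nlinarith

/-- constant bounding the cost of an expression, in units of `bits W ^ 2` -/
def Expr.K : Expr → ℕ
  | .lit k => bits k
  | .get _ i j => i.K + j.K + 1
  | .add e f => e.K + f.K + (e.deg + f.deg + 2)
  | .sub e f => e.K + f.K + (e.deg + f.deg + 2)
  | .mul e f => e.K + f.K + (e.deg + 2) * (f.deg + 2)
  | .div e f => e.K + f.K + (e.deg + 2) * (f.deg + 2)
  | .size e => e.K + (e.deg + 2)

theorem Expr.cost_le {W : ℕ} {M : Mem} (hM : Bdd W M) :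
    ∀ e : Expr, e.cost M ≤ e.K * bits (W : ℤ) ^ 2
  | .lit k => by
      have h1 := one_le_bits (W : ℤ)
      simp only [Expr.cost, Expr.K]
      exact Nat.le_mul_of_pos_right _ (by positivity)
  | .get a i j => by
      have h1 := i.cost_le hM
      have h2 := j.cost_le hM
      have h3 := bits_le_of_abs_le (hM a (i.val M) (j.val M))
      have h4 := one_le_bits (W : ℤ)
      simp only [Expr.cost, Expr.K]
      nlinarith
  | .add e f => by
      have h1 := e.cost_le hM
      have h2 := f.cost_le hM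
      have h3 := (Expr.add e f).bits_val_le hM
      have h4 := one_le_bits (W : ℤ)
      simp only [Expr.cost, Expr.K, Expr.val, Expr.deg] at h3 ⊢
      nlinarith
  | .sub e f => by
      have h1 := e.cost_le hM
      have h2 := f.cost_le hM
      have h3 := (Expr.sub e f).bits_val_le hM
      have h4 := one_le_bits (W : ℤ)
      simp only [Expr.cost, Expr.K, Expr.val, Expr.deg] at h3 ⊢
      nlinarith
  | .mul e f => by
      have h1 := e.cost_le hM
      have h2 := f.cost_le hM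
      have h3 := Nat.mul_le_mul (e.bits_val_le hM) (f.bits_val_le hM)
      simp only [Expr.cost, Expr.K]
      calc _ ≤ e.K * bits (W : ℤ) ^ 2 + f.K * bits (W : ℤ) ^ 2
            + (e.deg + 2) * bits (W : ℤ) * ((f.deg + 2) * bits (W : ℤ)) := by omega
        _ = _ := by ring
  | .div e f => by
      have h1 := e.cost_le hM
      have h2 := f.cost_le hM
      have h3 := Nat.mul_le_mul (e.bits_val_le hM) (f.bits_val_le hM)
      simp only [Expr.cost, Expr.K]
      calc _ ≤ e.K * bits (W : ℤ) ^ 2 + f.K * bits (W : ℤ) ^ 2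
            + (e.deg + 2) * bits (W : ℤ) * ((f.deg + 2) * bits (W : ℤ)) := by omega
        _ = _ := by ring
  | .size e => by
      have h1 := e.cost_le hM
      have h3 := e.bits_val_le hM
      have h4 := one_le_bits (W : ℤ)
      simp only [Expr.cost, Expr.K]
      nlinarith

/-- time bound of a command when all stored values are at most `W` in absolute value and all
loops run at most `Λ` times -/
def Cmd.T (W Λ : ℕ) : Cmd → ℕ
  | .set _ i j e => (i.K + j.K + e.K + 1) * bits (W : ℤ) ^ 2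
  | .flip _ => 1
  | .seq c d => c.T W Λ + d.T W Λ
  | .ite e c d => (e.K + 1) * bits (W : ℤ) ^ 2 + c.T W Λ + d.T W Λ
  | .rep e c => (e.K + 1) * bits (W : ℤ) ^ 2 + Λ * (c.T W Λ + 1)

/-- syntactic constant of a command -/
def Cmd.K : Cmd → ℕ
  | .set _ i j e => i.K + j.K + e.K + 1
  | .flip _ => 1
  | .seq c d => c.K + d.K
  | .ite e c d => (e.K + 1) + c.K + d.K
  | .rep e c => (e.K + 1) + (c.K + 1)

/-- nesting depth of the loops of a command -/
def Cmd.depth : Cmd → ℕ
  | .set _ _ _ _ => 0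
  | .flip _ => 0
  | .seq c d => max c.depth d.depth
  | .ite _ c d => max c.depth d.depth
  | .rep _ c => c.depth + 1

theorem Cmd.T_le (W Λ : ℕ) : ∀ c : Cmd, c.T W Λ ≤ c.K * (bits (W : ℤ) ^ 2 * (Λ + 1) ^ c.depth)
  | .set _ i j e => by simp [Cmd.T, Cmd.K, Cmd.depth]
  | .flip _ => by
      have h4 := one_le_bits (W : ℤ)
      simp only [Cmd.T, Cmd.K, Cmd.depth, pow_zero, mul_one, one_mul]
      exact Nat.one_le_pow _ _ h4
  | .seq c d => by
      have h1 := c.T_le W Λ
      have h2 := d.T_le W Λ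
      have h3 : (Λ + 1) ^ c.depth ≤ (Λ + 1) ^ (max c.depth d.depth) :=
        Nat.pow_le_pow_right (by omega) (le_max_left _ _)
      have h4 : (Λ + 1) ^ d.depth ≤ (Λ + 1) ^ (max c.depth d.depth) :=
        Nat.pow_le_pow_right (by omega) (le_max_right _ _)
      simp only [Cmd.T, Cmd.K, Cmd.depth]
      rw [add_mul]
      exact add_le_add (h1.trans (by gcongr)) (h2.trans (by gcongr))
  | .ite e c d => by
      have h1 := c.T_le W Λ
      have h2 := d.T_le W Λ
      have h3 : (Λ + 1) ^ c.depth ≤ (Λ + 1) ^ (max c.depth d.depth) :=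
        Nat.pow_le_pow_right (by omega) (le_max_left _ _)
      have h4 : (Λ + 1) ^ d.depth ≤ (Λ + 1) ^ (max c.depth d.depth) :=
        Nat.pow_le_pow_right (by omega) (le_max_right _ _)
      have h5 : 1 ≤ (Λ + 1) ^ (max c.depth d.depth) := Nat.one_le_pow _ _ (by omega)
      simp only [Cmd.T, Cmd.K, Cmd.depth]
      rw [add_mul (e.K + 1 + c.K), add_mul (e.K + 1)]
      refine add_le_add (add_le_add ?_ (h1.trans (by gcongr))) (h2.trans (by gcongr))
      calc (e.K + 1) * bits (W : ℤ) ^ 2 = (e.K + 1) * (bits (W : ℤ) ^ 2 * 1) := by ring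
        _ ≤ _ := by gcongr
  | .rep e c => by
      have h1 := c.T_le W Λ
      have h4 := one_le_bits (W : ℤ)
      have h5 : 1 ≤ (Λ + 1) ^ c.depth := Nat.one_le_pow _ _ (by omega)
      have h6 : 1 ≤ bits (W : ℤ) ^ 2 := Nat.one_le_pow _ _ h4
      have h7 : 1 ≤ bits (W : ℤ) ^ 2 * (Λ + 1) ^ c.depth := Nat.mul_pos h6 h5
      have h8 : 1 ≤ (Λ + 1) ^ (c.depth + 1) := Nat.one_le_pow _ _ (by omega)
      simp only [Cmd.T, Cmd.K, Cmd.depth]
      rw [add_mul (e.K + 1)]
      refine add_le_add ?_ ?_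
      · calc (e.K + 1) * bits (W : ℤ) ^ 2 = (e.K + 1) * (bits (W : ℤ) ^ 2 * 1) := by ring
          _ ≤ _ := by gcongr
      · calc Λ * (c.T W Λ + 1)
            ≤ (Λ + 1) * (c.K * (bits (W : ℤ) ^ 2 * (Λ + 1) ^ c.depth)
              + 1 * (bits (W : ℤ) ^ 2 * (Λ + 1) ^ c.depth)) := by
                gcongr
                · omega
                · omega
          _ = _ := by ring

/-- the arrays that a command may change -/
def Cmd.Wr : Cmd → List ℕ
  | .set a _ _ _ => [a]
  | .flip a => [a]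
  | .seq c d => c.Wr ++ d.Wr
  | .ite _ c d => c.Wr ++ d.Wr
  | .rep _ c => c.Wr

theorem iterBind_support {α : Type} {f : α → PMF α} {I : ℕ → α → Prop} {k : ℕ}
    (h : ∀ i < k, ∀ s, I i s → ∀ s' ∈ (f s).support, I (i + 1) s') :
    ∀ (j : ℕ) (s : α), j ≤ k → I (k - j) s → ∀ s' ∈ (iterBind f j s).support, I k s' := by
  intro j
  induction j with
  | zero =>
      intro s _ hs s' hs'
      simp only [iterBind, PMF.mem_support_pure_iff] at hs'
      subst hs'
      simpa using hs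
  | succ j ih =>
      intro s hj hs s' hs'
      simp only [iterBind, PMF.mem_support_bind_iff] at hs'
      obtain ⟨s1, h1, h2⟩ := hs'
      refine ih s1 (by omega) ?_ s' h2
      have := h (k - (j + 1)) (by omega) s hs s1 h1
      rwa [show k - (j + 1) + 1 = k - j by omega] at this

theorem Cmd.frame : ∀ (c : Cmd) (s s' : Mem × ℕ), s' ∈ (c.run s).support →
    ∀ a, a ∉ c.Wr → s'.1 a = s.1 a
  | .set b i j e, s, s', h, a, ha => by
      simp only [Cmd.run, PMF.mem_support_pure_iff] at h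
      simp only [Cmd.Wr, List.mem_singleton] at ha
      subst h
      funext k l
      simp [Mem.write, ha]
  | .flip b, s, s', h, a, ha => by
      simp only [Cmd.run, PMF.mem_support_map_iff] at h
      obtain ⟨z, _, h⟩ := h
      simp only [Cmd.Wr, List.mem_singleton] at ha
      subst h
      funext k l
      simp [Mem.write, ha]
  | .seq c d, s, s', h, a, ha => by
      simp only [Cmd.run, PMF.mem_support_bind_iff] at h
      obtain ⟨s1, h1, h2⟩ := h
      simp only [Cmd.Wr, List.mem_append, not_or] at ha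
      rw [d.frame s1 s' h2 a ha.2, c.frame s s1 h1 a ha.1]
  | .ite e c d, s, s', h, a, ha => by
      simp only [Cmd.Wr, List.mem_append, not_or] at ha
      simp only [Cmd.run] at h
      split_ifs at h
      · rw [c.frame _ s' h a ha.1]
      · rw [d.frame _ s' h a ha.2]
  | .rep e c, s, s', h, a, ha => by
      simp only [Cmd.Wr] at ha
      simp only [Cmd.run] at h
      refine iterBind_support (f := fun s' => c.run (s'.1, s'.2 + 1))
        (I := fun _ s1 => s1.1 a = s.1 a) (k := (e.val s.1).toNat) ?_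
        _ (s.1, s.2 + e.cost s.1 + 1) le_rfl rfl s' h
      intro i _ s1 h1 s2 h2
      rw [c.frame _ s2 h2 a ha, h1]

/-- The basic judgement: started in the memory `M` (all cells at most `W` in absolute value), the
command `c` ends in a memory satisfying `Q`, the law of `f` of the final memory is `μ`, and it
takes time at most `c.T W Λ`. -/
def Sim (W Λ : ℕ) {σ : Type} (c : Cmd) (M : Mem) (f : Mem → σ) (μ : PMF σ) (Q : Mem → Prop) :
    Prop :=
  Bdd W M → ∀ t, (c.run (M, t)).map (fun s => f s.1) = μ ∧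
    ∀ s ∈ (c.run (M, t)).support, Q s.1 ∧ Bdd W s.1 ∧ s.2 ≤ t + c.T W Λ

/-- The deterministic judgement. -/
def Det (W Λ : ℕ) (c : Cmd) (M : Mem) (Q : Mem → Prop) : Prop :=
  Bdd W M → ∀ t, ∃ s : Mem × ℕ, c.run (M, t) = PMF.pure s ∧ Q s.1 ∧ Bdd W s.1 ∧
    s.2 ≤ t + c.T W Λ

variable {W Λ : ℕ} {σ τ : Type}

theorem Bdd.write {M : Mem} (hM : Bdd W M) {a : ℕ} {i j z : ℤ} (hz : |z| ≤ (W : ℤ)) :
    Bdd W (M.write a i j z) := by
  intro b k l
  unfold Mem.write
  split_ifs
  · exact hz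
  · exact hM b k l

theorem Det.sim {c : Cmd} {M : Mem} {Q : Mem → Prop} {f : Mem → σ} {x : σ}
    (h : Det W Λ c M Q) (hf : ∀ M', Q M' → f M' = x) : Sim W Λ c M f (PMF.pure x) Q := by
  intro hB t
  obtain ⟨s, h1, h2, h3, h4⟩ := h hB t
  rw [h1]
  refine ⟨?_, ?_⟩
  · rw [PMF.pure_map, hf _ h2]
  · intro s' hs'
    rw [PMF.mem_support_pure_iff] at hs'
    subst hs'
    exact ⟨h2, h3, h4⟩

theorem Det.mono {c : Cmd} {M : Mem} {Q Q' : Mem → Prop} (h : Det W Λ c M Q)
    (hQ : ∀ M', Q M' → Q' M') : Det W Λ c M Q' := by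
  intro hB t
  obtain ⟨s, h1, h2, h3, h4⟩ := h hB t
  exact ⟨s, h1, hQ _ h2, h3, h4⟩

/-- add the boundedness of the initial memory as a hypothesis -/
theorem Det.bdd {c : Cmd} {M : Mem} {Q : Mem → Prop} (h : Bdd W M → Det W Λ c M Q) :
    Det W Λ c M Q := fun hB => h hB hB

theorem Det.set {M : Mem} {Q : Mem → Prop} {a : ℕ} {i j e : Expr}
    (hW : |e.val M| ≤ (W : ℤ))
    (hQ : Q (M.write a (i.val M) (j.val M) (e.val M))) : Det W Λ (.set a i j e) M Q := by
  intro hB t
  refine ⟨_, rfl, hQ, hB.write hW, ?_⟩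
  simp only [Cmd.T]
  have h1 := i.cost_le hB
  have h2 := j.cost_le hB
  have h3 := e.cost_le hB
  have h4 : 1 ≤ bits (W : ℤ) ^ 2 := Nat.one_le_pow _ _ (one_le_bits _)
  nlinarith

theorem Det.seq {M : Mem} {Q R : Mem → Prop} {c d : Cmd} (hc : Det W Λ c M R)
    (hd : ∀ M', R M' → Det W Λ d M' Q) : Det W Λ (.seq c d) M Q := by
  intro hB t
  obtain ⟨s, h1, h2, h3, h4⟩ := hc hB t
  obtain ⟨s', h1', h2', h3', h4'⟩ := hd s.1 h2 h3 s.2
  refine ⟨s', ?_, h2', h3', ?_⟩
  · simp only [Cmd.run]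
    rw [h1, PMF.pure_bind]
    exact h1'
  · simp only [Cmd.T]
    omega

theorem Det.ite {M : Mem} {Q : Mem → Prop} {e : Expr} {c d : Cmd}
    (hc : 0 < e.val M → Det W Λ c M Q) (hd : e.val M ≤ 0 → Det W Λ d M Q) :
    Det W Λ (.ite e c d) M Q := by
  intro hB t
  have h3 := e.cost_le hB
  have h4 : 1 ≤ bits (W : ℤ) ^ 2 := Nat.one_le_pow _ _ (one_le_bits _)
  by_cases h : 0 < e.val M
  · obtain ⟨s, h1, h2, h3', h4'⟩ := hc h hB (t + e.cost M + 1)
    refine ⟨s, ?_, h2, h3', ?_⟩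
    · simp only [Cmd.run, h, if_true]
      exact h1
    · simp only [Cmd.T]
      nlinarith
  · obtain ⟨s, h1, h2, h3', h4'⟩ := hd (by omega) hB (t + e.cost M + 1)
    refine ⟨s, ?_, h2, h3', ?_⟩
    · simp only [Cmd.run, h, if_false]
      exact h1
    · simp only [Cmd.T]
      nlinarith

/-- The rule for loops: `I i M` is the invariant after `i` rounds. -/
theorem Det.rep {M : Mem} {Q : Mem → Prop} {e : Expr} {c : Cmd} (I : ℕ → Mem → Prop) (k : ℕ)
    (hk : (e.val M).toNat = k) (hΛ : k ≤ Λ) (h0 : I 0 M)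
    (hI : ∀ i < k, ∀ M', I i M' → Det W Λ c M' (I (i + 1)))
    (hQ : ∀ M', I k M' → Q M') : Det W Λ (.rep e c) M Q := by
  intro hB t
  have key : ∀ (j : ℕ) (M' : Mem) (t' : ℕ), j ≤ k → I (k - j) M' → Bdd W M' →
      ∃ s : Mem × ℕ, iterBind (fun s' => c.run (s'.1, s'.2 + 1)) j (M', t') = PMF.pure s ∧
        I k s.1 ∧ Bdd W s.1 ∧ s.2 ≤ t' + j * (c.T W Λ + 1) := by
    intro j
    induction j with
    | zero =>
        intro M' t' _ h1 h2
        exact ⟨(M', t'), rfl, by simpa using h1, h2, by simp⟩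
    | succ j ih =>
        intro M' t' hj h1 h2
        obtain ⟨s, g1, g2, g3, g4⟩ := hI (k - (j + 1)) (by omega) M' h1 h2 (t' + 1)
        rw [show k - (j + 1) + 1 = k - j by omega] at g2
        obtain ⟨s', e1, e2, e3, e4⟩ := ih s.1 s.2 (by omega) g2 g3
        refine ⟨s', ?_, e2, e3, ?_⟩
        · simp only [iterBind]
          rw [g1, PMF.pure_bind]
          exact e1
        · rw [add_mul, one_mul]
          omega
  obtain ⟨s, g1, g2, g3, g4⟩ := key k M (t + e.cost M + 1) le_rfl (by simpa using h0) hB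
  refine ⟨s, ?_, hQ _ g2, g3, ?_⟩
  · simp only [Cmd.run, hk]
    exact g1
  · simp only [Cmd.T]
    have h3 := e.cost_le hB
    have h4 : 1 ≤ bits (W : ℤ) ^ 2 := Nat.one_le_pow _ _ (one_le_bits _)
    have h5 : k * (c.T W Λ + 1) ≤ Λ * (c.T W Λ + 1) := Nat.mul_le_mul_right _ hΛ
    nlinarith

/-- strengthen the postcondition of a deterministic command by the frame condition -/
theorem Det.fr {c : Cmd} {M : Mem} {Q : Mem → Prop} (h : Det W Λ c M Q) :
    Det W Λ c M (fun M' => Q M' ∧ ∀ a, a ∉ c.Wr → M' a = M a) := by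
  intro hB t
  obtain ⟨s, h1, h2, h3, h4⟩ := h hB t
  refine ⟨s, h1, ⟨h2, ?_⟩, h3, h4⟩
  intro a ha
  exact c.frame (M, t) s (by rw [h1]; simp) a ha

theorem Sim.mono {c : Cmd} {M : Mem} {f : Mem → σ} {μ : PMF σ} {Q Q' : Mem → Prop}
    (h : Sim W Λ c M f μ Q) (hQ : ∀ M', Q M' → Q' M') : Sim W Λ c M f μ Q' := by
  intro hB t
  obtain ⟨h1, h2⟩ := h hB t
  exact ⟨h1, fun s hs => ⟨hQ _ (h2 s hs).1, (h2 s hs).2⟩⟩

theorem Sim.bdd {c : Cmd} {M : Mem} {f : Mem → σ} {μ : PMF σ} {Q : Mem → Prop}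
    (h : Bdd W M → Sim W Λ c M f μ Q) : Sim W Λ c M f μ Q := fun hB => h hB hB

theorem Sim.fr {c : Cmd} {M : Mem} {f : Mem → σ} {μ : PMF σ} {Q : Mem → Prop}
    (h : Sim W Λ c M f μ Q) :
    Sim W Λ c M f μ (fun M' => Q M' ∧ ∀ a, a ∉ c.Wr → M' a = M a) := by
  intro hB t
  obtain ⟨h1, h2⟩ := h hB t
  exact ⟨h1, fun s hs => ⟨⟨(h2 s hs).1, c.frame (M, t) s hs⟩, (h2 s hs).2⟩⟩

theorem Sim.map {c : Cmd} {M : Mem} {f : Mem → σ} {μ : PMF σ} {Q : Mem → Prop}
    (h : Sim W Λ c M f μ Q) (g : σ → τ) :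
    Sim W Λ c M (fun M' => g (f M')) (μ.map g) Q := by
  intro hB t
  obtain ⟨h1, h2⟩ := h hB t
  refine ⟨?_, h2⟩
  rw [← h1, PMF.map_comp]
  rfl

theorem map_congr_support {α β : Type} {p : PMF α} {f g : α → β}
    (h : ∀ x ∈ p.support, f x = g x) : p.map f = p.map g := by
  unfold PMF.map
  ext b
  simp only [PMF.bind_apply, Function.comp]
  refine tsum_congr fun a => ?_
  by_cases ha : p a = 0
  · simp [ha]
  · rw [h a ((PMF.mem_support_iff _ _).2 ha)]

theorem bind_congr_support {α β : Type} {p : PMF α} {f g : α → PMF β}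
    (h : ∀ x ∈ p.support, f x = g x) : p.bind f = p.bind g := by
  ext b
  simp only [PMF.bind_apply]
  refine tsum_congr fun a => ?_
  by_cases ha : p a = 0
  · simp [ha]
  · rw [h a ((PMF.mem_support_iff _ _).2 ha)]

/-- change the observed function on the set where the postcondition holds -/
theorem Sim.congr {c : Cmd} {M : Mem} {f f' : Mem → σ} {μ : PMF σ} {Q : Mem → Prop}
    (h : Sim W Λ c M f μ Q) (hf : ∀ M', Q M' → f M' = f' M') : Sim W Λ c M f' μ Q := by
  intro hB t
  obtain ⟨h1, h2⟩ := h hB t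
  refine ⟨?_, h2⟩
  rw [← h1]
  exact map_congr_support fun s hs => (hf _ (h2 s hs).1).symm

theorem Sim.seq {M : Mem} {Q R : Mem → Prop} {c d : Cmd} {f : Mem → σ} {g : Mem → τ}
    {μ : PMF σ} {κ : σ → PMF τ} (hc : Sim W Λ c M f μ R)
    (hd : ∀ M', R M' → Sim W Λ d M' g (κ (f M')) Q) :
    Sim W Λ (.seq c d) M g (μ.bind κ) Q := by
  intro hB t
  obtain ⟨h1, h2⟩ := hc hB t
  refine ⟨?_, ?_⟩
  · simp only [Cmd.run]
    rw [PMF.map_bind, ← h1, PMF.bind_map]
    refine bind_congr_support fun s hs => ?_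
    obtain ⟨h3, h4, h5⟩ := h2 s hs
    exact (hd s.1 h3 h4 s.2).1
  · intro s' hs'
    simp only [Cmd.run, PMF.mem_support_bind_iff] at hs'
    obtain ⟨s, hs, hs'⟩ := hs'
    obtain ⟨h3, h4, h5⟩ := h2 s hs
    obtain ⟨g1, g2, g3⟩ := (hd s.1 h3 h4 s.2).2 s' hs'
    refine ⟨g1, g2, ?_⟩
    simp only [Cmd.T]
    omega

/-- sequencing after a deterministic command -/
theorem Det.seqSim {M : Mem} {Q R : Mem → Prop} {c d : Cmd} {g : Mem → τ}
    {μ : PMF τ} (hc : Det W Λ c M R)
    (hd : ∀ M', R M' → Sim W Λ d M' g μ Q) :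
    Sim W Λ (.seq c d) M g μ Q := by
  have h := Sim.seq (hc.sim (f := fun _ => ()) (x := ()) (fun _ _ => rfl)) (κ := fun _ => μ) hd
  rwa [PMF.pure_bind] at h

theorem Sim.ite {M : Mem} {Q : Mem → Prop} {e : Expr} {c d : Cmd} {f : Mem → σ} {μ : PMF σ}
    (hc : 0 < e.val M → Sim W Λ c M f μ Q) (hd : e.val M ≤ 0 → Sim W Λ d M f μ Q) :
    Sim W Λ (.ite e c d) M f μ Q := by
  intro hB t
  have h3 := e.cost_le hB
  have h4 : 1 ≤ bits (W : ℤ) ^ 2 := Nat.one_le_pow _ _ (one_le_bits _)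
  by_cases h : 0 < e.val M
  · obtain ⟨h1, h2⟩ := hc h hB (t + e.cost M + 1)
    have hrun : (Cmd.ite e c d).run (M, t) = c.run (M, t + e.cost M + 1) := by
      simp only [Cmd.run, h, if_true]
    rw [hrun]
    refine ⟨h1, fun s hs => ⟨(h2 s hs).1, (h2 s hs).2.1, ?_⟩⟩
    have := (h2 s hs).2.2
    simp only [Cmd.T]
    nlinarith
  · obtain ⟨h1, h2⟩ := hd (by omega) hB (t + e.cost M + 1)
    have hrun : (Cmd.ite e c d).run (M, t) = d.run (M, t + e.cost M + 1) := by
      simp only [Cmd.run, h, if_false]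
    rw [hrun]
    refine ⟨h1, fun s hs => ⟨(h2 s hs).1, (h2 s hs).2.1, ?_⟩⟩
    have := (h2 s hs).2.2
    simp only [Cmd.T]
    nlinarith

/-- The rule for random loops. -/
theorem Sim.rep {M : Mem} {Q : Mem → Prop} {e : Expr} {c : Cmd} {f : Mem → σ}
    (κ : σ → PMF σ) (I : ℕ → Mem → Prop) (k : ℕ)
    (hk : (e.val M).toNat = k) (hΛ : k ≤ Λ) (h0 : I 0 M)
    (hI : ∀ i < k, ∀ M', I i M' → Sim W Λ c M' f (κ (f M')) (I (i + 1)))
    (hQ : ∀ M', I k M' → Q M') : Sim W Λ (.rep e c) M f (iterBind κ k (f M)) Q := by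
  intro hB t
  have key : ∀ (j : ℕ) (M' : Mem) (t' : ℕ), j ≤ k → I (k - j) M' → Bdd W M' →
      (iterBind (fun s' => c.run (s'.1, s'.2 + 1)) j (M', t')).map (fun s => f s.1)
        = iterBind κ j (f M') ∧
      ∀ s ∈ (iterBind (fun s' => c.run (s'.1, s'.2 + 1)) j (M', t')).support,
        I k s.1 ∧ Bdd W s.1 ∧ s.2 ≤ t' + j * (c.T W Λ + 1) := by
    intro j
    induction j with
    | zero =>
        intro M' t' _ h1 h2
        simp only [iterBind]
        refine ⟨by rw [PMF.pure_map], ?_⟩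
        intro s hs
        rw [PMF.mem_support_pure_iff] at hs
        subst hs
        exact ⟨by simpa using h1, h2, by simp⟩
    | succ j ih =>
        intro M' t' hj h1 h2
        obtain ⟨g1, g2⟩ := hI (k - (j + 1)) (by omega) M' h1 h2 (t' + 1)
        rw [show k - (j + 1) + 1 = k - j by omega] at g2
        simp only [iterBind]
        refine ⟨?_, ?_⟩
        · rw [PMF.map_bind, ← g1, PMF.bind_map]
          refine bind_congr_support fun s hs => ?_
          obtain ⟨e1, e2, e3⟩ := g2 s hs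
          exact (ih s.1 s.2 (by omega) e1 e2).1
        · intro s' hs'
          rw [PMF.mem_support_bind_iff] at hs'
          obtain ⟨s, hs, hs'⟩ := hs'
          obtain ⟨e1, e2, e3⟩ := g2 s hs
          obtain ⟨q1, q2, q3⟩ := (ih s.1 s.2 (by omega) e1 e2).2 s' hs'
          refine ⟨q1, q2, ?_⟩
          rw [add_mul, one_mul]
          omega
  obtain ⟨g1, g2⟩ := key k M (t + e.cost M + 1) le_rfl (by simpa using h0) hB
  have hrun : (Cmd.rep e c).run (M, t)
      = iterBind (fun s' => c.run (s'.1, s'.2 + 1)) k (M, t + e.cost M + 1) := by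
    simp only [Cmd.run, hk]
  rw [hrun]
  refine ⟨g1, fun s hs => ⟨hQ _ (g2 s hs).1, (g2 s hs).2.1, ?_⟩⟩
  have h3 := e.cost_le hB
  have h4 : 1 ≤ bits (W : ℤ) ^ 2 := Nat.one_le_pow _ _ (one_le_bits _)
  have h5 : k * (c.T W Λ + 1) ≤ Λ * (c.T W Λ + 1) := Nat.mul_le_mul_right _ hΛ
  have h6 := (g2 s hs).2.2
  simp only [Cmd.T]
  nlinarith

theorem coin_support {z : ℤ} (hz : z ∈ coin.support) : z = 0 ∨ z = 1 := by
  unfold coin at hz
  rw [PMF.mem_support_map_iff] at hz
  obtain ⟨b, _, hb⟩ := hz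
  cases b
  · left; simpa using hb.symm
  · right; simpa using hb.symm

theorem Sim.flip {M : Mem} {Q : Mem → Prop} {a : ℕ} {f : Mem → σ} (hW : 1 ≤ W)
    (h0 : Q (M.write a 0 0 0)) (h1 : Q (M.write a 0 0 1)) :
    Sim W Λ (.flip a) M f (coin.map fun z => f (M.write a 0 0 z)) Q := by
  intro hB t
  simp only [Cmd.run]
  refine ⟨by rw [PMF.map_comp]; rfl, ?_⟩
  intro s hs
  rw [PMF.mem_support_map_iff] at hs
  obtain ⟨z, hz, hs⟩ := hs
  subst hs
  have hW' : (1 : ℤ) ≤ (W : ℤ) := by exact_mod_cast hW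
  simp only [Cmd.T]
  rcases coin_support hz with rfl | rfl
  · exact ⟨h0, hB.write (by simp), by omega⟩
  · exact ⟨h1, hB.write (by simpa using hW'), by omega⟩

end Vale.Agent.P328RAM
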