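import Vale.Agent.P328RAM.Spec
import Vale.Agent.P328RAM.Logic

/-!
# The sampling program (unary running time)

Arrays: 0 input scalars (`m` at (0,0), `n` at (1,0), `b` at (2,0)), 1 row sums `r`, 2 column sums
`c`, 3 output table, 4 current table `X`, 5 current row sums `R`, 6 current column sums `C`;
scalars: 7 `i`, 8 `j`, 9 `s`, 10 `H`, 11 `w`, 12 `x`, 13 `y`, 14 `jj`, 15 coin, 16 `B`, 17 `P`,
18 `N`, 19 `T`, 20 `K`, 21 `found`, 22 `pi`, 23 `pj`, 24 dummy, 25 `base`.
-/

namespace Vale.Agent.P328RAM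

namespace P

/-- the scalar number `a` -/
def v (a : ℕ) : Expr := .get a (.lit 0) (.lit 0)

/-- the cell `i` of the one-dimensional array `a` -/
def at1 (a : ℕ) (i : Expr) : Expr := .get a i (.lit 0)

/-- assignment to a scalar -/
def asg (a : ℕ) (e : Expr) : Cmd := .set a (.lit 0) (.lit 0) e

/-- do nothing -/
def skip : Cmd := asg 24 (.lit 0)

/-- increment a scalar -/
def inc (a : ℕ) : Cmd := asg a (.add (v a) (.lit 1))

/-- random integer below `2 ^ B` -/
def rand (x : ℕ) : Cmd :=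
  .seq (asg x (.lit 0))
    (.rep (v 16) (.seq (.flip 15) (asg x (.add (.add (v x) (v x)) (v 15)))))

/-- number of rows and of columns -/
def m : Expr := .get 0 (.lit 0) (.lit 0)

/-- number of columns -/
def n : Expr := .get 0 (.lit 1) (.lit 0)

/-- accuracy -/
def b : Expr := .get 0 (.lit 2) (.lit 0)

/-- last index `i < len` with `src i > cur i` -/
def pickC (dst src cur : ℕ) (len : Expr) : Cmd :=
  .seq (asg dst (.lit 0)) (.seq (asg 7 (.lit 0))
    (.rep len (.seq
      (.ite (.sub (at1 src (v 7)) (at1 cur (v 7))) (asg dst (v 7)) skip) (inc 7))))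

/-- `H := ∑ i, |rowSum X i - R i|` -/
def devC : Cmd :=
  .seq (asg 10 (.lit 0)) (.seq (asg 7 (.lit 0))
    (.rep m
      (.seq (asg 9 (.lit 0)) (.seq (asg 8 (.lit 0))
      (.seq (.rep n (.seq (asg 9 (.add (v 9) (.get 4 (v 7) (v 8)))) (inc 8)))
      (.seq (asg 9 (.sub (v 9) (at1 5 (v 7))))
      (.seq (.ite (.sub (.lit 0) (v 9)) (asg 9 (.sub (.lit 0) (v 9))) skip)
      (.seq (asg 10 (.add (v 10) (v 9))) (inc 7)))))))))

/-- add `k` to the cell `(i, j)` of the array `a` -/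
def addTo (a : ℕ) (i j : Expr) (k : ℤ) : Cmd := .set a i j (.add (.get a i j) (.lit k))

/-- the trial move and its possible cancellation -/
def tryC : Cmd :=
  .seq (addTo 4 (v 12) (v 14) (-1)) (.seq (addTo 4 (v 13) (v 14) 1) (.seq devC
    (.ite (.add (.get 4 (v 12) (v 14)) (.lit 1))
      (.ite (.sub (.lit 3) (v 10)) skip
        (.seq (addTo 4 (v 13) (v 14) (-1)) (addTo 4 (v 12) (v 14) 1)))
      (.seq (addTo 4 (v 13) (v 14) (-1)) (addTo 4 (v 12) (v 14) 1)))))

/-- one step of the chain -/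
def stepC : Cmd :=
  .seq (.flip 11) (.seq (rand 12) (.seq (rand 13) (.seq (rand 14)
    (.ite (v 11) (.ite (.sub m (v 12)) (.ite (.sub m (v 13)) (.ite (.sub n (v 14))
      tryC skip) skip) skip) skip))))

/-- choose the next cell and increase the current margins -/
def nextC : Cmd :=
  .seq (pickC 22 1 5 m) (.seq (pickC 23 2 6 n)
    (.seq (addTo 5 (v 22) (.lit 0) 1) (addTo 6 (v 23) (.lit 0) 1)))

/-- one phase -/
def phaseC : Cmd :=
  .seq nextC (.seq (addTo 4 (v 22) (v 23) 1) (.rep (v 19) stepC))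

/-- set the first `len` cells of a one-dimensional array to zero -/
def zero1 (a : ℕ) (len : Expr) : Cmd :=
  .seq (asg 7 (.lit 0)) (.rep len (.seq (.set a (v 7) (.lit 0) (.lit 0)) (inc 7)))

/-- set `X := 0` -/
def zeroX : Cmd :=
  .seq (asg 7 (.lit 0)) (.rep m (.seq (asg 8 (.lit 0)) (.seq
    (.rep n (.seq (.set 4 (v 7) (v 8) (.lit 0)) (inc 8))) (inc 7))))

/-- output := `X` -/
def copyX : Cmd :=
  .seq (asg 7 (.lit 0)) (.rep m (.seq (asg 8 (.lit 0)) (.seq
    (.rep n (.seq (.set 3 (v 7) (v 8) (.get 4 (v 7) (v 8))) (inc 8))) (inc 7))))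

/-- one attempt -/
def attC : Cmd :=
  .seq zeroX (.seq (zero1 5 m) (.seq (zero1 6 n) (.rep (v 18) phaseC)))

/-- the default table -/
def defC : Cmd :=
  .rep (v 18) (.seq nextC (addTo 3 (v 22) (v 23) 1))

/-- power of an expression -/
def powE (e : Expr) : ℕ → Expr
  | 0 => .lit 1
  | k + 1 => .mul (powE e k) e

/-- parameters: `N`, `B`, `P = 2 ^ B`, `T`, `K` -/
def parC (pT pK : ℕ) : Cmd :=
  .seq (asg 18 (.lit 0)) (.seq (asg 7 (.lit 0))
  (.seq (.rep m (.seq (asg 18 (.add (v 18) (at1 1 (v 7)))) (inc 7)))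
  (.seq (asg 16 (.lit 0)) (.seq (asg 17 (.lit 1))
  (.seq (.rep (.add m n) (.ite (.sub (.add m n) (v 17))
      (.seq (asg 17 (.add (v 17) (v 17))) (inc 16)) skip))
  (.seq (asg 25 (.add (.add (.add m n) (.add (v 18) b)) (.lit 2)))
  (.seq (asg 19 (powE (v 25) pT)) (asg 20 (powE (v 25) pK)))))))))

/-- one round of the main loop -/
def roundC : Cmd :=
  .ite (v 21) skip (.seq attC (.seq devC (.ite (v 10) skip (.seq copyX (asg 21 (.lit 1))))))

/-- the program -/
def main (pT pK : ℕ) : Cmd :=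
  .seq (parC pT pK) (.seq defC (.rep (v 20) roundC))

end P

/-- the table stored in the array `a` -/
def tabOf (m n a : ℕ) (M : Mem) : Tab m n := fun e => M a (e.1 : ℕ) (e.2 : ℕ)

/-- the vector stored in the array `a` -/
def vecOf (a : ℕ) (M : Mem) : ℕ → ℤ := fun i => M a i 0

/-- the part of the memory that never changes after the computation of the parameters -/
structure Env (m n : ℕ) (r c : ℕ → ℤ) (B T N K : ℕ) (M : Mem) : Prop where
  m_eq : M 0 0 0 = m
  n_eq : M 0 1 0 = n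
  r_eq : ∀ i < m, M 1 i 0 = r i
  c_eq : ∀ j < n, M 2 j 0 = c j
  B_eq : M 16 0 0 = B
  N_eq : M 18 0 0 = N
  T_eq : M 19 0 0 = T
  K_eq : M 20 0 0 = K

end Vale.Agent.P328RAM
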