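import Vale.Agent.P328RAM.Geo
import Vale.Agent.P328RAM.Prog
import Vale.Agent.P328RAM.RandZ

/-!
# The step of the chain as a program

Arrays: 0 input scalars (`m` at (0,0), `n` at (1,0)), 4 current table `X`, 60 proposal `Y`,
5 current row sums; from `Geo.lean`: 22 `is`, 23 `js`, 30 `lo`, 31 `hi`, 32 `L`, 33 `lb`.
Parameters: 16 `B`, 61 `q`, 62 `b`, 66 `2^b`.
Temporaries: 7 `i`, 8 `j`, 9 `x`, 10 `t`, 11 `z`, 12 `k`, 13 `bad`, 15 coin, 63 `Wx`, 64 `Wy`,
65 `U`, 67 `jj`, 68 `aa`, 69 `bb`, 70 sign, 71 `d`, 72 `w`, 73 `v`.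
-/

namespace Vale.Agent.P328RAM

open Vale.Agent.P328R

namespace H

/-- scalar -/
abbrev v (a : ℕ) : Expr := Expr.v a

/-- number of rows -/
abbrev m : Expr := .get 0 (.lit 0) (.lit 0)

/-- number of columns -/
abbrev n : Expr := .get 0 (.lit 1) (.lit 0)

/-- weight of one cell of the array `a`, into the scalar 11 -/
def cellW (a : ℕ) : Cmd :=
  .seq (.setv 9 (.get a (v 7) (v 8)))
  (.ite (.sub (.get 30 (v 7) (v 8)) (v 9)) (.setv 11 (.lit 0))
  (.ite (.sub (v 9) (.get 31 (v 7) (v 8))) (.setv 11 (.lit 0))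
    (.seq (.ite (v 9) (.setv 10 (.get 32 (v 7) (v 8)))
        (.setv 10 (.add (.get 32 (v 7) (v 8)) (v 9))))
      (.fold 11 12 (v 61) (.lit 1) (.mul (v 11) (v 10))))))

/-- scalar 13 := 1 if some row sum of the array `a` is wrong, else 0 -/
def rowBad (a : ℕ) : Cmd :=
  .seq (.setv 13 (.lit 0)) (.forL 7 m
    (.seq (.fold 9 8 n (.lit 0) (.add (v 9) (.get a (v 7) (v 8))))
    (.seq (.when (.sub (v 9) (.at1 5 (v 7))) (.setv 13 (.lit 1)))
      (.when (.sub (.at1 5 (v 7)) (v 9)) (.setv 13 (.lit 1))))))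

/-- weight of the table in the array `a`, into the scalar `s` -/
def weightC (a s : ℕ) : Cmd :=
  .seq (.prodC s 7 8 11 m n (cellW a)) (.seq (rowBad a) (.when (v 13) (.setv s (.lit 0))))

/-- array copy -/
def copyA (dst src : ℕ) : Cmd := .arr2 dst 7 8 m n (.get src (v 7) (v 8))

/-- Metropolis acceptance of `Y` -/
def accC : Cmd :=
  .seq (weightC 4 63) (.seq (weightC 60 64) (.seq (.rand 65 15 (v 62))
    (.when (.sub (.mul (v 66) (v 64)) (.mul (v 65) (v 63))) (copyA 4 60))))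

/-- `a[i,j] := a[i,j] + e` -/
def addC (a : ℕ) (i j e : Expr) : Cmd := .set a i j (.add (.get a i j) e)

/-- one unit move of the worm -/
def unitC : Cmd :=
  .seq (.rand 67 15 (v 16)) (.seq (.rand 68 15 (v 16)) (.seq (.rand 69 15 (v 16))
    (.when (.sub n (v 67)) (.when (.sub m (v 68)) (.when (.sub m (v 69))
      (.seq (addC 60 (v 68) (v 67) (.lit (-1))) (addC 60 (v 69) (v 67) (.lit 1))))))))

/-- worm proposal (the proposal table `Y` starts as a copy of `X`) -/
def wormC : Cmd := .rep (.lit 5) unitC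

/-- block proposal -/
def blockC : Cmd :=
  .seq (.rand 68 15 (v 16)) (.seq (.rand 67 15 (v 16)) (.seq (.flip 70)
    (.when (.sub m (v 68)) (.when (.sub n (v 67))
      (.seq (.rand 71 15 (.get 33 (v 68) (v 67)))
      (.seq (.when (v 70) (.setv 71 (.sub (.lit 0) (v 71))))
      (.seq (addC 60 (v 22) (v 23) (v 71))
      (.seq (addC 60 (v 22) (v 67) (.sub (.lit 0) (v 71)))
      (.seq (addC 60 (v 68) (v 23) (.sub (.lit 0) (v 71)))
        (addC 60 (v 68) (v 67) (v 71)))))))))))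

/-- proposal -/
def propC : Cmd := .seq (copyA 60 4) (.seq (.flip 73) (.ite (v 73) blockC wormC))

/-- one step of the chain -/
def stepC : Cmd := .seq (.flip 72) (.when (v 72) (.seq propC accC))

end H

/-- The memory contains the parameters and the cell data used by one step of the chain. -/
structure StepIn (p : Par) (g : Mg) (m n : ℕ) (M : Mem) : Prop where
  m_eq : M 0 0 0 = m
  n_eq : M 0 1 0 = n
  r_eq : ∀ i : ℕ, i < m → M 5 i 0 = g.r i
  geo : Geo p g m n M
  B_eq : M 16 0 0 = p.B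
  q_eq : M 61 0 0 = p.q
  b_eq : M 62 0 0 = p.b
  pb_eq : M 66 0 0 = 2 ^ p.b

/-- the arrays used by `StepIn` -/
def stepL : List ℕ := [0, 5, 16, 22, 23, 30, 31, 32, 33, 34, 61, 62, 66]

theorem StepIn.congr {p : Par} {g : Mg} {m n : ℕ} {M M' : Mem} (h : StepIn p g m n M)
    (h' : ∀ a ∈ stepL, M' a = M a) : StepIn p g m n M' := by
  constructor
  · rw [h' 0 (by simp [stepL])]; exact h.m_eq
  · rw [h' 0 (by simp [stepL])]; exact h.n_eq
  · intro i hi; rw [h' 5 (by simp [stepL])]; exact h.r_eq i hi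
  · constructor
    · rw [h' 22 (by simp [stepL])]; exact h.geo.is_eq
    · rw [h' 23 (by simp [stepL])]; exact h.geo.js_eq
    · intro i j hi hj; rw [h' 30 (by simp [stepL])]; exact h.geo.lo_eq i j hi hj
    · intro i j hi hj; rw [h' 31 (by simp [stepL])]; exact h.geo.hi_eq i j hi hj
    · intro i j hi hj; rw [h' 32 (by simp [stepL])]; exact h.geo.L_eq i j hi hj
    · intro i j hi hj; rw [h' 33 (by simp [stepL])]; exact h.geo.lb_eq i j hi hj
    · intro i j hi hj; rw [h' 34 (by simp [stepL])]; exact h.geo.bl_eq i j hi hj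
  · rw [h' 16 (by simp [stepL])]; exact h.B_eq
  · rw [h' 61 (by simp [stepL])]; exact h.q_eq
  · rw [h' 62 (by simp [stepL])]; exact h.b_eq
  · rw [h' 66 (by simp [stepL])]; exact h.pb_eq

/-- `A` bounds all quantities of the phase with margins `g` -/
structure BdG (p : Par) (m n : ℕ) (g : Mg) (A : ℕ) : Prop where
  r0 : ∀ i < m, 0 ≤ g.r i
  c0 : ∀ j < n, 0 ≤ g.c j
  rA : ∀ i < m, g.r i ≤ A
  cA : ∀ j < n, g.c j ≤ A
  sgA : ∀ i < m, ∀ j < n, sg g i j ≤ A
  LA : ∀ i < m, ∀ j < n, Ls p m n g i j ≤ A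
  Lp0 : 0 ≤ p.Lp
  Lc0 : 0 ≤ p.Lc
  A1 : 1 ≤ A

theorem BdG.mono {p : Par} {m n : ℕ} {g : Mg} {A A' : ℕ} (h : BdG p m n g A) (hA : A ≤ A') :
    BdG p m n g A' := by
  have h' : (A : ℤ) ≤ A' := by exact_mod_cast hA
  exact ⟨h.r0, h.c0, fun i hi => (h.rA i hi).trans h', fun j hj => (h.cA j hj).trans h',
    fun i hi j hj => (h.sgA i hi j hj).trans h', fun i hi j hj => (h.LA i hi j hj).trans h',
    h.Lp0, h.Lc0, h.A1.trans hA⟩

/-- a bound for all numbers computed in one step of the chain when all quantities are at most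
`A` -/
def stepW (p : Par) (m n A : ℕ) : ℕ :=
  2 ^ (p.b + p.B + 2) * (A + m + n + 10) ^ (p.q * (m * n) + 5)

/-- a bound for the lengths of all loops in one step of the chain -/
def stepΛ (p : Par) (m n A : ℕ) : ℕ := m + n + p.q + p.B + p.b + Nat.size A + 5

end Vale.Agent.P328RAM
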