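import Vale.Agent.P328RAM.HTools

/-!
# The worm proposal (module PH4)
-/

namespace Vale.Agent.P328RAM

open Vale.Agent.P328R

variable {W Λ m n : ℕ} {M : Mem} {p : Par} {g : Mg} {A : ℕ}

theorem unitM_abs {a b j : ℕ} {X : Tab m n} {B : ℤ} (hX : ∀ e, |X e| ≤ B)
    (e : Fin m × Fin n) : |unitM a b j X e| ≤ B + 1 := by
  have h1 := abs_le.1 (hX e)
  unfold unitM
  split_ifs with h
  · unfold addc
    rw [abs_le]
    split_ifs <;> constructor <;> omega
  · rw [abs_le]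
    constructor <;> omega

/-- one unit move, after the draws -/
theorem unitD_det {j a b : ℕ} {A' : ℕ} (hm : M 0 0 0 = m) (hn : M 0 1 0 = n)
    (h67 : M 67 0 0 = j) (h68 : M 68 0 0 = a) (h69 : M 69 0 0 = b)
    (hY : ∀ e, |tabOf m n 60 M e| ≤ (A' : ℤ)) (hW : A' + 1 ≤ W) :
    Det W Λ (.when (.sub H.n (H.v 67)) (.when (.sub H.m (H.v 68)) (.when (.sub H.m (H.v 69))
      (.seq (H.addC 60 (H.v 68) (H.v 67) (.lit (-1))) (H.addC 60 (H.v 69) (H.v 67) (.lit 1)))))) M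
      (fun M' => tabOf m n 60 M' = unitM a b j (tabOf m n 60 M)) := by
  have e1 : (Expr.sub H.n (H.v 67)).val M = (n : ℤ) - j := by
    show M 0 1 0 - M 67 0 0 = _
    rw [hn, h67]
  have e2 : (Expr.sub H.m (H.v 68)).val M = (m : ℤ) - a := by
    show M 0 0 0 - M 68 0 0 = _
    rw [hm, h68]
  have e3 : (Expr.sub H.m (H.v 69)).val M = (m : ℤ) - b := by
    show M 0 0 0 - M 69 0 0 = _
    rw [hm, h69]
  have hWz : (A' : ℤ) + 1 ≤ (W : ℤ) := by exact_mod_cast hW
  have hno : ¬(a < m ∧ b < m ∧ j < n) → tabOf m n 60 M = unitM a b j (tabOf m n 60 M) := by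
    intro h
    unfold unitM
    rw [if_neg h]
  refine Det.when (fun h1 => ?_) fun h1 => hno (by rintro ⟨-, -, h⟩; rw [e1] at h1; omega)
  refine Det.when (fun h2 => ?_) fun h2 => hno (by rintro ⟨h, -, -⟩; rw [e2] at h2; omega)
  refine Det.when (fun h3 => ?_) fun h3 => hno (by rintro ⟨-, h, -⟩; rw [e3] at h3; omega)
  rw [e1] at h1
  rw [e2] at h2
  rw [e3] at h3
  have ha : a < m := by omega
  have hb : b < m := by omega
  have hj : j < n := by omega
  refine Det.seq (addC_det (m := m) (n := n) (d := -1) ha hj h68 h67 rfl ?_) ?_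
  · have := abs_le.1 (hY (⟨a, ha⟩, ⟨j, hj⟩))
    rw [abs_le]
    constructor <;> omega
  rintro M1 ⟨g1, g2⟩
  have g67 : M1 67 0 0 = j := by rw [g2 67 (by norm_num)]; exact h67
  have g69 : M1 69 0 0 = b := by rw [g2 69 (by norm_num)]; exact h69
  refine (addC_det (m := m) (n := n) (ei := H.v 69) (ej := H.v 67) (ed := .lit 1) (d := 1) hb hj
    g69 g67 rfl ?_).mono ?_
  · rw [g1]
    have h5 := abs_le.1 (hY (⟨b, hb⟩, ⟨j, hj⟩))
    rw [abs_le]
    unfold addc
    split_ifs <;> constructor <;> omega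
  · rintro M2 ⟨g3, -⟩
    rw [g3, g1]
    unfold unitM
    rw [if_pos ⟨ha, hb, hj⟩]

/-- one unit move of the worm -/
theorem unitC_sim (hP : StepIn p g m n M) {A' : ℕ} (hY : ∀ e, |tabOf m n 60 M e| ≤ (A' : ℤ))
    (hWB : 2 ^ p.B ≤ W) (hW : A' + 1 ≤ W) (hΛ : p.B ≤ Λ) :
    Sim W Λ H.unitC M (tabOf m n 60) (unitK p (tabOf m n 60 M))
      (fun M' => ∀ e, |tabOf m n 60 M' e| ≤ (A' : ℤ) + 1) := by
  have hB : ∀ (M' : Mem) (x : ℕ), M' 16 = M 16 → x ≠ 16 →
      ((H.v 16).val (M'.write x 0 0 0)).toNat = p.B := by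
    intro M' x h hx
    have h1 : (H.v 16).val (M'.write x 0 0 0) = M' 16 0 0 := by
      show (M'.write x 0 0 0) 16 0 0 = _
      simp [Mem.write, hx.symm]
    rw [h1, h, hP.B_eq]
    exact Int.toNat_natCast _
  unfold H.unitC unitK
  refine Sim.rand_seq p.B (by norm_num) (hB M 67 rfl (by norm_num)) hΛ hWB ?_
  intro j hj M1 h67 hf1
  refine Sim.rand_seq p.B (by norm_num)
    (hB M1 68 (hf1 16 (by norm_num) (by norm_num)) (by norm_num)) hΛ hWB ?_
  intro a ha M2 h68 hf2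
  have hmap : (unif p.B).map (fun b => unitM a b j (tabOf m n 60 M)) =
      (unif p.B).bind fun b => PMF.pure (unitM a b j (tabOf m n 60 M)) := rfl
  rw [hmap]
  refine Sim.rand_seq p.B (by norm_num)
    (hB M2 69 (by rw [hf2 16 (by norm_num) (by norm_num), hf1 16 (by norm_num) (by norm_num)])
      (by norm_num)) hΛ hWB ?_
  intro b hb M3 h69 hf3
  have hfr : ∀ c, c ≠ 67 → c ≠ 68 → c ≠ 69 → c ≠ 15 → M3 c = M c := by
    intro c h1 h2 h3 h4
    rw [hf3 c h3 h4, hf2 c h2 h4, hf1 c h1 h4]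
  have ht : tabOf m n 60 M3 = tabOf m n 60 M :=
    tabOf_congr (hfr 60 (by norm_num) (by norm_num) (by norm_num) (by norm_num))
  have h0 := hfr 0 (by norm_num) (by norm_num) (by norm_num) (by norm_num)
  have h := unitD_det (W := W) (Λ := Λ) (M := M3) (m := m) (n := n) (j := j) (a := a) (b := b)
    (A' := A') (by rw [h0]; exact hP.m_eq) (by rw [h0]; exact hP.n_eq)
    (by rw [hf3 67 (by norm_num) (by norm_num), hf2 67 (by norm_num) (by norm_num)]; exact h67)
    (by rw [hf3 68 (by norm_num) (by norm_num)]; exact h68) h69 (by rw [ht]; exact hY) hW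
  rw [ht] at h
  exact (h.sim (f := tabOf m n 60) fun M' h => h).mono fun M' h e => by
    rw [h]
    exact unitM_abs hY e

/-- PH4. The worm. -/
theorem wormC_sim (hP : StepIn p g m n M) {A' : ℕ} (hY : ∀ e, |tabOf m n 60 M e| ≤ (A' : ℤ))
    (hW : 2 ^ (p.B + 1) * (A' + 10) ≤ W) (hΛ : p.B + 5 ≤ Λ) :
    Sim W Λ H.wormC M (tabOf m n 60) (wormK p (tabOf m n 60 M))
      (fun M' => ∀ e, |tabOf m n 60 M' e| ≤ (A' : ℤ) + 5) := by
  have h1 : 2 ^ p.B ≤ W := by
    refine le_trans ?_ hW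
    rw [pow_succ]
    calc 2 ^ p.B = 2 ^ p.B * 1 * 1 := by ring
      _ ≤ 2 ^ p.B * 2 * (A' + 10) := Nat.mul_le_mul (Nat.mul_le_mul_left _ (by norm_num)) (by omega)
  have h2 : A' + 10 ≤ W := by
    refine le_trans ?_ hW
    exact Nat.le_mul_of_pos_left _ (by positivity)
  unfold H.wormC wormK
  refine Sim.rep (unitK p) (fun (i : ℕ) (M' : Mem) => StepIn p g m n M' ∧
    ∀ e, |tabOf m n 60 M' e| ≤ (A' : ℤ) + i) 5 rfl (by omega) ⟨hP, by simpa using hY⟩ ?_ ?_
  · rintro i hi M' ⟨g1, g2⟩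
    have g3 : ∀ e, |tabOf m n 60 M' e| ≤ ((A' + i : ℕ) : ℤ) := by
      intro e; push_cast; exact g2 e
    refine (unitC_sim g1 g3 h1 (by omega) (by omega)).fr.mono ?_
    rintro M2 ⟨g4, g5⟩
    refine ⟨g1.congr fun a ha => g5 a ?_, fun e => ?_⟩
    · simp only [stepL, List.mem_cons, List.not_mem_nil, or_false] at ha
      simp only [H.unitC, H.addC, Cmd.Wr_seq, Cmd.Wr_rand, Cmd.Wr_when, Cmd.Wr_set,
        List.mem_append, List.mem_cons, List.not_mem_nil, or_false]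
      omega
    · have := g4 e
      push_cast at this ⊢
      linarith
  · rintro M' ⟨-, g⟩ e
    have := g e
    push_cast at this
    exact this

end Vale.Agent.P328RAM
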