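import Vale.Agent.P328RAM.HAcc
import Vale.Agent.P328RAM.HWorm
import Vale.Agent.P328RAM.HBlock

namespace Vale.Agent.P328RAM

open Vale.Agent.P328R

variable {W Λ m n : ℕ} {M : Mem} {p : Par} {g : Mg} {A : ℕ}

/-- PH6. Tables of positive weight are bounded. -/
theorem wt_bound (hA : BdG p m n g A) {X : Tab m n} (hX : Wt p g X ≠ 0) (e) : |X e| ≤ (A : ℤ) := by
  unfold Wt at hX
  split_ifs at hX with h
  · have h1 := Finset.prod_ne_zero_iff.1 hX e (Finset.mem_univ _)
    have hr := hA.rA e.1 e.1.2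
    have hsg := hA.sgA e.1 e.1.2 e.2 e.2.2
    have hL := hA.LA e.1 e.1.2 e.2 e.2.2
    unfold P328R.cw at h1
    split_ifs at h1 with h2 h3 h4 h5 h6
    · exact h3.trans hL
    · exact absurd rfl h1
    · rw [abs_of_nonneg h5.1]; omega
    · exact absurd rfl h1
    · rw [abs_of_nonneg h6.1]
      have : sc g (e.1 : ℕ) (e.2 : ℕ) ≤ g.r (e.1 : ℕ) := min_le_left _ _
      omega
    · exact absurd rfl h1
  · exact absurd rfl hX

theorem coin_bind_eq {τ : Type} (F : ℤ → PMF τ) (μ₀ μ₁ : PMF τ) (h0 : F 0 = μ₀) (h1 : F 1 = μ₁) :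
    coin.bind F = coin.bind fun w => if w = 0 then μ₀ else μ₁ := by
  refine bind_congr_support fun z hz => ?_
  rcases coin_support hz with rfl | rfl
  · simp [h0]
  · simp [h1]

/-- flip a coin, then continue -/
theorem Sim.flip_seq {τ : Type} {a : ℕ} (hW : 1 ≤ W) {d : Cmd} {f : Mem → τ} {μ₀ μ₁ : PMF τ}
    {Q : Mem → Prop}
    (h0 : ∀ M' : Mem, M' a 0 0 = 0 → (∀ c, c ≠ a → M' c = M c) → Sim W Λ d M' f μ₀ Q)
    (h1 : ∀ M' : Mem, M' a 0 0 = 1 → (∀ c, c ≠ a → M' c = M c) → Sim W Λ d M' f μ₁ Q) :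
    Sim W Λ (.seq (.flip a) d) M f (coin.bind fun w => if w = 0 then μ₀ else μ₁) Q := by
  have h := Sim.flip (W := W) (Λ := Λ) (M := M) (a := a) (f := fun M' : Mem => M' a 0 0)
    (Q := fun M' => (M' a 0 0 = 0 ∨ M' a 0 0 = 1) ∧ ∀ c, c ≠ a → M' c = M c) hW
    ⟨Or.inl (by simp), fun c hc => Mem.write_arr _ hc _ _ _⟩
    ⟨Or.inr (by simp), fun c hc => Mem.write_arr _ hc _ _ _⟩
  have h5 : (coin.map fun z => (M.write a 0 0 z) a 0 0) = coin := by
    simp only [Mem.write_self]
    exact PMF.map_id _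
  rw [h5] at h
  refine Sim.seq h (κ := fun w => if w = 0 then μ₀ else μ₁) ?_
  rintro M' ⟨hv | hv, hf⟩
  · simp only [hv, if_true]
    exact h0 M' hv hf
  · simp only [hv, one_ne_zero, if_false]
    exact h1 M' hv hf

theorem two_pow_le_stepW {p : Par} {m n A k : ℕ} (hk : k ≤ p.b + p.B + 2) :
    2 ^ k * (A + m + n + 10) ≤ stepW p m n A := by
  unfold stepW
  refine Nat.mul_le_mul (Nat.pow_le_pow_right (by norm_num) hk) ?_
  calc A + m + n + 10 = (A + m + n + 10) ^ 1 := (pow_one _).symm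
    _ ≤ _ := Nat.pow_le_pow_right (by omega) (by omega)

/-- The proposal. -/
theorem propC_sim (hG : StepIn p g m n M) (hA : BdG p m n g A)
    (hX : ∀ e, |tabOf m n 4 M e| ≤ (A : ℤ))
    (hW : stepW p m n A ≤ W) (hΛ : stepΛ p m n A ≤ Λ) :
    Sim W Λ H.propC M (tabOf m n 60) (propK p g (tabOf m n 4 M))
      (fun M' => (∀ e, |tabOf m n 60 M' e| ≤ 3 * (A : ℤ) + 10) ∧
        tabOf m n 4 M' = tabOf m n 4 M ∧ StepIn p g m n M') := by
  have hmn := lin_le_stepW.trans hW
  have hlin : ((10 * (A + m + n + 10) : ℕ) : ℤ) ≤ W := by exact_mod_cast hmn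
  push_cast at hlin
  have hmΛ : m ≤ Λ := by refine le_trans ?_ hΛ; unfold stepΛ; omega
  have hnΛ : n ≤ Λ := by refine le_trans ?_ hΛ; unfold stepΛ; omega
  have hA0 : (0 : ℤ) ≤ A := by positivity
  unfold H.propC
  refine Det.seqSim (copyA_det (dst := 60) (src := 4) (by decide) (by decide) (by decide)
    (by decide) (by decide) (by decide) hG.m_eq hG.n_eq hmΛ hnΛ (by omega) (by omega)
    (fun e => (hX e).trans (by linarith))).fr ?_
  rintro M1 ⟨c1, f1⟩
  have hG1 : StepIn p g m n M1 := hG.congr fun a ha => f1 a (by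
    simp only [stepL, List.mem_cons, List.not_mem_nil, or_false] at ha
    rcases ha with rfl | rfl | rfl | rfl | rfl | rfl | rfl | rfl | rfl | rfl | rfl | rfl | rfl <;>
      decide)
  have t4 : tabOf m n 4 M1 = tabOf m n 4 M := tabOf_congr (f1 4 (by decide))
  have hprop : propK p g (tabOf m n 4 M) = coin.bind fun v => if v = 0 then
      wormK p (tabOf m n 4 M) else blockK p g (tabOf m n 4 M) := rfl
  rw [hprop]
  refine Sim.flip_seq (by omega) ?_ ?_
  · intro M2 e f2
    have hG2 : StepIn p g m n M2 := hG1.congr fun a ha => f2 a (by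
      rintro rfl; revert ha; decide)
    have u60 : tabOf m n 60 M2 = tabOf m n 4 M := (tabOf_congr (f2 60 (by decide))).trans c1
    have u4 : tabOf m n 4 M2 = tabOf m n 4 M := (tabOf_congr (f2 4 (by decide))).trans t4
    refine Sim.ite (fun h => ?_) (fun h => ?_)
    · simp only [Expr.val, e] at h
      exact absurd h (by norm_num)
    · have hw := (wormC_sim (W := W) (Λ := Λ) hG2 (A' := A) (by rw [u60]; exact hX) ?_ ?_).fr
      · rw [u60] at hw
        refine hw.mono ?_
        rintro M3 ⟨q1, q2⟩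
        refine ⟨fun e => (q1 e).trans (by linarith), (tabOf_congr (q2 4 (by decide))).trans u4,
          hG2.congr fun a ha => q2 a ?_⟩
        simp only [stepL, List.mem_cons, List.not_mem_nil, or_false] at ha
        rcases ha with rfl | rfl | rfl | rfl | rfl | rfl | rfl | rfl | rfl | rfl | rfl | rfl | rfl <;>
          decide
      · refine le_trans ?_ hW
        refine le_trans ?_ (two_pow_le_stepW (p := p) (m := m) (n := n) (A := A) (k := p.B + 1)
          (by omega))
        exact Nat.mul_le_mul_left _ (by omega)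
      · refine le_trans ?_ hΛ; unfold stepΛ; omega
  · intro M2 e f2
    have hG2 : StepIn p g m n M2 := hG1.congr fun a ha => f2 a (by
      rintro rfl; revert ha; decide)
    have u60 : tabOf m n 60 M2 = tabOf m n 4 M := (tabOf_congr (f2 60 (by decide))).trans c1
    have u4 : tabOf m n 4 M2 = tabOf m n 4 M := (tabOf_congr (f2 4 (by decide))).trans t4
    refine Sim.ite (fun h => ?_) (fun h => ?_)
    · have hb := (blockC_sim (W := W) (Λ := Λ) hG2 hA (by rw [u60]; exact hX) hW hΛ).fr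
      rw [u60] at hb
      refine hb.mono ?_
      rintro M3 ⟨q1, q2⟩
      refine ⟨fun e => (q1 e).trans (by linarith), (tabOf_congr (q2 4 (by decide))).trans u4,
        hG2.congr fun a ha => q2 a ?_⟩
      simp only [stepL, List.mem_cons, List.not_mem_nil, or_false] at ha
      rcases ha with rfl | rfl | rfl | rfl | rfl | rfl | rfl | rfl | rfl | rfl | rfl | rfl | rfl <;>
        decide
    · simp only [Expr.val, e] at h
      exact absurd h (by norm_num)

/-- PH6. One step. -/
theorem stepC_gsim (hG : StepIn p g m n M) (hA : BdG p m n g A)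
    (hX : ∀ e, |tabOf m n 4 M e| ≤ (A : ℤ))
    (hW : stepW p m n A ≤ W) (hΛ : stepΛ p m n A ≤ Λ) :
    Sim W Λ H.stepC M (tabOf m n 4) (P328R.stepK p g (tabOf m n 4 M))
      (fun M' => ∀ e, |tabOf m n 4 M' e| ≤ (A : ℤ)) := by
  have hmn := lin_le_stepW.trans hW
  have hstep : P328R.stepK p g (tabOf m n 4 M) = coin.bind fun w => if w = 0 then
      PMF.pure (tabOf m n 4 M) else
        (propK p g (tabOf m n 4 M)).bind (P328R.accK p g (tabOf m n 4 M)) := rfl
  rw [hstep]
  unfold H.stepC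
  refine Sim.flip_seq (by omega) ?_ ?_
  · intro M1 e f1
    have u4 : tabOf m n 4 M1 = tabOf m n 4 M := tabOf_congr (f1 4 (by decide))
    refine Sim.when (fun h => ?_) (fun h => ?_)
    · simp only [Expr.val, e] at h
      exact absurd h (by norm_num)
    · rw [u4]
      exact ⟨hX, rfl⟩
  · intro M1 e f1
    have hG1 : StepIn p g m n M1 := hG.congr fun a ha => f1 a (by
      rintro rfl; revert ha; decide)
    have u4 : tabOf m n 4 M1 = tabOf m n 4 M := tabOf_congr (f1 4 (by decide))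
    refine Sim.when (fun h => ?_) (fun h => ?_)
    · have hp := propC_sim (W := W) (Λ := Λ) hG1 hA (by rw [u4]; exact hX) hW hΛ
      rw [u4] at hp
      refine Sim.seq hp ?_
      rintro M2 ⟨q1, q2, q3⟩
      have ha := accC_sim (W := W) (Λ := Λ) q3 hA (by
        rw [q2]; intro e; refine (hX e).trans ?_
        have hA0 : (0 : ℤ) ≤ A := by positivity
        linarith) q1 hW hΛ
      rw [q2] at ha
      refine ha.mono ?_
      rintro M3 (h3 | ⟨h3, h4⟩)
      · rw [h3]; exact hX
      · rw [h3]; exact fun e => wt_bound hA h4 e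
    · simp only [Expr.val, e] at h
      exact absurd h (by norm_num)

/-- PH6. `T` steps. -/
theorem stepsC_gsim {T : ℕ} {e : Expr} (hT : (e.val M).toNat = T) (hTΛ : T ≤ Λ)
    (hG : StepIn p g m n M) (hA : BdG p m n g A)
    (hX : ∀ e, |tabOf m n 4 M e| ≤ (A : ℤ))
    (hW : stepW p m n A ≤ W) (hΛ : stepΛ p m n A ≤ Λ) :
    Sim W Λ (.rep e H.stepC) M (tabOf m n 4) (iterBind (P328R.stepK p g) T (tabOf m n 4 M))
      (fun M' => ∀ e, |tabOf m n 4 M' e| ≤ (A : ℤ)) := by
  refine Sim.rep (P328R.stepK p g) (fun _ M' => StepIn p g m n M' ∧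
    ∀ e, |tabOf m n 4 M' e| ≤ (A : ℤ)) T hT hTΛ ⟨hG, hX⟩ ?_ (fun M' h => h.2)
  rintro i hi M' ⟨h1, h2⟩
  refine (stepC_gsim h1 hA h2 hW hΛ).fr.mono ?_
  rintro M2 ⟨q1, q2⟩
  refine ⟨h1.congr fun a ha => q2 a ?_, q1⟩
  simp only [stepL, List.mem_cons, List.not_mem_nil, or_false] at ha
  rcases ha with rfl | rfl | rfl | rfl | rfl | rfl | rfl | rfl | rfl | rfl | rfl | rfl | rfl <;>
    decide

end Vale.Agent.P328RAM
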