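import Vale.Agent.P328RAM.HProg

namespace Vale.Agent.P328RAM

open Vale.Agent.P328R

variable {W Λ m n : ℕ} {M : Mem} {p : Par} {g : Mg} {A : ℕ}

/-- temporaries of the weight routine -/
def wL : List ℕ := [7, 8, 9, 10, 11, 12, 13, 63, 64]

theorem stepW_pos (p : Par) (m n A : ℕ) : 1 ≤ stepW p m n A := by
  unfold stepW
  exact Nat.mul_pos (by positivity) (by positivity)

theorem base_pow_le_stepW {p : Par} {m n A k : ℕ} (hk : k ≤ p.q * (m * n) + 5) :
    (A + m + n + 10) ^ k ≤ stepW p m n A := by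
  unfold stepW
  calc (A + m + n + 10) ^ k ≤ (A + m + n + 10) ^ (p.q * (m * n) + 5) :=
        Nat.pow_le_pow_right (by omega) hk
    _ = 1 * (A + m + n + 10) ^ (p.q * (m * n) + 5) := (one_mul _).symm
    _ ≤ _ := Nat.mul_le_mul_right _ (Nat.one_le_two_pow)

theorem lin_le_stepW {p : Par} {m n A : ℕ} : 10 * (A + m + n + 10) ≤ stepW p m n A := by
  refine le_trans ?_ (base_pow_le_stepW (p := p) (m := m) (n := n) (A := A) (k := 2) (by omega))
  nlinarith

theorem cw_le (hA : BdG p m n g A) {k l : ℕ} (hk : k < m) (hl : l < n) (x : ℤ) :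
    P328R.cw p m n g k l x ≤ A ^ p.q := by
  have hA1 : 1 ≤ A ^ p.q := Nat.one_le_pow _ _ hA.A1
  unfold P328R.cw
  split_ifs with h1 h2 h3 h4 h5
  · refine Nat.pow_le_pow_left ?_ _
    have := hA.LA k hk l hl
    have h6 : min 0 x ≤ 0 := min_le_left _ _
    omega
  · exact Nat.zero_le _
  · exact hA1
  · exact Nat.zero_le _
  · exact hA1
  · exact Nat.zero_le _

/-- the power, for a memory in which the scalar 10 has been computed -/
theorem cellW_pow (hA : BdG p m n g A) (hW : stepW p m n A ≤ W) (hΛ : stepΛ p m n A ≤ Λ)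
    (hm0 : 0 < m) (hn0 : 0 < n) {M3 : Mem} {t : ℤ} (h10 : M3 10 0 0 = t) (h61 : M3 61 0 0 = p.q)
    (ht0 : 0 ≤ t) (htA : t ≤ A) :
    Det W Λ (.fold 11 12 (H.v 61) (.lit 1) (.mul (H.v 11) (H.v 10))) M3 (fun M'' =>
      M'' 11 0 0 = t ^ p.q ∧ Same [11, 12] M3 M'') := by
  have hq : p.q ≤ p.q * (m * n) + 5 := by
    have : 1 ≤ m * n := Nat.mul_pos hm0 hn0
    nlinarith
  have hb := (base_pow_le_stepW (p := p) (m := m) (n := n) (A := A) hq).trans hW
  refine Det.pow (s := 11) (i := 12) (en := H.v 61) (e := H.v 10) p.q t (by decide) ?_ ?_ ?_ ?_ ?_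
  · refine le_trans ?_ hΛ
    unfold stepΛ; omega
  · exact le_trans (Nat.lt_pow_self (by omega)).le hb
  · intro k' hk'
    rw [abs_of_nonneg (pow_nonneg ht0 _)]
    have h1 : t ^ k' ≤ ((A + m + n + 10 : ℕ) : ℤ) ^ p.q := by
      calc t ^ k' ≤ ((A + m + n + 10 : ℕ) : ℤ) ^ k' := by
            refine pow_le_pow_left₀ ht0 ?_ _
            push_cast; linarith
        _ ≤ _ := pow_le_pow_right₀ (by push_cast; linarith) hk'
    refine h1.trans ?_
    exact_mod_cast hb
  · intro M4 h4
    simp only [Expr.val]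
    rw [h4 61 (by decide), h61]
    simp
  · intro M4 h4
    simp only [Expr.val]
    rw [h4 10 (by decide), h10]

/-- the cell weight once the entry `x` is in the scalar 9 -/
theorem cellW_aux (hA : BdG p m n g A)
    (hW : stepW p m n A ≤ W) (hΛ : stepΛ p m n A ≤ Λ) {k l : ℕ} (hk : k < m) (hl : l < n)
    {M2 : Mem} {x : ℤ} (g9 : M2 9 0 0 = x) (g7 : M2 7 0 0 = (k : ℤ)) (g8 : M2 8 0 0 = (l : ℤ))
    (g30 : M2 30 k l = dlo p g m n k l) (g31 : M2 31 k l = dhi p g m n k l)
    (g32 : M2 32 k l = dL p g m n k l) (g61 : M2 61 0 0 = p.q) :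
    Det W Λ (.ite (.sub (.get 30 (H.v 7) (H.v 8)) (H.v 9)) (.setv 11 (.lit 0))
      (.ite (.sub (H.v 9) (.get 31 (H.v 7) (H.v 8))) (.setv 11 (.lit 0))
        (.seq (.ite (H.v 9) (.setv 10 (.get 32 (H.v 7) (H.v 8)))
          (.setv 10 (.add (.get 32 (H.v 7) (H.v 8)) (H.v 9))))
        (.fold 11 12 (H.v 61) (.lit 1) (.mul (H.v 11) (H.v 10)))))) M2 (fun M'' =>
      M'' 11 0 0 = (P328R.cw p m n g k l x : ℕ) ∧ Same [10, 11, 12] M2 M'') := by
  have hlin : ((10 * (A + m + n + 10) : ℕ) : ℤ) ≤ W := by exact_mod_cast lin_le_stepW.trans hW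
  push_cast at hlin
  have hLb := hA.LA k hk l hl
  have hdL : dL p g m n k l ≤ A := by
    unfold dL
    split_ifs
    · exact hLb
    · exact_mod_cast hA.A1
  have hkey := cw_eq p g (m := m) (n := n) k l x
  have v30 : (Expr.sub (.get 30 (H.v 7) (H.v 8)) (H.v 9)).val M2 = dlo p g m n k l - x := by
    simp only [Expr.val, g7, g8, g9, g30]
  have v31 : (Expr.sub (H.v 9) (.get 31 (H.v 7) (H.v 8))).val M2 = x - dhi p g m n k l := by
    simp only [Expr.val, g7, g8, g9, g31]
  refine Det.ite (fun h => ?_) (fun h => ?_)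
  · rw [v30] at h
    have h0 : (P328R.cw p m n g k l x : ℤ) = 0 := by
      rw [← hkey, P328RAM.cw, if_neg (by omega)]
    refine Det.setv (by simp [Expr.val]) ?_
    refine ⟨?_, (Same.refl _ _).write (by decide) _ _ _⟩
    rw [h0]; simp [Expr.val]
  rw [v30] at h
  refine Det.ite (fun h' => ?_) (fun h' => ?_)
  · rw [v31] at h'
    have h0 : (P328R.cw p m n g k l x : ℤ) = 0 := by
      rw [← hkey, P328RAM.cw, if_neg (by omega)]
    refine Det.setv (by simp [Expr.val]) ?_
    refine ⟨?_, (Same.refl _ _).write (by decide) _ _ _⟩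
    rw [h0]; simp [Expr.val]
  rw [v31] at h'
  have hval : (P328R.cw p m n g k l x : ℤ) = (dL p g m n k l + min 0 x) ^ p.q := by
    rw [← hkey, P328RAM.cw, if_pos (by omega)]
  have ht0 : 0 ≤ dL p g m n k l + min 0 x := by
    by_cases hp : Piv p m n g k l
    · rw [dL, if_pos hp]
      rw [dlo, if_pos hp] at h
      rw [dhi, if_pos hp] at h'
      rcases le_total 0 x with h1 | h1
      · rw [min_eq_left h1]; omega
      · rw [min_eq_right h1]; omega
    · rw [dL, if_neg hp]
      rw [dlo, if_neg hp] at h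
      rw [min_eq_left (by omega)]; norm_num
  have htA : dL p g m n k l + min 0 x ≤ A := by
    have h6 : min 0 x ≤ 0 := min_le_left _ _
    omega
  rw [hval]
  refine Det.seq (R := fun M3 => M3 = M2.write 10 0 0 (dL p g m n k l + min 0 x)) ?_ ?_
  · refine Det.ite (fun hp => ?_) (fun hp => ?_)
    · simp only [Expr.val, g9] at hp
      refine Det.setv ?_ ?_
      · simp only [Expr.val, g7, g8, g32]
        rw [min_eq_left hp.le, add_zero] at ht0
        rw [abs_of_nonneg ht0]
        linarith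
      · simp only [Expr.val, g7, g8, g32]
        rw [min_eq_left hp.le, add_zero]
    · simp only [Expr.val, g9] at hp
      refine Det.setv ?_ ?_
      · simp only [Expr.val, g7, g8, g32, g9]
        rw [min_eq_right hp] at ht0 htA
        rw [abs_of_nonneg ht0]
        linarith
      · simp only [Expr.val, g7, g8, g32, g9]
        rw [min_eq_right hp]
  rintro M3 rfl
  refine (cellW_pow hA hW hΛ (by omega) (by omega) (t := dL p g m n k l + min 0 x)
    (by simp) (by rw [Mem.write_arr _ (by decide), g61]) ht0 htA).mono ?_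
  rintro M4 ⟨h4, h5⟩
  exact ⟨h4, ((Same.refl _ _).write (by decide) _ _ _).trans (h5.mono (by decide))⟩

theorem cellW_det {a : ℕ} (ha : a = 4 ∨ a = 60)
    (hG : StepIn p g m n M) (hA : BdG p m n g A) (hX : ∀ e, |tabOf m n a M e| ≤ 3 * (A : ℤ) + 10)
    (hW : stepW p m n A ≤ W) (hΛ : stepΛ p m n A ≤ Λ) {k l : ℕ} (hk : k < m) (hl : l < n)
    {M' : Mem} (hS : Same wL M M') (h7 : M' 7 0 0 = (k : ℤ)) (h8 : M' 8 0 0 = (l : ℤ)) :
    Det W Λ (H.cellW a) M' (fun M'' =>
      M'' 11 0 0 = (P328R.cw p m n g k l (M a k l) : ℕ) ∧ Same wL M' M'') := by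
  have ha7 : a ∉ wL := by rcases ha with rfl | rfl <;> decide
  have hxb : |M a k l| ≤ 3 * (A : ℤ) + 10 := hX (⟨k, hk⟩, ⟨l, hl⟩)
  have hlin : ((10 * (A + m + n + 10) : ℕ) : ℤ) ≤ W := by exact_mod_cast lin_le_stepW.trans hW
  push_cast at hlin
  have ea : M' a k l = M a k l := by rw [hS a ha7]
  refine Det.seq (R := fun M2 => M2 = M'.write 9 0 0 (M a k l)) (Det.setv ?_ ?_) ?_
  · simp only [Expr.val, h7, h8, ea]
    refine hxb.trans ?_
    linarith
  · simp only [Expr.val, h7, h8, ea]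
  rintro M2 rfl
  refine (cellW_aux hA hW hΛ hk hl (x := M a k l) (by simp)
    (by rw [Mem.write_arr _ (by decide), h7]) (by rw [Mem.write_arr _ (by decide), h8])
    (by rw [Mem.write_arr _ (by decide), hS 30 (by decide)]; exact hG.geo.lo_eq k l hk hl)
    (by rw [Mem.write_arr _ (by decide), hS 31 (by decide)]; exact hG.geo.hi_eq k l hk hl)
    (by rw [Mem.write_arr _ (by decide), hS 32 (by decide)]; exact hG.geo.L_eq k l hk hl)
    (by rw [Mem.write_arr _ (by decide), hS 61 (by decide)]; exact hG.q_eq)).mono ?_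
  rintro M4 ⟨h4, h5⟩
  exact ⟨h4, ((Same.refl _ _).write (by decide) _ _ _).trans (h5.mono (by decide))⟩

/-- the row sums of the array `a` -/
def rsum (n a : ℕ) (M : Mem) (i : ℕ) : ℤ := ∑ j ∈ Finset.range n, M a i j

theorem rowBad_det {a : ℕ} (ha : a = 4 ∨ a = 60)
    (hG : StepIn p g m n M) (hA : BdG p m n g A) (hX : ∀ e, |tabOf m n a M e| ≤ 3 * (A : ℤ) + 10)
    (hW : stepW p m n A ≤ W) (hΛ : stepΛ p m n A ≤ Λ) :
    Det W Λ (H.rowBad a) M (fun M' =>
      M' 13 0 0 = (if ∀ i < m, rsum n a M i = g.r i then 0 else 1) ∧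
      Same [13, 7, 8, 9] M M') := by
  have ha7 : a ∉ [13, 7, 8, 9] := by rcases ha with rfl | rfl <;> decide
  have hmn := lin_le_stepW.trans hW
  have hmΛ : m ≤ Λ := by refine le_trans ?_ hΛ; unfold stepΛ; omega
  have hnΛ : n ≤ Λ := by refine le_trans ?_ hΛ; unfold stepΛ; omega
  unfold H.rowBad
  refine Det.seq (R := fun M' => M' = M.write 13 0 0 0)
    (Det.setv (by simp [Expr.val]) (by simp [Expr.val])) ?_
  rintro M1 rfl
  refine Det.forL (fun k M' => M' 13 0 0 = (if ∀ i < k, rsum n a M i = g.r i then 0 else 1) ∧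
      Same [13, 7, 8, 9] M M') m ?_ hmΛ (by omega) ?_ ?_ ?_ ?_ (fun M' _ h => h)
  · simp [Expr.val, Mem.write, hG.m_eq]
  · simp
  · rintro k M' z ⟨h1, h2⟩
    exact ⟨by rw [Mem.write_arr _ (by decide)]; exact h1, h2.write (by decide) _ _ _⟩
  · exact ⟨by simp, (Same.refl _ _).write (by decide) _ _ _⟩
  rintro k hk M' h7 ⟨h1, h2⟩
  refine Det.seq (R := fun M'' => M'' 9 0 0 = rsum n a M k ∧ M'' 7 0 0 = (k : ℤ) ∧
    M'' 13 0 0 = (if ∀ i < k, rsum n a M i = g.r i then 0 else 1) ∧ Same [13, 7, 8, 9] M M'') ?_ ?_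
  · refine (Det.sum1 (s := 9) (i := 8) (en := H.n) (e := .get a (H.v 7) (H.v 8)) n
      (fun j => M a k j) (by decide) hnΛ (by omega) ?_ ?_ ?_).mono ?_
    · intro l hl
      have hb : ∀ j ∈ Finset.range l, |M a k j| ≤ 3 * (A : ℤ) + 10 := by
        intro j hj
        have hj' : j < n := lt_of_lt_of_le (Finset.mem_range.1 hj) hl
        exact hX (⟨k, hk⟩, ⟨j, hj'⟩)
      refine (Finset.abs_sum_le_sum_abs _ _).trans ((Finset.sum_le_sum hb).trans ?_)
      rw [Finset.sum_const, Finset.card_range, nsmul_eq_mul]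
      have h3 := (base_pow_le_stepW (p := p) (m := m) (n := n) (A := A) (k := 3) (by omega)).trans hW
      have h4 : l * (3 * A + 10) ≤ W := by
        refine le_trans ?_ h3
        calc l * (3 * A + 10) ≤ (A + m + n + 10) * (10 * (A + m + n + 10)) := by
              refine Nat.mul_le_mul ?_ ?_ <;> omega
          _ ≤ (A + m + n + 10) * ((A + m + n + 10) * (A + m + n + 10)) := by
              refine Nat.mul_le_mul_left _ (Nat.mul_le_mul_right _ ?_)
              omega
          _ = _ := by ring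
      exact_mod_cast h4
    · intro M'' hS
      simp only [Expr.val]
      rw [hS 0 (by decide), h2 0 (by decide), hG.n_eq]
      simp
    · intro j hj M'' hS h8
      have ha8 : a ∉ [9, 8] := by rcases ha with rfl | rfl <;> decide
      simp only [Expr.val, h8]
      rw [hS 7 (by decide), h7, hS a ha8, h2 a ha7]
    · rintro M'' ⟨h3, h4⟩
      refine ⟨h3, by rw [h4 7 (by decide), h7], by rw [h4 13 (by decide), h1], ?_⟩
      exact h2.trans (h4.mono (by decide))
  · rintro M2 ⟨e9, e7, e13, eS⟩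
    have e5 : M2 5 k 0 = g.r k := by rw [eS 5 (by decide)]; exact hG.r_eq k hk
    have hsucc : (∀ i < k + 1, rsum n a M i = g.r i) ↔
        (∀ i < k, rsum n a M i = g.r i) ∧ rsum n a M k = g.r k := by
      constructor
      · intro h; exact ⟨fun i hi => h i (by omega), h k (by omega)⟩
      · rintro ⟨h, h'⟩ i hi
        rcases Nat.lt_succ_iff_lt_or_eq.1 hi with h3 | h3
        · exact h i h3
        · subst h3; exact h'
    have hW1 : (1 : ℤ) ≤ W := by
      have : 1 ≤ W := by omega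
      exact_mod_cast this
    refine Det.seq (R := fun M3 => M3 9 0 0 = rsum n a M k ∧ M3 7 0 0 = (k : ℤ) ∧
      M3 13 0 0 = (if (∀ i < k, rsum n a M i = g.r i) ∧ rsum n a M k ≤ g.r k then 0 else 1) ∧
      Same [13, 7, 8, 9] M M3) ?_ ?_
    · refine Det.when (fun h => ?_) (fun h => ?_)
      · simp only [Expr.val, e9, e7, e5] at h
        refine Det.setv (by simpa [Expr.val] using hW1) ?_
        refine ⟨by rw [Mem.write_arr _ (by decide)]; exact e9,
          by rw [Mem.write_arr _ (by decide)]; exact e7, ?_, eS.write (by decide) _ _ _⟩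
        rw [if_neg (by rintro ⟨_, h'⟩; omega)]
        simp [Expr.val]
      · simp only [Expr.val, e9, e7, e5] at h
        refine ⟨e9, e7, ?_, eS⟩
        rw [e13]
        congr 1
        exact propext ⟨fun h' => ⟨h', by omega⟩, fun h' => h'.1⟩
    · rintro M3 ⟨f9, f7, f13, fS⟩
      have f5 : M3 5 k 0 = g.r k := by rw [fS 5 (by decide)]; exact hG.r_eq k hk
      refine Det.when (fun h => ?_) (fun h => ?_)
      · simp only [Expr.val, f9, f7, f5] at h
        refine Det.setv (by simpa [Expr.val] using hW1) ?_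
        refine ⟨?_, fS.write (by decide) _ _ _⟩
        rw [if_neg (by rw [hsucc]; rintro ⟨_, h'⟩; omega)]
        simp [Expr.val]
      · simp only [Expr.val, f9, f7, f5] at h
        refine ⟨?_, fS⟩
        rw [f13]
        congr 1
        rw [hsucc]
        exact propext ⟨fun h' => ⟨h'.1, by omega⟩, fun h' => ⟨h'.1, by omega⟩⟩

/-- PH1. The weight routine. -/
theorem weightC_det {a s : ℕ} (ha : a = 4 ∨ a = 60) (hs : s = 63 ∨ s = 64)
    (hG : StepIn p g m n M) (hA : BdG p m n g A) (hX : ∀ e, |tabOf m n a M e| ≤ 3 * (A : ℤ) + 10)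
    (hW : stepW p m n A ≤ W) (hΛ : stepΛ p m n A ≤ Λ) :
    Det W Λ (H.weightC a s) M (fun M' => M' s 0 0 = (Wt p g (tabOf m n a M) : ℕ)) := by
  have ha7 : a ∉ wL := by rcases ha with rfl | rfl <;> decide
  have hsL : s ∈ wL := by rcases hs with rfl | rfl <;> decide
  have hmn := lin_le_stepW.trans hW
  have hmΛ : m ≤ Λ := by refine le_trans ?_ hΛ; unfold stepΛ; omega
  have hnΛ : n ≤ Λ := by refine le_trans ?_ hΛ; unfold stepΛ; omega
  unfold H.weightC
  refine Det.seq (Det.prodC (s := s) (i := 7) (j := 8) (z := 11) (L := wL) m n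
    (fun k l => if k < m ∧ l < n then P328R.cw p m n g k l (M a k l) else 1) (A ^ p.q)
    (by rcases hs with rfl | rfl <;> decide) (by rcases hs with rfl | rfl <;> decide) (by decide)
    ?_ ?_ ?_ ⟨hsL, by decide, by decide⟩ hmΛ (by omega) hnΛ (by omega) ?_ ?_ ?_ ?_ ?_ ?_) ?_
  · rcases hs with rfl | rfl <;> rcases ha with rfl | rfl <;> decide
  · rcases ha with rfl | rfl <;> decide
  · rcases ha with rfl | rfl <;> decide
  · intro k hk l hl
    rw [if_pos ⟨hk, hl⟩]
    exact cw_le hA hk hl _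
  · exact Nat.one_le_pow _ _ hA.A1
  · refine le_trans ?_ hW
    refine le_trans ?_ (base_pow_le_stepW (p := p) (m := m) (n := n) (A := A)
      (k := p.q * (m * n)) (by omega))
    rw [← pow_mul]
    exact Nat.pow_le_pow_left (by omega) _
  · intro M' hS
    simp only [Expr.val]
    rw [hS 0 (by decide), hG.m_eq]; simp
  · intro M' hS
    simp only [Expr.val]
    rw [hS 0 (by decide), hG.n_eq]; simp
  · intro k hk l hl M' hS h7 h8
    rw [if_pos ⟨hk, hl⟩]
    exact cellW_det ha hG hA hX hW hΛ hk hl hS h7 h8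
  rintro M1 ⟨h1, hS1⟩
  have hG1 : StepIn p g m n M1 := hG.congr fun a' ha' => hS1 a' (by
    simp only [stepL, List.mem_cons, List.not_mem_nil, or_false] at ha'
    rcases ha' with rfl | rfl | rfl | rfl | rfl | rfl | rfl | rfl | rfl | rfl | rfl | rfl | rfl <;>
      decide)
  have hMa : M1 a = M a := hS1 a ha7
  have hX1 : ∀ e, |tabOf m n a M1 e| ≤ 3 * (A : ℤ) + 10 := by
    intro e; unfold tabOf; rw [hMa]; exact hX e
  have hrs : ∀ i, rsum n a M1 i = rsum n a M i := by
    intro i; unfold rsum; rw [hMa]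
  refine Det.seq (rowBad_det ha hG1 hA hX1 hW hΛ) ?_
  rintro M2 ⟨h2, hS2⟩
  have hs13 : s ∉ [13, 7, 8, 9] := by rcases hs with rfl | rfl <;> decide
  have hrow : (∀ i < m, rsum n a M1 i = g.r i) ↔ ∀ i : Fin m, rowSum (tabOf m n a M) i = g.r i := by
    simp only [hrs]
    constructor
    · intro h i
      rw [← h i i.2]
      unfold rowSum rsum tabOf
      rw [Finset.sum_range]
    · intro h i hi
      rw [← h ⟨i, hi⟩]
      unfold rowSum rsum tabOf
      rw [Finset.sum_range]
  have hprod : ((∏ k ∈ Finset.range m, ∏ l ∈ Finset.range n,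
      (if k < m ∧ l < n then P328R.cw p m n g k l (M a k l) else 1) : ℕ) : ℤ)
      = ((∏ e : Fin m × Fin n, P328R.cw p m n g (e.1 : ℕ) (e.2 : ℕ) (tabOf m n a M e) : ℕ) : ℤ) := by
    congr 1
    rw [Fintype.prod_prod_type, Finset.prod_range]
    refine Finset.prod_congr rfl fun i _ => ?_
    rw [Finset.prod_range]
    refine Finset.prod_congr rfl fun j _ => ?_
    rw [if_pos ⟨i.2, j.2⟩]
    rfl
  have h2s : M2 s 0 0 = M1 s 0 0 := by rw [hS2 s hs13]
  refine Det.when (fun h => ?_) (fun h => ?_)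
  · simp only [Expr.val, h2] at h
    refine Det.setv (by simp [Expr.val]) ?_
    have h3 : ¬ ∀ i < m, rsum n a M1 i = g.r i := by
      intro h4; rw [if_pos h4] at h; exact absurd h (by norm_num)
    rw [Wt, if_neg (fun h4 => h3 (hrow.2 h4))]
    simp [Expr.val]
  · simp only [Expr.val, h2] at h
    have h3 : ∀ i < m, rsum n a M1 i = g.r i := by
      by_contra h4; rw [if_neg h4] at h; exact absurd h (by norm_num)
    rw [h2s, h1, hprod, Wt, if_pos (hrow.1 h3)]

end Vale.Agent.P328RAM
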