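import Vale.Agent.P328RAM.Stmt
import Vale.Agent.P328RAM.BodyC
import Vale.Agent.P328R.ParDef

/-!
# The interface between the program (helper52, helper42) and the final theorem (helper44)
-/

namespace Vale.Agent.P328RAM

open Vale.Agent.P328R

/-- the margins as functions on `ℕ` -/
def gOf {m n : ℕ} (r : Fin m → ℕ) (c : Fin n → ℕ) : Mg where
  r := fun i => if h : i < m then (r ⟨i, h⟩ : ℤ) else 0
  c := fun j => if h : j < n then (c ⟨j, h⟩ : ℤ) else 0

/-- the law of the output -/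
noncomputable def outLaw (kT : ℕ) {m n : ℕ} (r : Fin m → ℕ) (c : Fin n → ℕ) (a D : ℕ) :
    PMF (ℤ × ℤ) :=
  (counts (parOf kT m n (∑ i, r i) a D) (gOf r c) m n (numT kT m n (∑ i, r i) a D)
    (numP m n (∑ i, r i)) (numS m n (∑ i, r i) a D)).map fun cnt =>
      ((numS m n (∑ i, r i) a D : ℤ) ^ numP m n (∑ i, r i),
        ∏ k ∈ Finset.range (numP m n (∑ i, r i)), cnt k)

/-- what the main program does -/
def MainSim (kT : ℕ) (prog : Cmd) : Prop :=
  ∃ K : ℕ, ∀ (m n : ℕ) (r : Fin m → ℕ) (c : Fin n → ℕ) (a b W Λ : ℕ), 1 ≤ m → 1 ≤ n →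
    ∑ i, r i = ∑ j, c j → 1 ≤ a → 1 ≤ b →
    2 ^ (baseX m n (∑ i, r i) a (Nat.size b) ^ K) ≤ W →
    baseX m n (∑ i, r i) a (Nat.size b) ^ K ≤ Λ →
    Sim W Λ prog (input r c a b) outOf (outLaw kT r c a (Nat.size b)) (fun _ => True)

end Vale.Agent.P328RAM
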