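import Vale.Agent.P328RAM.BodyC
import Vale.Agent.P328RAM.HStep

/-!
# The step contract for the concrete step command
-/

namespace Vale.Agent.P328RAM

open Vale.Agent.P328R

variable {W Λ : ℕ} {p : Par} {m n : ℕ} {g : Mg}

/-- the parameters used only by the steps -/
structure StepPar (p : Par) (M : Mem) : Prop where
  B_eq : M 16 0 0 = p.B
  q_eq : M 61 0 0 = p.q
  b_eq : M 62 0 0 = p.b
  pb_eq : M 66 0 0 = 2 ^ p.b

theorem StepPar.congr {M M' : Mem} (h : StepPar p M)
    (h' : ∀ a ∈ [16, 61, 62, 66], M' a = M a) : StepPar p M' := by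
  constructor
  · rw [h' 16 (by decide)]; exact h.B_eq
  · rw [h' 61 (by decide)]; exact h.q_eq
  · rw [h' 62 (by decide)]; exact h.b_eq
  · rw [h' 66 (by decide)]; exact h.pb_eq

theorem stepC_Wr (a : ℕ) (ha : a ∈ [0, 1, 2, 3, 5, 6, 16, 19, 20, 22, 23, 26, 27, 28, 29, 30, 31,
    32, 33, 34, 41, 42, 43, 49, 50, 51, 52, 53, 61, 62, 66]) : a ∉ H.stepC.Wr := by
  revert a
  decide

theorem stepW_mono {A A' : ℕ} (h : A ≤ A') : stepW p m n A ≤ stepW p m n A' := by
  unfold stepW
  gcongr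

theorem stepΛ_mono {A A' : ℕ} (h : A ≤ A') : stepΛ p m n A ≤ stepΛ p m n A' := by
  unfold stepΛ
  have := Nat.size_le_size h
  omega

theorem stepOK {P A A1 : ℕ} (hA : ∀ k < P, BdG p m n (mg m n g k) A)
    (hW : stepW p m n A1 ≤ W) (hΛ : stepΛ p m n A1 ≤ Λ) :
    StepOK p m n g P W Λ A A1 H.stepC (StepPar p) where
  wr := fun a ha => stepC_Wr a (by
    simp only [List.mem_cons, List.not_mem_nil, or_false] at ha ⊢
    omega)
  keep := fun M M' h hP => hP.congr fun a ha => h a (stepC_Wr a (by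
    simp only [List.mem_cons, List.not_mem_nil, or_false] at ha ⊢
    omega))
  same := fun M M' h hP => hP.congr fun a ha => h a (by
    simp only [List.mem_cons, List.not_mem_nil, or_false] at ha ⊢
    omega)
  sim := fun k hk A' hAA' hA'1 M hP hGeo hIn hX => by
    have hin : StepIn p (mg m n g k) m n M :=
      ⟨hIn.m_eq, hIn.n_eq, hIn.r_eq, hGeo, hP.B_eq, hP.q_eq, hP.b_eq, hP.pb_eq⟩
    exact stepC_gsim hin ((hA k hk).mono hAA') hX ((stepW_mono hA'1).trans hW)
      ((stepΛ_mono hA'1).trans hΛ)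

end Vale.Agent.P328RAM
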