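import Vale.Agent.P328RAM.ParC

/-!
# The main program: law of the output and polynomial time
-/

namespace Vale.Agent.P328RAM

open Vale.Agent.P328R

/-! ### numbers -/

/-- the exponent of the bound for all numbers -/
def eW (kT x : ℕ) : ℕ := (kT + 200) * x ^ 120

/-- the bound for the lengths of all loops -/
def lΛ (kT x : ℕ) : ℕ := (kT + 200) * x ^ (kT + 130)

/-- the bound for all quantities of the geometries -/
def bA (m n N a D : ℕ) : ℕ := 2 ^ (10 + 10 * bitB m n + 28 * bitX m n N a D) * (2 * N + 1)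

theorem two_pow_size_le {y : ℕ} (hy : 1 ≤ y) : 2 ^ Nat.size y ≤ 2 * y := by
  have h : 0 < Nat.size y := Nat.size_pos.2 hy
  have h1 : Nat.size y - 1 < Nat.size y := by omega
  have h2 := Nat.lt_size.1 h1
  have h3 : 2 ^ Nat.size y = 2 * 2 ^ (Nat.size y - 1) := by
    rw [← pow_succ']
    congr 1
    omega
  omega

theorem size_le_self (y : ℕ) : Nat.size y ≤ y := Nat.size_le.2 (Nat.lt_pow_self (by norm_num))

section

variable {kT m n N a D : ℕ}

/-- elementary facts about the base -/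
structure Base (m n N a D x : ℕ) : Prop where
  x4 : 4 ≤ x
  m_le : m ≤ x
  n_le : n ≤ x
  a_le : a ≤ x
  sN : Nat.size N ≤ x
  D_le : D ≤ x
  B_le : bitB m n ≤ x
  z_le : bitX m n N a D ≤ x
  pB : 2 ^ bitB m n ≤ 2 * x
  pz : 2 ^ bitX m n N a D ≤ 2 * x

theorem base_ok (hm : 0 < m) (hn : 0 < n) : Base m n N a D (baseX m n N a D) := by
  have h4 : 4 ≤ baseX m n N a D := by unfold baseX; omega
  refine ⟨h4, by unfold baseX; omega, by unfold baseX; omega, by unfold baseX; omega,
    by unfold baseX; omega, by unfold baseX; omega, ?_, size_le_self _, ?_, ?_⟩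
  · refine (size_le_self _).trans ?_
    unfold baseX; omega
  · refine (two_pow_size_le (by omega)).trans ?_
    unfold baseX; omega
  · exact two_pow_size_le (by omega)

variable {x : ℕ}

theorem le_two_pow_self (x : ℕ) : x ≤ 2 ^ x := (Nat.lt_pow_self (by norm_num)).le

theorem four_pow_le {x : ℕ} (h : 4 ≤ x) (k : ℕ) : 2 ^ (2 * k) ≤ x ^ k := by
  rw [pow_mul]
  exact Nat.pow_le_pow_left (by norm_num; exact h) k

theorem expq_pow_le (h : Base m n N a D x) : 2 ^ expq m n N a D ≤ x ^ 114 := by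
  unfold expq
  have h1 : 2 ^ (16 * bitB m n) ≤ (2 * x) ^ 16 := by
    rw [mul_comm, pow_mul]
    exact Nat.pow_le_pow_left h.pB 16
  have h2 : 2 ^ (56 * bitX m n N a D) ≤ (2 * x) ^ 56 := by
    rw [mul_comm, pow_mul]
    exact Nat.pow_le_pow_left h.pz 56
  calc 2 ^ (12 + 16 * bitB m n + 56 * bitX m n N a D)
      = 2 ^ 12 * 2 ^ (16 * bitB m n) * 2 ^ (56 * bitX m n N a D) := by
        rw [pow_add, pow_add]
    _ ≤ 2 ^ 12 * (2 * x) ^ 16 * (2 * x) ^ 56 :=
        Nat.mul_le_mul (Nat.mul_le_mul_left _ h1) h2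
    _ = 2 ^ (2 * 42) * x ^ 72 := by rw [mul_pow, mul_pow]; ring
    _ ≤ x ^ 42 * x ^ 72 := Nat.mul_le_mul_right _ (four_pow_le h.x4 42)
    _ = x ^ 114 := by rw [← pow_add]

theorem kQ_le (h : Base m n N a D x) : expq m n N a D + 10 + 2 * bitB m n ≤ 80 * x := by
  unfold expq
  have := h.B_le
  have := h.z_le
  have := h.x4
  omega

theorem kc_le (h : Base m n N a D x) : 10 + 10 * bitB m n + 28 * bitX m n N a D ≤ 41 * x := by
  have := h.B_le
  have := h.z_le
  have := h.x4
  omega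

theorem N_le (h : Base m n N a D x) : N ≤ 2 ^ x :=
  (Nat.lt_size_self N).le.trans (Nat.pow_le_pow_right (by norm_num) h.sN)

theorem bA_le (h : Base m n N a D x) : bA m n N a D ≤ 2 ^ (43 * x) := by
  unfold bA
  have h1 : 2 ^ (10 + 10 * bitB m n + 28 * bitX m n N a D) ≤ 2 ^ (41 * x) :=
    Nat.pow_le_pow_right (by norm_num) (kc_le h)
  have h2 : 2 * N + 1 ≤ 2 ^ (2 * x) := by
    have := N_le h
    have h4 := h.x4
    have h1x : 1 ≤ 2 ^ x := Nat.one_le_two_pow
    calc 2 * N + 1 ≤ 2 ^ 2 * 2 ^ x := by omega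
      _ ≤ 2 ^ x * 2 ^ x := Nat.mul_le_mul_right _ (Nat.pow_le_pow_right (by norm_num) (by omega))
      _ = 2 ^ (2 * x) := by rw [← pow_add]; congr 1; omega
  calc _ ≤ 2 ^ (41 * x) * 2 ^ (2 * x) := Nat.mul_le_mul h1 h2
    _ = 2 ^ (43 * x) := by rw [← pow_add]; congr 1; omega

theorem numP_le' (h : Base m n N a D x) : numP m n N ≤ x ^ 4 := by
  unfold numP
  have h1 : max m n ≤ x := max_le h.m_le h.n_le
  have h4 := h.x4
  calc 2 * (max m n) ^ 2 * Nat.size N ≤ x * x ^ 2 * x :=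
        Nat.mul_le_mul (Nat.mul_le_mul (by omega) (Nat.pow_le_pow_left h1 2)) h.sN
    _ = x ^ 4 := by ring

theorem pow_le_two_pow (x k : ℕ) : x ^ k ≤ 2 ^ (k * x) := by
  rw [mul_comm, pow_mul]
  exact Nat.pow_le_pow_left (le_two_pow_self x) k

theorem A1_le' (h : Base m n N a D x) : (numP m n N + 2) * bA m n N a D ≤ 2 ^ (48 * x) := by
  have h1 : numP m n N + 2 ≤ 2 ^ (5 * x) := by
    have h2 := (numP_le' h).trans (pow_le_two_pow x 4)
    have h4 := h.x4
    calc numP m n N + 2 ≤ 2 ^ (4 * x) + 2 ^ (4 * x) := by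
          have : 2 ^ 1 ≤ 2 ^ (4 * x) := Nat.pow_le_pow_right (by norm_num) (by omega)
          omega
      _ = 2 ^ (4 * x + 1) := by rw [pow_succ]; ring
      _ ≤ 2 ^ (5 * x) := Nat.pow_le_pow_right (by norm_num) (by omega)
  calc _ ≤ 2 ^ (5 * x) * 2 ^ (43 * x) := Nat.mul_le_mul h1 (bA_le h)
    _ = 2 ^ (48 * x) := by rw [← pow_add]; congr 1; omega

theorem one_le_pow' (h : Base m n N a D x) (k : ℕ) : 1 ≤ x ^ k :=
  Nat.one_le_pow _ _ (by have := h.x4; omega)

theorem x_le_pow (h : Base m n N a D x) {k : ℕ} (hk : 1 ≤ k) : x ≤ x ^ k := by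
  calc x = x ^ 1 := (pow_one x).symm
    _ ≤ x ^ k := Nat.pow_le_pow_right (by have := h.x4; omega) hk

theorem pow_mono' (h : Base m n N a D x) {k l : ℕ} (hk : k ≤ l) : x ^ k ≤ x ^ l :=
  Nat.pow_le_pow_right (by have := h.x4; omega) hk

theorem lin_le_eW (h : Base m n N a D x) {c : ℕ} (hc : c ≤ kT + 200) : c * x ≤ eW kT x := by
  unfold eW
  exact Nat.mul_le_mul hc (x_le_pow h (by norm_num))

theorem stepW_le (h : Base m n N a D x) :
    stepW (parOf kT m n N a D) m n ((numP m n N + 2) * bA m n N a D) ≤ 2 ^ eW kT x := by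
  unfold stepW
  have hA1 := A1_le' h
  set A1 := (numP m n N + 2) * bA m n N a D
  have h4 := h.x4
  have hb : (parOf kT m n N a D).b = (kT + 14) * bitX m n N a D := rfl
  have hB : (parOf kT m n N a D).B = bitB m n := rfl
  have hq : (parOf kT m n N a D).q = 2 ^ expq m n N a D := rfl
  rw [hb, hB, hq]
  have e1 : A1 + m + n + 10 ≤ 2 ^ (50 * x) := by
    have h1 := h.m_le
    have h2 := h.n_le
    have h3 := le_two_pow_self (48 * x)
    calc A1 + m + n + 10 ≤ 2 ^ (48 * x) + 2 ^ (48 * x) + 2 ^ (48 * x) + 2 ^ (48 * x) := by omega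
      _ = 2 ^ (48 * x + 2) := by rw [pow_add]; ring
      _ ≤ 2 ^ (50 * x) := Nat.pow_le_pow_right (by norm_num) (by omega)
  have e2 : 2 ^ expq m n N a D * (m * n) + 5 ≤ x ^ 117 := by
    have h1 : m * n ≤ x * x := Nat.mul_le_mul h.m_le h.n_le
    have h2 := expq_pow_le h
    have h5 : 5 ≤ 3 * x ^ 116 := by
      have h6 : 4 ≤ x ^ 116 := h4.trans (x_le_pow h (by norm_num))
      omega
    calc 2 ^ expq m n N a D * (m * n) + 5 ≤ x ^ 114 * (x * x) + 3 * x ^ 116 :=
          Nat.add_le_add (Nat.mul_le_mul h2 h1) h5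
      _ = 4 * x ^ 116 := by ring
      _ ≤ x * x ^ 116 := Nat.mul_le_mul_right _ h4
      _ = x ^ 117 := by ring
  have e3 : (A1 + m + n + 10) ^ (2 ^ expq m n N a D * (m * n) + 5) ≤ 2 ^ (50 * x * x ^ 117) := by
    calc _ ≤ (2 ^ (50 * x)) ^ (2 ^ expq m n N a D * (m * n) + 5) := Nat.pow_le_pow_left e1 _
      _ ≤ (2 ^ (50 * x)) ^ (x ^ 117) := Nat.pow_le_pow_right (by positivity) e2
      _ = 2 ^ (50 * x * x ^ 117) := by rw [← pow_mul]
  calc _ ≤ 2 ^ ((kT + 14) * bitX m n N a D + bitB m n + 2) * 2 ^ (50 * x * x ^ 117) :=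
        Nat.mul_le_mul_left _ e3
    _ = 2 ^ ((kT + 14) * bitX m n N a D + bitB m n + 2 + 50 * x * x ^ 117) := by rw [← pow_add]
    _ ≤ 2 ^ eW kT x := by
        refine Nat.pow_le_pow_right (by norm_num) ?_
        unfold eW
        have f1 : (kT + 14) * bitX m n N a D ≤ (kT + 14) * x ^ 120 :=
          Nat.mul_le_mul_left _ (h.z_le.trans (x_le_pow h (by norm_num)))
        have f2 : bitB m n ≤ x ^ 120 := h.B_le.trans (x_le_pow h (by norm_num))
        have f3 : 2 ≤ x ^ 120 := by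
          have := x_le_pow h (k := 120) (by norm_num)
          omega
        have f4 : 50 * x * x ^ 117 ≤ 50 * x ^ 120 := by
          calc 50 * x * x ^ 117 = 50 * x ^ 118 := by ring
            _ ≤ 50 * x ^ 120 := Nat.mul_le_mul_left _ (pow_mono' h (by norm_num))
        calc _ ≤ (kT + 14) * x ^ 120 + x ^ 120 + x ^ 120 + 50 * x ^ 120 := by omega
          _ = (kT + 66) * x ^ 120 := by ring
          _ ≤ (kT + 200) * x ^ 120 := Nat.mul_le_mul_right _ (by omega)

theorem x_le_lΛ (h : Base m n N a D x) {c k : ℕ} (hc : c ≤ kT + 200) (hk : k ≤ kT + 130) :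
    c * x ^ k ≤ lΛ kT x := by
  unfold lΛ
  exact Nat.mul_le_mul hc (pow_mono' h hk)

theorem stepΛ_le (h : Base m n N a D x) :
    stepΛ (parOf kT m n N a D) m n ((numP m n N + 2) * bA m n N a D) ≤ lΛ kT x := by
  unfold stepΛ
  have hA1 := A1_le' h
  set A1 := (numP m n N + 2) * bA m n N a D
  have h4 := h.x4
  have hb : (parOf kT m n N a D).b = (kT + 14) * bitX m n N a D := rfl
  have hB : (parOf kT m n N a D).B = bitB m n := rfl
  have hq : (parOf kT m n N a D).q = 2 ^ expq m n N a D := rfl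
  rw [hb, hB, hq]
  have hsz : Nat.size A1 ≤ 48 * x + 1 := by
    rw [Nat.size_le]
    exact lt_of_le_of_lt hA1 (Nat.pow_lt_pow_right (by norm_num) (by omega))
  set y := x ^ (kT + 130) with hy
  have hxy : x ≤ y := x_le_pow h (by omega)
  have f1 : (kT + 14) * bitX m n N a D ≤ (kT + 14) * y :=
    Nat.mul_le_mul_left _ (h.z_le.trans hxy)
  have f2 : 2 ^ expq m n N a D ≤ y := (expq_pow_le h).trans (pow_mono' h (by omega))
  have f3 := h.m_le
  have f5 := h.n_le
  have f6 := h.B_le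
  unfold lΛ
  calc _ ≤ y + y + y + y + (kT + 14) * y + (48 * y + y) + 2 * y := by omega
    _ = (kT + 69) * y := by ring
    _ ≤ (kT + 200) * y := Nat.mul_le_mul_right _ (by omega)

end

/-! ### geometry -/

section

variable {kT m n N a D : ℕ} {g : Mg} {x : ℕ}

theorem tot_eq_range (m : ℕ) (g : Mg) : tot m g = ∑ i ∈ Finset.range m, g.r i := by
  unfold tot
  exact (Finset.sum_range fun i => g.r i).symm

theorem r_le_tot (hv : Valid m n g) {i : ℕ} (hi : i < m) : g.r i ≤ tot m g := by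
  unfold tot
  exact Finset.single_le_sum (f := fun i : Fin m => g.r i) (fun i _ => hv.r_nonneg i i.2)
    (Finset.mem_univ ⟨i, hi⟩)

theorem c_le_tot (hv : Valid m n g) {j : ℕ} (hj : j < n) : g.c j ≤ tot m g := by
  unfold tot
  rw [hv.sum_eq]
  exact Finset.single_le_sum (f := fun i : Fin n => g.c i) (fun i _ => hv.c_nonneg i i.2)
    (Finset.mem_univ ⟨j, hj⟩)

theorem sg_le_of (hv : Valid m n g) (hN : tot m g ≤ N) {i j : ℕ} (hi : i < m) (hj : j < n) :
    sg g i j ≤ ((2 * N + 1 : ℕ) : ℤ) ∧ sb g i j ≤ Nat.size N := by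
  have h0 : 0 ≤ sc g i j := le_min (hv.r_nonneg i hi) (hv.c_nonneg j hj)
  have h1 : sc g i j ≤ N := (min_le_left _ _).trans ((r_le_tot hv hi).trans hN)
  have h2 : (sc g i j).toNat ≤ N := by omega
  refine ⟨?_, Nat.size_le_size h2⟩
  unfold sg sb
  rcases Nat.eq_zero_or_pos (sc g i j).toNat with h | h
  · rw [h]; simp
  · have h3 := two_pow_size_le h
    have h4 : 2 ^ Nat.size (sc g i j).toNat ≤ 2 * N + 1 := by omega
    exact_mod_cast h4

theorem lp_lc : (parOf kT m n N a D).Lp ≤ (parOf kT m n N a D).Lc := by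
  change (2 : ℤ) ^ (4 + 2 * bitB m n) ≤ 2 ^ (10 + 10 * bitB m n + 28 * bitX m n N a D)
  exact pow_le_pow_right₀ (by norm_num) (by omega)

theorem lc_sg_le (hv : Valid m n g) (hN : tot m g ≤ N) {i j : ℕ} (hi : i < m) (hj : j < n) :
    (parOf kT m n N a D).Lc * sg g i j ≤ (bA m n N a D : ℤ) := by
  unfold bA
  push_cast
  have h := (sg_le_of hv hN hi hj).1
  push_cast at h
  have hL : (0 : ℤ) ≤ 2 ^ (10 + 10 * bitB m n + 28 * bitX m n N a D) := by positivity
  exact mul_le_mul_of_nonneg_left h hL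

theorem sg_pos (i j : ℕ) : 0 ≤ sg g i j := by unfold sg; positivity

theorem lp_sg_le (hv : Valid m n g) (hN : tot m g ≤ N) {i j : ℕ} (hi : i < m) (hj : j < n) :
    (parOf kT m n N a D).Lp * sg g i j ≤ (bA m n N a D : ℤ) :=
  (mul_le_mul_of_nonneg_right lp_lc (sg_pos i j)).trans (lc_sg_le hv hN hi hj)

theorem N_le_bA : N ≤ bA m n N a D := by
  unfold bA
  have : 1 ≤ 2 ^ (10 + 10 * bitB m n + 28 * bitX m n N a D) := Nat.one_le_two_pow
  nlinarith

theorem bdG_ok (hv : Valid m n g) (hN : tot m g ≤ N) :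
    BdG (parOf kT m n N a D) m n g (bA m n N a D) := by
  have hNA : (N : ℤ) ≤ bA m n N a D := by exact_mod_cast N_le_bA
  have h1 : (1 : ℤ) ≤ 2 ^ (10 + 10 * bitB m n + 28 * bitX m n N a D) :=
    one_le_pow₀ (by norm_num)
  refine ⟨hv.r_nonneg, hv.c_nonneg, fun i hi => ?_, fun j hj => ?_, fun i hi j hj => ?_,
    fun i hi j hj => ?_, ?_, ?_, ?_⟩
  · exact (r_le_tot hv hi).trans (hN.trans hNA)
  · exact (c_le_tot hv hj).trans (hN.trans hNA)
  · refine le_trans ?_ (lc_sg_le (kT := kT) (a := a) (D := D) hv hN hi hj)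
    have h0 := sg_pos (g := g) i j
    change sg g i j ≤ 2 ^ (10 + 10 * bitB m n + 28 * bitX m n N a D) * sg g i j
    nlinarith
  · unfold Ls
    split_ifs
    · exact lc_sg_le hv hN hi hj
    · exact lp_sg_le hv hN hi hj
  · change (0 : ℤ) ≤ 2 ^ _
    positivity
  · change (0 : ℤ) ≤ 2 ^ _
    positivity
  · unfold bA
    exact Nat.mul_pos (by positivity) (by omega)

theorem tot_mg_le (hv : Valid m n g) (hN : tot m g = N) (k : ℕ) : tot m (mg m n g k) ≤ N := by
  rw [← hN]; exact hv.tot_mono k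

theorem bA_le_W (h : Base m n N a D x) : bA m n N a D ≤ 2 ^ eW kT x :=
  (bA_le h).trans (Nat.pow_le_pow_right (by norm_num) (lin_le_eW h (by omega)))

theorem x_le_W (h : Base m n N a D x) : x ≤ 2 ^ eW kT x := by
  refine (le_two_pow_self x).trans (Nat.pow_le_pow_right (by norm_num) ?_)
  have := lin_le_eW (kT := kT) h (c := 1) (by omega)
  omega

theorem x_le_Λ (h : Base m n N a D x) : x ≤ lΛ kT x := by
  have := x_le_lΛ (kT := kT) h (c := 1) (k := 1) (by omega) (by omega)
  simpa using this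

theorem geoB_ok (hv : Valid m n g) (hN : tot m g ≤ N) (h : Base m n N a D x) :
    GeoB (parOf kT m n N a D) g (2 ^ eW kT x) (lΛ kT x) m n := by
  have hx := x_le_W (kT := kT) h
  have hx' := x_le_Λ (kT := kT) h
  have hAW : (bA m n N a D : ℤ) ≤ ((2 ^ eW kT x : ℕ) : ℤ) := by exact_mod_cast bA_le_W h
  refine ⟨⟨h.m_le.trans hx', h.m_le.trans hx⟩, ⟨h.n_le.trans hx', h.n_le.trans hx⟩,
    hv.r_nonneg, hv.c_nonneg, ?_, ?_, fun k hk l hl => ?_, fun k hk l hl => ?_,
    fun k hk l hl => ?_⟩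
  · change (1 : ℤ) ≤ 2 ^ _
    exact one_le_pow₀ (by norm_num)
  · change (1 : ℤ) ≤ 2 ^ _
    exact one_le_pow₀ (by norm_num)
  · exact ((sg_le_of hv hN hk hl).2.trans h.sN).trans hx'
  · exact (lp_sg_le hv hN hk hl).trans hAW
  · exact (lc_sg_le hv hN hk hl).trans hAW

theorem numT_le_W (h : Base m n N a D x) (hx : x = baseX m n N a D) :
    numT kT m n N a D ≤ 2 ^ eW kT x := by
  unfold numT
  rw [← hx]
  exact (pow_le_two_pow x kT).trans (Nat.pow_le_pow_right (by norm_num) (lin_le_eW h (by omega)))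

theorem numS_le_W (h : Base m n N a D x) (hx : x = baseX m n N a D) :
    numS m n N a D + 2 ≤ 2 ^ eW kT x := by
  unfold numS
  rw [← hx]
  have h4 := h.x4
  have h1 := pow_le_two_pow x 22
  calc x ^ 22 + 2 ≤ 2 ^ (22 * x) + 2 ^ (22 * x) := by
        have : 2 ^ 1 ≤ 2 ^ (22 * x) := Nat.pow_le_pow_right (by norm_num) (by omega)
        omega
    _ = 2 ^ (22 * x + 1) := by rw [pow_succ]; ring
    _ ≤ 2 ^ eW kT x := by
        refine Nat.pow_le_pow_right (by norm_num) ?_
        have := lin_le_eW (kT := kT) h (c := 23) (by omega)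
        omega

theorem numP_le_W (h : Base m n N a D x) : numP m n N ≤ 2 ^ eW kT x := by
  have h1 := (numP_le' h).trans (pow_le_two_pow x 4)
  exact h1.trans (Nat.pow_le_pow_right (by norm_num) (lin_le_eW h (by omega)))

theorem SP_le_W (h : Base m n N a D x) (hx : x = baseX m n N a D) :
    numS m n N a D ^ numP m n N ≤ 2 ^ eW kT x := by
  unfold numS
  rw [← hx]
  have h4 := h.x4
  calc (x ^ 22) ^ numP m n N ≤ (x ^ 22) ^ (x ^ 4) :=
        Nat.pow_le_pow_right (by positivity) (numP_le' h)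
    _ ≤ (2 ^ (22 * x)) ^ (x ^ 4) := Nat.pow_le_pow_left (pow_le_two_pow x 22) _
    _ = 2 ^ (22 * x * x ^ 4) := by rw [← pow_mul]
    _ ≤ 2 ^ eW kT x := by
        refine Nat.pow_le_pow_right (by norm_num) ?_
        unfold eW
        calc 22 * x * x ^ 4 = 22 * x ^ 5 := by ring
          _ ≤ (kT + 200) * x ^ 120 := Nat.mul_le_mul (by omega) (pow_mono' h (by norm_num))

theorem sizes_ok (hv : Valid m n g) (hN : tot m g = N) (h : Base m n N a D x)
    (hx : x = baseX m n N a D) :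
    Sizes (parOf kT m n N a D) m n g (numP m n N) (numT kT m n N a D) (numS m n N a D)
      (2 ^ eW kT x) (lΛ kT x) (bA m n N a D) ((numP m n N + 2) * bA m n N a D) where
  geo := fun k _ => geoB_ok (hv.mg k) (tot_mg_le hv hN k) h
  inc_le := fun k _ => by
    have h1 := (hv.mg k).inc_le_r
    have h2 := r_le_tot (hv.mg k) (hv.mg k).is_lt
    have h3 := tot_mg_le hv hN k
    have h4 : (N : ℤ) ≤ bA m n N a D := by exact_mod_cast N_le_bA
    linarith
  A1_le := le_rfl
  A1W := (A1_le' h).trans (Nat.pow_le_pow_right (by norm_num) (lin_le_eW h (by omega)))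
  P_le := ⟨by
    have := x_le_lΛ (kT := kT) h (c := 1) (k := 4) (by omega) (by omega)
    have h2 := numP_le' h
    omega, numP_le_W h⟩
  T_le := by
    have := x_le_lΛ (kT := kT) h (c := 1) (k := kT) (by omega) (by omega)
    unfold numT
    rw [← hx]
    omega
  S_le := ⟨by
    have := x_le_lΛ (kT := kT) h (c := 1) (k := 22) (by omega) (by omega)
    unfold numS
    rw [← hx]
    omega, by
    have := numS_le_W (kT := kT) h hx
    omega⟩

theorem parW_ok (h : Base m n N a D x) (hx : x = baseX m n N a D) :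
    ParW (2 ^ eW kT x) (lΛ kT x) m n N a D kT where
  le := by
    intro s hs
    simp only [List.mem_cons, List.not_mem_nil, or_false] at hs
    have hX := x_le_W (kT := kT) h
    have hp : ∀ {k c : ℕ}, k ≤ c * x → c ≤ kT + 200 → 2 ^ k ≤ 2 ^ eW kT x := fun h1 h2 =>
      Nat.pow_le_pow_right (by norm_num) (h1.trans (lin_le_eW h h2))
    have hbz : (kT + 14) * bitX m n N a D ≤ (kT + 14) * x := Nat.mul_le_mul_left _ h.z_le
    rcases hs with rfl | rfl | rfl | rfl | rfl | rfl | rfl | rfl | rfl | rfl | rfl | rfl | rfl |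
      rfl | rfl
    · exact (N_le h).trans (hp (c := 1) (by omega) (by omega))
    · change baseX m n N a D ≤ _
      rw [← hx]; exact hX
    · exact h.z_le.trans hX
    · exact h.B_le.trans hX
    · change expq m n N a D ≤ _
      have h1 := kQ_le h
      refine (le_two_pow_self _).trans (hp (c := 80) (by omega) (by omega))
    · change 2 ^ expq m n N a D ≤ _
      have h1 := kQ_le h
      exact hp (c := 80) (by omega) (by omega)
    · exact hp (c := 80) (kQ_le h) (by omega)
    · change 2 ^ (4 + 2 * bitB m n) ≤ _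
      have h1 := kQ_le h
      have h2 := h.B_le
      have h4 := h.x4
      exact hp (c := 80) (by omega) (by omega)
    · exact hp (c := 41) (kc_le h) (by omega)
    · change (kT + 14) * bitX m n N a D ≤ _
      exact (le_two_pow_self _).trans (hp (c := kT + 14) hbz (by omega))
    · change 2 ^ ((kT + 14) * bitX m n N a D) ≤ _
      exact hp (c := kT + 14) hbz (by omega)
    · exact numT_le_W h hx
    · change max m n ≤ _
      exact (max_le h.m_le h.n_le).trans hX
    · exact numP_le_W h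
    · have := numS_le_W (kT := kT) h hx
      change numS m n N a D ≤ _
      omega
  m_le := ⟨h.m_le.trans (x_le_Λ h), h.m_le.trans (x_le_W h)⟩
  kQ_le := by
    have := x_le_lΛ (kT := kT) h (c := 80) (k := 1) (by omega) (by omega)
    have h2 := kQ_le h
    rw [pow_one] at this
    omega
  kp_le := by
    have := x_le_lΛ (kT := kT) h (c := 80) (k := 1) (by omega) (by omega)
    have h2 := h.B_le
    have h4 := h.x4
    rw [pow_one] at this
    omega
  kc_le := by
    have := x_le_lΛ (kT := kT) h (c := 41) (k := 1) (by omega) (by omega)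
    have h2 := kc_le h
    rw [pow_one] at this
    omega
  b_le := by
    have := x_le_lΛ (kT := kT) h (c := kT + 14) (k := 1) (by omega) (by omega)
    have hbz : (kT + 14) * bitX m n N a D ≤ (kT + 14) * x := Nat.mul_le_mul_left _ h.z_le
    rw [pow_one] at this
    omega

end

/-! ### the main program -/

/-- law of the output and memory bound -/
theorem mainC_sim {kT m n N a d D : ℕ} {g : Mg} {M : Mem} (hv : Valid m n g)
    (hN : tot m g = N) (hm : M 0 0 0 = m) (hn : M 0 1 0 = n) (ha : M 0 2 0 = a)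
    (hd : M 0 3 0 = d) (hD : Nat.size d = D)
    (h1 : ∀ i : ℕ, i < m → M 1 i 0 = g.r i) (h2 : ∀ j : ℕ, j < n → M 2 j 0 = g.c j)
    (hc : ∀ k : ℕ, M 52 k 0 = 0) :
    Sim (2 ^ eW kT (baseX m n N a D)) (lΛ kT (baseX m n N a D)) (G.mainC kT) M outOf
      ((counts (parOf kT m n N a D) g m n (numT kT m n N a D) (numP m n N)
        (numS m n N a D)).map fun c =>
          ((numS m n N a D : ℤ) ^ numP m n N, ∏ k ∈ Finset.range (numP m n N), c k))
      (fun _ => True) := by
  have h := base_ok (N := N) (a := a) (D := D) hv.m_pos hv.n_pos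
  set x := baseX m n N a D with hx
  have hX := x_le_W (kT := kT) h
  have hX' := x_le_Λ (kT := kT) h
  have hW1 : (2 : ℕ) ^ 1 ≤ 2 ^ eW kT x := by
    refine Nat.pow_le_pow_right (by norm_num) ?_
    have := lin_le_eW (kT := kT) h (c := 1) (by omega)
    have h4 := h.x4
    omega
  refine Det.seqSim (parC_det2 (kT := kT) hv hm hn ha hd hD h1
    (by rw [← tot_eq_range]; exact hN) (parW_ok h hx)) ?_
  rintro M1 ⟨a1, a2, a3⟩
  refine bodyC_sim2 hv (sizes_ok hv hN h hx)
    (stepOK (fun k _ => bdG_ok (hv.mg k) (tot_mg_le hv hN k)) (stepW_le h) (stepΛ_le h))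
    ⟨h.m_le.trans hX', h.m_le.trans hX⟩ ⟨h.n_le.trans hX', h.n_le.trans hX⟩ a1 a2 ?_ ?_ ?_
    (SP_le_W h hx) ?_
  · intro i hi; rw [a3 1 (by decide)]; exact h1 i hi
  · intro i hi; rw [a3 2 (by decide)]; exact h2 i hi
  · intro k; simp only [cnt]; rw [a3 52 (by decide)]; exact hc k
  · have := numS_le_W (kT := kT) h hx
    omega

/-- **The main program: law of the output and polynomial time.** -/
theorem mainC_final (kT : ℕ) : ∃ K : ℕ, ∀ (m n N a d D : ℕ) (g : Mg) (M : Mem),
    Valid m n g → tot m g = N → M 0 0 0 = m → M 0 1 0 = n → M 0 2 0 = a → M 0 3 0 = d →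
    Nat.size d = D → (∀ i : ℕ, i < m → M 1 i 0 = g.r i) → (∀ j : ℕ, j < n → M 2 j 0 = g.c j) →
    (∀ k : ℕ, M 52 k 0 = 0) → (∀ x i j, |M x i j| ≤ ((m + n + N + a + d : ℕ) : ℤ)) →
    ∀ t, ((G.mainC kT).run (M, t)).map (fun s => outOf s.1) =
      ((counts (parOf kT m n N a D) g m n (numT kT m n N a D) (numP m n N)
        (numS m n N a D)).map fun c =>
          ((numS m n N a D : ℤ) ^ numP m n N, ∏ k ∈ Finset.range (numP m n N), c k)) ∧
      ∀ s ∈ ((G.mainC kT).run (M, t)).support, s.2 ≤ t + K * baseX m n N a D ^ K := by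
  set c0 := (G.mainC kT).K with hc0
  set dep := (G.mainC kT).depth with hdep
  refine ⟨c0 * ((kT + 202) ^ 2 * (kT + 201) ^ dep) + (240 + (kT + 130) * dep), ?_⟩
  intro m n N a d D g M hv hN hm hn ha hd hD h1 h2 hc hB t
  have h := base_ok (N := N) (a := a) (D := D) hv.m_pos hv.n_pos
  set x := baseX m n N a D with hx
  have hx4 := h.x4
  have hBdd : Bdd (2 ^ eW kT x) M := by
    intro y i j
    refine (hB y i j).trans ?_
    have hN2 := N_le h
    have hd2 : d ≤ 2 ^ x := by
      refine (Nat.lt_size_self d).le.trans (Nat.pow_le_pow_right (by norm_num) ?_)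
      rw [hD]; exact h.D_le
    have e1 := h.m_le
    have e2 := h.n_le
    have e3 := h.a_le
    have e4 := le_two_pow_self x
    have e5 : m + n + N + a + d ≤ 2 ^ (x + 3) := by rw [pow_add]; omega
    have e6 : 2 ^ (x + 3) ≤ 2 ^ eW kT x := by
      refine Nat.pow_le_pow_right (by norm_num) ?_
      have := lin_le_eW (kT := kT) h (c := 2) (by omega)
      omega
    exact_mod_cast e5.trans e6
  have hsim := mainC_sim (kT := kT) hv hN hm hn ha hd hD h1 h2 hc hBdd t
  refine ⟨hsim.1, fun s hs => ?_⟩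
  have htime := (hsim.2 s hs).2.2
  refine htime.trans (Nat.add_le_add_left ?_ t)
  have hT := Cmd.T_le (2 ^ eW kT x) (lΛ kT x) (G.mainC kT)
  rw [← hc0, ← hdep] at hT
  refine hT.trans ?_
  have hbits : bits (((2 ^ eW kT x : ℕ)) : ℤ) = eW kT x + 2 := by
    unfold bits
    rw [Int.natAbs_natCast, Nat.size_pow]
  rw [hbits]
  have g1 : eW kT x + 2 ≤ (kT + 202) * x ^ 120 := by
    unfold eW
    have h120 : 1 ≤ x ^ 120 := one_le_pow' h 120
    calc (kT + 200) * x ^ 120 + 2 ≤ (kT + 200) * x ^ 120 + 2 * x ^ 120 := by omega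
      _ = (kT + 202) * x ^ 120 := by ring
  have g2 : lΛ kT x + 1 ≤ (kT + 201) * x ^ (kT + 130) := by
    unfold lΛ
    have h130 : 1 ≤ x ^ (kT + 130) := one_le_pow' h _
    calc (kT + 200) * x ^ (kT + 130) + 1 ≤ (kT + 200) * x ^ (kT + 130) + x ^ (kT + 130) := by
          omega
      _ = (kT + 201) * x ^ (kT + 130) := by ring
  set C := c0 * ((kT + 202) ^ 2 * (kT + 201) ^ dep) with hC
  set e := 240 + (kT + 130) * dep with he
  calc c0 * ((eW kT x + 2) ^ 2 * (lΛ kT x + 1) ^ dep)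
      ≤ c0 * (((kT + 202) * x ^ 120) ^ 2 * ((kT + 201) * x ^ (kT + 130)) ^ dep) :=
        Nat.mul_le_mul_left _ (Nat.mul_le_mul (Nat.pow_le_pow_left g1 2)
          (Nat.pow_le_pow_left g2 dep))
    _ = C * x ^ e := by
        have p1 : (x ^ 120) ^ 2 = x ^ 240 := by rw [← pow_mul]
        have p2 : (x ^ (kT + 130)) ^ dep = x ^ ((kT + 130) * dep) := by rw [← pow_mul]
        rw [hC, he, mul_pow, mul_pow, p1, p2, pow_add x 240]
        ring
    _ ≤ (C + e) * x ^ (C + e) :=
        Nat.mul_le_mul (Nat.le_add_right _ _) (pow_mono' h (Nat.le_add_left _ _))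

end Vale.Agent.P328RAM
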