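import Vale.Agent.P328RAM.MainC
import Vale.Agent.P328R.ParDef

/-!
# The computation of the parameters
-/

namespace Vale.Agent.P328RAM

open Vale.Agent.P328R

variable {W Λ : ℕ} {m n : ℕ} {g : Mg}

/-- the values of the scalars computed by the parameter routine -/
def pval (m n N a D kT : ℕ) : ℕ → ℕ
  | 18 => N
  | 25 => baseX m n N a D
  | 55 => bitX m n N a D
  | 16 => bitB m n
  | 29 => expq m n N a D
  | 61 => 2 ^ expq m n N a D
  | 26 => 2 ^ (expq m n N a D + 10 + 2 * bitB m n)
  | 27 => 2 ^ (4 + 2 * bitB m n)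
  | 28 => 2 ^ (10 + 10 * bitB m n + 28 * bitX m n N a D)
  | 62 => ((kT + 14) * bitX m n N a D)
  | 66 => 2 ^ ((kT + 14) * bitX m n N a D)
  | 19 => numT kT m n N a D
  | 51 => max m n
  | 50 => numP m n N
  | 20 => numS m n N a D
  | _ => 0

/-- power of an expression -/
def Expr.powE (e : Expr) : ℕ → Expr
  | 0 => .lit 1
  | k + 1 => .mul (Expr.powE e k) e

theorem Expr.powE_val (e : Expr) (k : ℕ) (M : Mem) : (e.powE k).val M = e.val M ^ k := by
  induction k with
  | zero => simp [Expr.powE, Expr.val]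
  | succ k ih => simp only [Expr.powE, Expr.val, ih, pow_succ]

namespace G

/-- `s := 2 ^ e` -/
def pow2C (s : ℕ) (e : Expr) : Cmd := .fold s 7 e (.lit 1) (.mul (.v s) (.lit 2))

/-- the parameters (`kT` is a constant of the program text) -/
def parC (kT : ℕ) : Cmd :=
  .seq (.fold 18 7 em (.lit 0) (.add (.v 18) (.at1 1 (.v 7))))
  (.seq (.setv 25 (.add (.add (.add (.add (.add em en) (.size (.v 18)))
    (.get 0 (.lit 2) (.lit 0))) (.size (.get 0 (.lit 3) (.lit 0)))) (.lit 2)))
  (.seq (.setv 55 (.size (.v 25)))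
  (.seq (.setv 16 (.size (.add em en)))
  (.seq (.setv 29 (.add (.add (.lit 12) (.mul (.lit 16) (.v 16))) (.mul (.lit 56) (.v 55))))
  (.seq (pow2C 61 (.v 29))
  (.seq (pow2C 26 (.add (.add (.v 29) (.lit 10)) (.mul (.lit 2) (.v 16))))
  (.seq (pow2C 27 (.add (.lit 4) (.mul (.lit 2) (.v 16))))
  (.seq (pow2C 28 (.add (.add (.lit 10) (.mul (.lit 10) (.v 16))) (.mul (.lit 28) (.v 55))))
  (.seq (.setv 62 (.mul (.lit ((kT + 14 : ℕ) : ℤ)) (.v 55)))
  (.seq (pow2C 66 (.v 62))
  (.seq (.setv 19 ((Expr.v 25).powE kT))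
  (.seq (.maxv 51 em en)
  (.seq (.setv 50 (.mul (.mul (.lit 2) (.mul (.v 51) (.v 51))) (.size (.v 18))))
    (.setv 20 ((Expr.v 25).powE 22)))))))))))))))

/-- the whole program -/
def mainC (kT : ℕ) : Cmd := .seq (parC kT) (bodyC H.stepC)

end G

/-- the scalars of the list have their values -/
def Holds (keys : List ℕ) (val : ℕ → ℕ) (M : Mem) : Prop := ∀ s ∈ keys, M s 0 0 = (val s : ℤ)

/-- all arrays written by the parameter routine -/
def parL : List ℕ := [7, 16, 18, 19, 20, 25, 26, 27, 28, 29, 50, 51, 55, 61, 62, 66]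

theorem chain_step {M0 M : Mem} {val : ℕ → ℕ} {keys : List ℕ} {s : ℕ} {c d : Cmd}
    {Q : Mem → Prop} (hs : s ∉ keys ∧ 7 ∉ keys ∧ s ∈ parL) (hM : Holds keys val M)
    (hS : Same parL M0 M)
    (hc : Det W Λ c M (fun M' => M' s 0 0 = (val s : ℤ) ∧ Same [s, 7] M M'))
    (hd : ∀ M', Holds (s :: keys) val M' → Same parL M0 M' → Det W Λ d M' Q) :
    Det W Λ (.seq c d) M Q := by
  obtain ⟨h1, h2, h3⟩ := hs
  refine Det.seq hc ?_
  rintro M' ⟨a1, a2⟩
  refine hd M' ?_ ?_
  · intro x hx
    rcases List.mem_cons.1 hx with rfl | hx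
    · exact a1
    · have hx' : x ∉ [s, 7] := by
        intro h
        simp only [List.mem_cons, List.not_mem_nil, or_false] at h
        rcases h with h | h
        · exact h1 (h ▸ hx)
        · exact h2 (h ▸ hx)
      rw [a2 x hx']
      exact hM x hx
  · refine hS.trans (a2.mono ?_)
    intro x hx
    simp only [List.mem_cons, List.not_mem_nil, or_false] at hx
    rcases hx with rfl | rfl
    · exact h3
    · decide

theorem setv_step {M : Mem} {s k : ℕ} {e : Expr} (he : e.val M = (k : ℤ)) (hW : k ≤ W) :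
    Det W Λ (.setv s e) M (fun M' => M' s 0 0 = (k : ℤ) ∧ Same [s, 7] M M') := by
  refine Det.setv ?_ ?_
  · rw [he, abs_of_nonneg (by positivity)]
    exact_mod_cast hW
  · rw [he]
    exact ⟨by simp, (Same.refl _ _).write (by simp) _ _ _⟩

theorem pow2_step {M : Mem} {s k : ℕ} {e : Expr} (hs7 : s ≠ 7)
    (he : ∀ M', Same [s, 7] M M' → e.val M' = (k : ℤ))
    (hΛ : k ≤ Λ) (hW : 2 ^ k ≤ W) :
    Det W Λ (G.pow2C s e) M (fun M' => M' s 0 0 = ((2 ^ k : ℕ) : ℤ) ∧ Same [s, 7] M M') := by
  have hkW : k ≤ W := (Nat.lt_pow_self (by norm_num)).le.trans hW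
  have h := Det.pow (W := W) (Λ := Λ) (M := M) (s := s) (i := 7) (en := e) (e := .lit 2) k 2 hs7
    hΛ hkW ?_ ?_ (fun _ _ => rfl)
  · refine h.mono ?_
    rintro M' ⟨h1, h2⟩
    refine ⟨?_, h2⟩
    rw [h1]; push_cast; rfl
  · intro k' hk'
    rw [abs_of_nonneg (by positivity)]
    have : 2 ^ k' ≤ W := (Nat.pow_le_pow_right (by norm_num) hk').trans hW
    exact_mod_cast this
  · intro M' hM'
    rw [he M' hM', Int.toNat_natCast]

/-- the sizes needed by the parameter routine -/
structure ParW (W Λ m n N a D kT : ℕ) : Prop where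
  le : ∀ s ∈ [18, 25, 55, 16, 29, 61, 26, 27, 28, 62, 66, 19, 51, 50, 20],
    pval m n N a D kT s ≤ W
  m_le : m ≤ Λ ∧ m ≤ W
  kQ_le : (expq m n N a D + 10 + 2 * bitB m n) ≤ Λ
  kp_le : (4 + 2 * bitB m n) ≤ Λ
  kc_le : (10 + 10 * bitB m n + 28 * bitX m n N a D) ≤ Λ
  b_le : ((kT + 14) * bitX m n N a D) ≤ Λ

/-- **The parameter routine.** -/
theorem parC_det2 {M : Mem} {N a d D kT : ℕ} (hv : Valid m n g) (hm : M 0 0 0 = m)
    (hn : M 0 1 0 = n) (ha : M 0 2 0 = a) (hd : M 0 3 0 = d) (hD : Nat.size d = D)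
    (h1 : ∀ i : ℕ, i < m → M 1 i 0 = g.r i)
    (hN : ∑ i ∈ Finset.range m, g.r i = N) (hW : ParW W Λ m n N a D kT) :
    Det W Λ (G.parC kT) M (fun M' =>
      RunPar (parOf kT m n N a D) m n (numP m n N) (numT kT m n N a D) (numS m n N a D) M' ∧
      StepPar (parOf kT m n N a D) M' ∧ Same parL M M') := by
  have hem : ∀ M', Same parL M M' → G.em.val M' = (m : ℤ) := by
    intro M' h; simp [G.em, Expr.val, h 0 (by decide), hm]
  have hen : ∀ M', Same parL M M' → G.en.val M' = (n : ℤ) := by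
    intro M' h; simp [G.en, Expr.val, h 0 (by decide), hn]
  have hea : ∀ M', Same parL M M' → (Expr.get 0 (.lit 2) (.lit 0)).val M' = (a : ℤ) := by
    intro M' h; simp [Expr.val, h 0 (by decide), ha]
  have hed : ∀ M', Same parL M M' → (Expr.get 0 (.lit 3) (.lit 0)).val M' = (d : ℤ) := by
    intro M' h; simp [Expr.val, h 0 (by decide), hd]
  have hpart : ∀ k ≤ m, 0 ≤ ∑ i ∈ Finset.range k, g.r i ∧ ∑ i ∈ Finset.range k, g.r i ≤ N := by
    intro k hk
    refine ⟨Finset.sum_nonneg fun i hi => hv.r_nonneg i (by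
      simp only [Finset.mem_range] at hi; omega), ?_⟩
    rw [← hN]
    exact Finset.sum_le_sum_of_subset_of_nonneg (by simpa using hk) fun i hi _ =>
      hv.r_nonneg i (by simpa using hi)
  have hNW : N ≤ W := hW.le 18 (by decide)
  -- N
  refine chain_step (keys := []) (s := 18) (val := pval m n N a D kT) (by decide)
    (fun s hs => by simp at hs) (Same.refl _ _) ?_ ?_
  · refine (Det.sum1 m g.r (by decide) hW.m_le.1 hW.m_le.2 ?_ ?_ ?_).mono ?_
    · intro k hk
      rw [abs_of_nonneg (hpart k hk).1]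
      exact (hpart k hk).2.trans (by exact_mod_cast hNW)
    · intro M' h; simp [G.em, Expr.val, h 0 (by decide), hm]
    · intro k hk M' h h7
      simp only [Expr.val, h7, h 1 (by decide)]
      exact h1 k hk
    · rintro M' ⟨q1, q2⟩
      exact ⟨by rw [q1, hN]; rfl, q2⟩
  intro M1 k1 s1
  -- X
  refine chain_step (by decide) k1 s1 (setv_step (k := baseX m n N a D) ?_
    (hW.le 25 (by decide))) ?_
  · have e18 := k1 18 (by decide)
    have e1 := hem M1 s1
    have e2 := hen M1 s1
    have e3 := hea M1 s1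
    have e4 := hed M1 s1
    simp only [Expr.val] at e1 e2 e3 e4 ⊢
    rw [e1, e2, e18, e3, e4]
    simp [baseX, pval, ← hD]
  intro M2 k2 s2
  -- z
  refine chain_step (by decide) k2 s2 (setv_step (k := bitX m n N a D) ?_
    (hW.le 55 (by decide))) ?_
  · have e25 := k2 25 (by decide)
    simp only [Expr.val]
    rw [e25]
    simp [bitX, pval]
  intro M3 k3 s3
  -- B
  refine chain_step (by decide) k3 s3 (setv_step (k := bitB m n) ?_
    (hW.le 16 (by decide))) ?_
  · have e1 := hem M3 s3
    have e2 := hen M3 s3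
    simp only [Expr.val] at e1 e2 ⊢
    rw [e1, e2]
    unfold bitB
    have : ((m : ℤ) + n).natAbs = m + n := by omega
    rw [this]
  intro M4 k4 s4
  -- k1
  refine chain_step (by decide) k4 s4 (setv_step (k := expq m n N a D) ?_
    (hW.le 29 (by decide))) ?_
  · have e16 := k4 16 (by decide)
    have e55 := k4 55 (by decide)
    simp only [Expr.val]
    rw [e16, e55]
    simp [expq, pval]
  intro M5 k5 s5
  -- q
  refine chain_step (by decide) k5 s5 (pow2_step (k := expq m n N a D) (by decide) ?_ ?_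
    (hW.le 61 (by decide))) ?_
  · intro M' h
    have e29 := k5 29 (by decide)
    simp only [Expr.val]
    rw [h 29 (by decide), e29]
    rfl
  · have := hW.kQ_le
    omega
  intro M6 k6 s6
  -- Q
  refine chain_step (by decide) k6 s6 (pow2_step (k := (expq m n N a D + 10 + 2 * bitB m n)) (by decide) ?_
    hW.kQ_le (hW.le 26 (by decide))) ?_
  · intro M' h
    have e29 := k6 29 (by decide)
    have e16 := k6 16 (by decide)
    simp only [Expr.val]
    rw [h 29 (by decide), e29, h 16 (by decide), e16]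
    simp [pval]
  intro M7 k7 s7
  -- Lp
  refine chain_step (by decide) k7 s7 (pow2_step (k := (4 + 2 * bitB m n)) (by decide) ?_
    hW.kp_le (hW.le 27 (by decide))) ?_
  · intro M' h
    have e16 := k7 16 (by decide)
    simp only [Expr.val]
    rw [h 16 (by decide), e16]
    simp [pval]
  intro M8 k8 s8
  -- Lc
  refine chain_step (by decide) k8 s8 (pow2_step (k := (10 + 10 * bitB m n + 28 * bitX m n N a D)) (by decide) ?_
    hW.kc_le (hW.le 28 (by decide))) ?_
  · intro M' h
    have e16 := k8 16 (by decide)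
    have e55 := k8 55 (by decide)
    simp only [Expr.val]
    rw [h 16 (by decide), e16, h 55 (by decide), e55]
    simp [pval]
  intro M9 k9 s9
  -- b
  refine chain_step (by decide) k9 s9 (setv_step (k := ((kT + 14) * bitX m n N a D)) ?_
    (hW.le 62 (by decide))) ?_
  · have e55 := k9 55 (by decide)
    simp only [Expr.val]
    rw [e55]
    simp [pval]
  intro M10 k10 s10
  -- 2 ^ b
  refine chain_step (by decide) k10 s10 (pow2_step (k := ((kT + 14) * bitX m n N a D)) (by decide) ?_
    hW.b_le (hW.le 66 (by decide))) ?_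
  · intro M' h
    have e62 := k10 62 (by decide)
    simp only [Expr.val]
    rw [h 62 (by decide), e62]
    rfl
  intro M11 k11 s11
  -- T
  refine chain_step (by decide) k11 s11 (setv_step (k := numT kT m n N a D) ?_
    (hW.le 19 (by decide))) ?_
  · have e25 : (Expr.v 25).val M11 = ((baseX m n N a D : ℕ) : ℤ) := k11 25 (by decide)
    rw [Expr.powE_val, e25]
    unfold numT
    rw [Nat.cast_pow]
  intro M12 k12 s12
  -- max
  refine chain_step (s := 51) (by decide) k12 s12 ?_ ?_
  · have hmx : max (G.em.val M12) (G.en.val M12) = ((max m n : ℕ) : ℤ) := by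
      rw [hem M12 s12, hen M12 s12]; push_cast; rfl
    refine Det.maxv ?_ ?_
    · rw [hmx, abs_of_nonneg (by positivity)]
      have := hW.le 51 (by decide)
      exact_mod_cast this
    · rw [hmx]
      exact ⟨by simp [pval], (Same.refl _ _).write (by decide) _ _ _⟩
  intro M13 k13 s13
  -- P
  refine chain_step (by decide) k13 s13 (setv_step (k := numP m n N) ?_
    (hW.le 50 (by decide))) ?_
  · have e51 := k13 51 (by decide)
    have e18 := k13 18 (by decide)
    simp only [Expr.val]
    rw [e51, e18]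
    simp only [pval, numP, Int.natAbs_natCast]
    push_cast
    ring
  intro M14 k14 s14
  -- S
  refine (setv_step (k := numS m n N a D) ?_ (hW.le 20 (by decide))).mono ?_
  · have e25 : (Expr.v 25).val M14 = ((baseX m n N a D : ℕ) : ℤ) := k14 25 (by decide)
    rw [Expr.powE_val, e25]
    unfold numS
    rw [Nat.cast_pow]
  rintro M15 ⟨q1, q2⟩
  have s15 : Same parL M M15 := s14.trans (q2.mono (by decide))
  have key : ∀ s ∈ [18, 25, 55, 16, 29, 61, 26, 27, 28, 62, 66, 19, 51, 50],
      M15 s 0 0 = (pval m n N a D kT s : ℤ) := by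
    intro s hs
    rw [q2 s (by
      intro h
      simp only [List.mem_cons, List.not_mem_nil, or_false] at h hs
      omega)]
    refine k14 s ?_
    simp only [List.mem_cons, List.not_mem_nil, or_false] at hs ⊢
    omega
  refine ⟨⟨?_, ?_, ?_, ?_, ?_, ?_, ?_, ?_, ?_, ?_⟩, ⟨?_, ?_, ?_, ?_⟩, s15⟩
  · rw [s15 0 (by decide)]; exact hm
  · rw [s15 0 (by decide)]; exact hn
  · rw [key 26 (by decide)]; simp [pval, parOf]
  · rw [key 27 (by decide)]; simp [pval, parOf]
  · rw [key 28 (by decide)]; simp [pval, parOf]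
  · rw [key 29 (by decide)]; simp [pval, parOf]
  · rw [key 50 (by decide)]; rfl
  · rw [key 51 (by decide)]; rfl
  · rw [key 19 (by decide)]; rfl
  · exact q1
  · rw [key 16 (by decide)]; rfl
  · rw [key 61 (by decide)]; rfl
  · rw [key 62 (by decide)]; rfl
  · rw [key 66 (by decide)]; simp [pval, parOf]

end Vale.Agent.P328RAM
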