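import Vale.Agent.P328RAM.SchedC

/-!
# Phases, passes, and the body of the program

4 table `X`, 19 `T`, 20 `S`, 52 counters, 53 `l`, 49 `k = P - 1 - l`, 54 flag.
-/

namespace Vale.Agent.P328RAM

open Vale.Agent.P328R

variable {W Λ : ℕ} (p : Par) {m n : ℕ} (g : Mg)

namespace G

/-- 54 := 1 if the table is a genuine table whose corner is at least `inc`, else 0 -/
def hitC : Cmd :=
  .seq (.setv 54 (.lit 1))
    (.seq (.for2 7 8 em en (.when (.sub (.lit 0) (.get 4 (.v 7) (.v 8))) (.setv 54 (.lit 0))))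
      (.when (.sub (.at1 43 (.v 49)) (.get 4 (.v 22) (.v 23))) (.setv 54 (.lit 0))))

/-- counting -/
def cntC : Cmd :=
  .seq hitC (.when (.v 54) (.set 52 (.v 49) (.lit 0) (.add (.at1 52 (.v 49)) (.lit 1))))

/-- prepare the phase: `k`, margins, geometry, insertion of `inc` units in the corner -/
def preC : Cmd :=
  .seq (.setv 49 (.sub (.sub (.v 50) (.lit 1)) (.v 53)))
  (.seq loadC (.seq geoC
    (.set 4 (.v 22) (.v 23) (.add (.get 4 (.v 22) (.v 23)) (.at1 43 (.v 49))))))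

/-- one phase -/
def phaseC (stepC : Cmd) : Cmd := .seq preC (.seq (.rep (.v 19) stepC) cntC)

/-- one pass -/
def passC (stepC : Cmd) : Cmd :=
  .seq (.arr2 4 7 8 em en (.lit 0)) (.forL 53 (.v 50) (phaseC stepC))

/-- the output -/
def outC : Cmd :=
  .seq (.fold 35 7 (.v 50) (.lit 1) (.mul (.v 35) (.v 20)))
  (.seq (.fold 36 7 (.v 50) (.lit 1) (.mul (.v 36) (.at1 52 (.v 7))))
  (.seq (.set 3 (.lit 0) (.lit 0) (.v 35)) (.set 3 (.lit 1) (.lit 0) (.v 36))))

/-- everything after the computation of the parameters -/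
def bodyC (stepC : Cmd) : Cmd := .seq schedC (.seq (.rep (.v 20) (passC stepC)) outC)

end G

/-- the table in the array 4 -/
abbrev tab (m n : ℕ) (M : Mem) : Tab m n := fun e => M 4 (e.1 : ℕ) (e.2 : ℕ)

/-- the counters -/
def cnt (M : Mem) : ℕ → ℤ := fun k => M 52 k 0

/-- the parameters used above the level of a step -/
structure RunPar (m n P T S : ℕ) (M : Mem) : Prop where
  m_eq : M 0 0 0 = m
  n_eq : M 0 1 0 = n
  Q_eq : M 26 0 0 = p.Q
  Lp_eq : M 27 0 0 = p.Lp
  Lc_eq : M 28 0 0 = p.Lc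
  k1_eq : M 29 0 0 = (p.k1 : ℤ)
  P_eq : M 50 0 0 = P
  mx_eq : M 51 0 0 = (max m n : ℕ)
  T_eq : M 19 0 0 = T
  S_eq : M 20 0 0 = S

theorem RunPar.same {P T S : ℕ} {M M' : Mem} {L : List ℕ} (h : RunPar p m n P T S M)
    (hs : Same L M M')
    (hL : 0 ∉ L ∧ 26 ∉ L ∧ 27 ∉ L ∧ 28 ∉ L ∧ 29 ∉ L ∧ 50 ∉ L ∧ 51 ∉ L ∧ 19 ∉ L ∧ 20 ∉ L) :
    RunPar p m n P T S M' := by
  obtain ⟨h0, h26, h27, h28, h29, h50, h51, h19, h20⟩ := hL
  constructor
  · rw [hs 0 h0]; exact h.m_eq
  · rw [hs 0 h0]; exact h.n_eq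
  · rw [hs 26 h26]; exact h.Q_eq
  · rw [hs 27 h27]; exact h.Lp_eq
  · rw [hs 28 h28]; exact h.Lc_eq
  · rw [hs 29 h29]; exact h.k1_eq
  · rw [hs 50 h50]; exact h.P_eq
  · rw [hs 51 h51]; exact h.mx_eq
  · rw [hs 19 h19]; exact h.T_eq
  · rw [hs 20 h20]; exact h.S_eq

/-! ### the flag -/

theorem hitC_det {M : Mem} {k : ℕ} (hm : M 0 0 0 = m) (hn : M 0 1 0 = n) (hk : M 49 0 0 = k)
    (h22 : M 22 0 0 = (is m g : ℤ)) (h23 : M 23 0 0 = (js n g : ℤ))
    (hi : is m g < m) (hj : js n g < n)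
    (h43 : M 43 k 0 = inc m n g) (hW1 : 1 ≤ W) (hmW : m ≤ Λ ∧ m ≤ W) (hnW : n ≤ Λ ∧ n ≤ W) :
    Det W Λ G.hitC M (fun M' => M' 54 0 0 = (if hit g (tab m n M) then 1 else 0) ∧
      Same [7, 8, 54] M M') := by
  have hW1' : (1 : ℤ) ≤ W := by exact_mod_cast hW1
  refine Det.seq (R := fun M' => M' 54 0 0 = 1 ∧ Same [7, 8, 54] M M')
    (Det.setv (by simpa [Expr.val] using hW1')
      ⟨by simp [Expr.val], (Same.refl _ _).write (by decide) _ _ _⟩) ?_
  rintro M1 ⟨a1, a2⟩
  refine Det.seq (R := fun M' => M' 54 0 0 = (if ∀ e, 0 ≤ tab m n M e then 1 else 0) ∧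
    Same [7, 8, 54] M M') ?_ ?_
  · refine (Det.for2 m n (fun k l M' =>
        M' 54 0 0 = (if ∀ e : Fin m × Fin n, ((e.1 : ℕ) < k ∨ (e.1 : ℕ) = k ∧ (e.2 : ℕ) < l) →
          0 ≤ tab m n M e then 1 else 0) ∧ Same [7, 8, 54] M M')
      (by decide) (by decide) (by decide) hmW.1 hmW.2 hnW.1 hnW.2 ?_ ?_ ?_ ?_ ⟨?_, a2⟩ ?_ ?_).mono
      ?_
    · rintro M' ⟨-, h⟩
      simp [G.em, Expr.val, h 0 (by decide), hm]
    · rintro k _ M' ⟨-, h⟩
      simp [G.en, Expr.val, h 0 (by decide), hn]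
    · rintro k l M' z ⟨q1, q2⟩
      exact ⟨by rw [Mem.write_arr _ (by decide)]; exact q1, q2.write (by decide) _ _ _⟩
    · rintro k l M' z ⟨q1, q2⟩
      exact ⟨by rw [Mem.write_arr _ (by decide)]; exact q1, q2.write (by decide) _ _ _⟩
    · rw [a1, if_pos]
      intro e h; omega
    · rintro k' hk' M' ⟨q1, q2⟩
      refine ⟨?_, q2⟩
      rw [q1]
      congr 1
      refine propext ⟨fun h e he => h e ?_, fun h e he => h e ?_⟩
      · have := e.2.2; omega
      · have := e.2.2; omega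
    · rintro k' hk' l' hl' M' g7 g8 ⟨q1, q2⟩
      have hval : (Expr.sub (.lit 0) (.get 4 (.v 7) (.v 8))).val M'
          = - tab m n M (⟨k', hk'⟩, ⟨l', hl'⟩) := by
        simp only [Expr.val, g7, g8, q2 4 (by decide)]
        ring
      refine Det.when (fun h => ?_) (fun h => ?_)
      · rw [hval] at h
        refine Det.setv (by simp [Expr.val]) ⟨?_, q2.write (by decide) _ _ _⟩
        simp only [Mem.write_self, Expr.val]
        rw [if_neg]
        intro hall
        have := hall (⟨k', hk'⟩, ⟨l', hl'⟩) (Or.inr ⟨rfl, Nat.lt_succ_self _⟩)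
        omega
      · rw [hval] at h
        refine ⟨?_, q2⟩
        rw [q1]
        congr 1
        refine propext ⟨fun h' e he => ?_, fun h' e he => h' e ?_⟩
        · by_cases hh : ((e.1 : ℕ) < k' ∨ (e.1 : ℕ) = k' ∧ (e.2 : ℕ) < l')
          · exact h' e hh
          · have h1 : (e.1 : ℕ) = k' := by omega
            have h2 : (e.2 : ℕ) = l' := by omega
            have he' : e = (⟨k', hk'⟩, ⟨l', hl'⟩) :=
              Prod.ext (Fin.ext h1) (Fin.ext h2)
            rw [he']; omega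
        · omega
    · rintro M' ⟨q1, q2⟩
      refine ⟨?_, q2⟩
      rw [q1]
      congr 1
      refine propext ⟨fun h e => h e (Or.inl e.1.2), fun h e _ => h e⟩
  · rintro M2 ⟨b1, b2⟩
    have hval : (Expr.sub (.at1 43 (.v 49)) (.get 4 (.v 22) (.v 23))).val M2
        = inc m n g - ent (tab m n M) (is m g) (js n g) := by
      simp only [Expr.val, b2 49 (by decide), b2 43 (by decide), b2 22 (by decide),
        b2 23 (by decide), b2 4 (by decide), hk, h22, h23, h43]
      unfold ent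
      rw [dif_pos ⟨hi, hj⟩]
    refine Det.when (fun h => ?_) (fun h => ?_)
    · rw [hval] at h
      refine Det.setv (by simp [Expr.val]) ⟨?_, b2.write (by decide) _ _ _⟩
      simp only [Mem.write_self, Expr.val]
      rw [if_neg]
      rintro ⟨-, h'⟩
      omega
    · rw [hval] at h
      refine ⟨?_, b2⟩
      rw [b1]
      congr 1
      refine propext ⟨fun h' => ⟨h', by omega⟩, fun h' => h'.1⟩

theorem cntC_det {M : Mem} {k S' : ℕ} (hm : M 0 0 0 = m) (hn : M 0 1 0 = n) (hk : M 49 0 0 = k)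
    (h22 : M 22 0 0 = (is m g : ℤ)) (h23 : M 23 0 0 = (js n g : ℤ))
    (hi : is m g < m) (hj : js n g < n) (h43 : M 43 k 0 = inc m n g)
    (hcnt : 0 ≤ cnt M k ∧ cnt M k ≤ S') (hS' : S' + 1 ≤ W)
    (hmW : m ≤ Λ ∧ m ≤ W) (hnW : n ≤ Λ ∧ n ≤ W) :
    Det W Λ G.cntC M (fun M' =>
      (tab m n M', cnt M') = (tab m n M,
        if hit g (tab m n M) then Function.update (cnt M) k (cnt M k + 1) else cnt M) ∧
      Same [7, 8, 52, 54] M M') := by
  refine Det.seq (hitC_det g hm hn hk h22 h23 hi hj h43 (by omega) hmW hnW) ?_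
  rintro M1 ⟨a1, a2⟩
  have hv : (Expr.v 54).val M1 = if hit g (tab m n M) then 1 else 0 := by
    simp only [Expr.val]; exact a1
  have htab : tab m n M1 = tab m n M := by
    funext e; simp only [tab]; rw [a2 4 (by decide)]
  have hcn : cnt M1 = cnt M := by
    funext e; simp only [cnt]; rw [a2 52 (by decide)]
  refine Det.when (fun h => ?_) (fun h => ?_)
  · rw [hv] at h
    have hh : hit g (tab m n M) := by
      by_contra hcon
      rw [if_neg hcon] at h
      exact lt_irrefl _ h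
    have hval : (Expr.add (.at1 52 (.v 49)) (.lit 1)).val M1 = cnt M k + 1 := by
      simp only [Expr.val, a2 49 (by decide), a2 52 (by decide), hk]
      rfl
    refine Det.set ?_ ?_
    · rw [hval, abs_of_nonneg (by omega)]
      have : ((S' + 1 : ℕ) : ℤ) ≤ W := by exact_mod_cast hS'
      push_cast at this
      omega
    · rw [hval]
      simp only [Expr.val, a2 49 (by decide), hk]
      refine ⟨?_, (a2.mono (by decide)).write (by decide) _ _ _⟩
      rw [if_pos hh]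
      refine Prod.ext ?_ ?_
      · rw [← htab]
        funext e
        simp only [tab]
        rw [Mem.write_arr _ (by decide)]
      · funext k'
        simp only [cnt]
        by_cases hkk : k' = k
        · subst hkk
          rw [Mem.write_self, Function.update_self]
        · rw [Mem.write_cell _ _ (by omega), Function.update_of_ne hkk, a2 52 (by decide)]
          rfl
  · rw [hv] at h
    have hh : ¬ hit g (tab m n M) := by
      intro hcon
      rw [if_pos hcon] at h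
      omega
    refine ⟨?_, a2.mono (by decide)⟩
    rw [if_neg hh, htab, hcn]

/-! ### before the steps -/

theorem preC_det {M : Mem} {P T S l : ℕ} (hv : Valid m n g) (hl : l < P) (h53 : M 53 0 0 = l)
    (hR : RunPar p m n P T S M) (hS : SchedOK g m n P M)
    (hb : ∀ k < P, GeoB p (mg m n g k) W Λ m n) {A A' : ℕ}
    (hX : ∀ e, |tab m n M e| ≤ (A' : ℤ)) (hA : ∀ k < P, inc m n (mg m n g k) ≤ (A : ℤ))
    (hW : A' + A ≤ W) (hPW : P ≤ W) :
    Det W Λ G.preC M (fun M' => M' 49 0 0 = ((P - 1 - l : ℕ) : ℤ) ∧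
      Geo p (mg m n g (P - 1 - l)) m n M' ∧ GeoIn p (mg m n g (P - 1 - l)) m n M' ∧
      tab m n M' = addc (is m (mg m n g (P - 1 - l))) (js n (mg m n g (P - 1 - l)))
        (inc m n (mg m n g (P - 1 - l))) (tab m n M) ∧
      Same [4, 5, 6, 7, 8, 22, 23, 30, 31, 32, 33, 34, 35, 36, 37, 38, 39, 44, 45, 46, 47, 48, 49]
        M M') := by
  set k := P - 1 - l with hkdef
  have hkP : k < P := by omega
  have hvk := hv.mg k
  have hv49 : (Expr.sub (.sub (.v 50) (.lit 1)) (.v 53)).val M = (k : ℤ) := by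
    simp only [Expr.val, hR.P_eq, h53]
    omega
  refine Det.seq (R := fun M' => M' 49 0 0 = (k : ℤ) ∧ Same [49] M M') (Det.setv ?_ ?_) ?_
  · rw [hv49, abs_of_nonneg (by positivity)]
    have : k ≤ W := by omega
    exact_mod_cast this
  · rw [hv49]
    exact ⟨by simp, (Same.refl _ _).write (by decide) _ _ _⟩
  rintro M1 ⟨a1, a2⟩
  have hR1 := hR.same p a2 (by decide)
  have hS1 := hS.same g a2 (by decide)
  have hbk := hb k hkP
  refine Det.seq (loadC_det g hR1.m_eq hR1.n_eq a1 hkP hS1 hbk.m_le hbk.n_le) ?_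
  rintro M2 ⟨b1, b2, b3⟩
  have hR2 := hR1.same p b3 (by decide)
  have hS2 := hS1.same g b3 (by decide)
  have hG2 : GeoIn p (mg m n g k) m n M2 :=
    ⟨hR2.m_eq, hR2.n_eq, b1, b2, hR2.Q_eq, hR2.Lp_eq, hR2.Lc_eq, hR2.k1_eq⟩
  refine Det.seq (geoC_det p (mg m n g k) hG2 hbk) ?_
  rintro M3 ⟨c1, c2⟩
  have hS3 := hS2.same g c2 (by decide)
  have hG3 := hG2.same p (mg m n g k) c2 (by decide)
  have s3 : Same [5, 6, 7, 8, 22, 23, 30, 31, 32, 33, 34, 35, 36, 37, 38, 39, 44, 45, 46, 47, 48,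
      49] M M3 := (a2.mono (by decide)).trans ((b3.mono (by decide)).trans (c2.mono (by decide)))
  have e49 : M3 49 0 0 = (k : ℤ) := by
    rw [c2 49 (by decide), b3 49 (by decide)]; exact a1
  have htab : tab m n M3 = tab m n M := by
    funext e; simp only [tab]; rw [s3 4 (by decide)]
  have hval : (Expr.add (.get 4 (.v 22) (.v 23)) (.at1 43 (.v 49))).val M3
      = tab m n M (⟨_, hvk.is_lt⟩, ⟨_, hvk.js_lt⟩) + inc m n (mg m n g k) := by
    simp only [Expr.val, c1.is_eq, c1.js_eq, e49]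
    rw [hS3.IN k hkP, ← htab]
  refine Det.set ?_ ?_
  · rw [hval]
    refine (abs_add_le _ _).trans ?_
    have h1 := hX (⟨_, hvk.is_lt⟩, ⟨_, hvk.js_lt⟩)
    have h2 := hA k hkP
    have h3 := inc_nonneg (m := m) (n := n) (g := mg m n g k)
    rw [abs_of_nonneg h3]
    have h4 : ((A' + A : ℕ) : ℤ) ≤ W := by exact_mod_cast hW
    push_cast at h4
    linarith
  · rw [hval]
    simp only [Expr.val, c1.is_eq, c1.js_eq]
    set z := tab m n M (⟨_, hvk.is_lt⟩, ⟨_, hvk.js_lt⟩) + inc m n (mg m n g k) with hz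
    have s4 : Same [4] M3 (M3.write 4 (is m (mg m n g k)) (js n (mg m n g k)) z) :=
      (Same.refl _ _).write (by decide) _ _ _
    refine ⟨?_, ?_, ?_, ?_, (s3.mono (by decide)).trans (s4.mono (by decide))⟩
    · rw [s4 49 (by decide)]; exact e49
    · obtain ⟨q1, q2, q3, q4, q5, q6, q7⟩ := c1
      refine ⟨?_, ?_, ?_, ?_, ?_, ?_, ?_⟩
      · rw [s4 22 (by decide)]; exact q1
      · rw [s4 23 (by decide)]; exact q2
      · intro x y hx hy; rw [s4 30 (by decide)]; exact q3 x y hx hy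
      · intro x y hx hy; rw [s4 31 (by decide)]; exact q4 x y hx hy
      · intro x y hx hy; rw [s4 32 (by decide)]; exact q5 x y hx hy
      · intro x y hx hy; rw [s4 33 (by decide)]; exact q6 x y hx hy
      · intro x y hx hy; rw [s4 34 (by decide)]; exact q7 x y hx hy
    · exact hG3.same p (mg m n g k) s4 (by decide)
    · funext e
      simp only [tab, addc]
      by_cases he : (e.1 : ℕ) = is m (mg m n g k) ∧ (e.2 : ℕ) = js n (mg m n g k)
      · rw [if_pos he, he.1, he.2, Mem.write_self, hz]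
      · rw [if_neg he, add_zero, Mem.write_cell _ _ (by omega), s3 4 (by decide)]

/-! ### phases -/

/-- The contract of the step command: `SP` is the condition on the parameters of the step. -/
structure StepOK (p : Par) (m n : ℕ) (g : Mg) (P W Λ A A1 : ℕ) (stepC : Cmd) (SP : Mem → Prop) :
    Prop where
  wr : ∀ a ∈ [0, 1, 2, 3, 5, 6, 16, 19, 20, 22, 23, 26, 27, 28, 29, 30, 31, 32, 33, 34, 41, 42, 43,
    49, 50, 51, 52, 53], a ∉ stepC.Wr
  keep : ∀ M M', (∀ a, a ∉ stepC.Wr → M' a = M a) → SP M → SP M'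
  same : ∀ M M', Same [4, 5, 6, 7, 8, 22, 23, 30, 31, 32, 33, 34, 35, 36, 37, 38, 39, 40, 41, 42,
    43, 44, 45, 46, 47, 48, 49, 52, 53, 54] M M' → SP M → SP M'
  sim : ∀ k < P, ∀ A' : ℕ, A ≤ A' → A' ≤ A1 → ∀ M, SP M → Geo p (mg m n g k) m n M →
    GeoIn p (mg m n g k) m n M → (∀ e, |tab m n M e| ≤ (A' : ℤ)) →
    Sim W Λ stepC M (tab m n) (P328R.stepK p (mg m n g k) (tab m n M))
      (fun M' => ∀ e, |tab m n M' e| ≤ (A' : ℤ))

variable {p g}

/-- the standing assumptions on the sizes -/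
structure Sizes (p : Par) (m n : ℕ) (g : Mg) (P T S W Λ A A1 : ℕ) : Prop where
  geo : ∀ k < P, GeoB p (mg m n g k) W Λ m n
  inc_le : ∀ k < P, inc m n (mg m n g k) ≤ (A : ℤ)
  A1_le : (P + 2) * A ≤ A1
  A1W : A1 ≤ W
  P_le : P ≤ Λ ∧ P ≤ W
  T_le : T ≤ Λ
  S_le : S ≤ Λ ∧ S + 1 ≤ W

theorem addc_le {X : Tab m n} {A' A : ℕ} {i j : ℕ} {d : ℤ} (hX : ∀ e, |X e| ≤ (A' : ℤ))
    (hd : 0 ≤ d) (hd' : d ≤ A) (e : Fin m × Fin n) : |addc i j d X e| ≤ ((A' + A : ℕ) : ℤ) := by
  unfold addc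
  refine (abs_add_le _ _).trans ?_
  push_cast
  refine add_le_add (hX e) ?_
  split_ifs
  · rw [abs_of_nonneg hd]; exact hd'
  · simp

/-- one phase -/
theorem phaseC_sim2 {stepC : Cmd} {SP : Mem → Prop} {P T S A A1 : ℕ}
    (hv : Valid m n g) (hz : Sizes p m n g P T S W Λ A A1)
    (hstep : StepOK p m n g P W Λ A A1 stepC SP) {M : Mem} {l S' A' : ℕ} (hl : l < P)
    (h53 : M 53 0 0 = l) (hR : RunPar p m n P T S M) (hS : SchedOK g m n P M) (hSP : SP M)
    (hA' : A' + A ≤ A1)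
    (hX : ∀ e, |tab m n M e| ≤ (A' : ℤ)) (hcnt : ∀ k, 0 ≤ cnt M k ∧ cnt M k ≤ S')
    (hS' : S' + 1 ≤ W) :
    Sim W Λ (G.phaseC stepC) M (fun M' => (tab m n M', cnt M'))
      (phaseK p g T (P - 1 - l) (tab m n M, cnt M))
      (fun M' => RunPar p m n P T S M' ∧ SchedOK g m n P M' ∧ SP M' ∧
        (∀ e, |tab m n M' e| ≤ ((A' + A : ℕ) : ℤ)) ∧
        (∀ k, cnt M' k = cnt M k ∨ (k = P - 1 - l ∧ cnt M' k = cnt M k + 1)) ∧
        M' 53 = M 53) := by
  set k := P - 1 - l with hkdef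
  have hkP : k < P := by omega
  have hvk := hv.mg k
  refine Det.seqSim (preC_det p g hv hl h53 hR hS hz.geo hX hz.inc_le (hA'.trans hz.A1W)
    hz.P_le.2) ?_
  rintro M1 ⟨a1, a2, a3, a4, a5⟩
  rw [← hkdef] at a1 a2 a3 a4
  have hR1 := hR.same p a5 (by decide)
  have hS1 := hS.same g a5 (by decide)
  have hSP1 := hstep.same M M1 (a5.mono (by decide)) hSP
  have hX1 : ∀ e, |tab m n M1 e| ≤ ((A' + A : ℕ) : ℤ) := by
    intro e
    rw [a4]
    exact addc_le hX inc_nonneg (hz.inc_le k hkP) e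
  -- the loop
  have hloop := Sim.rep (W := W) (Λ := Λ) (M := M1) (e := .v 19) (c := stepC) (f := tab m n)
    (Q := fun M' => (∀ a, a ∉ stepC.Wr → M' a = M1 a) ∧
      (∀ e, |tab m n M' e| ≤ ((A' + A : ℕ) : ℤ)))
    (P328R.stepK p (mg m n g k))
    (fun _ M' => (∀ a, a ∉ stepC.Wr → M' a = M1 a) ∧
      (∀ e, |tab m n M' e| ≤ ((A' + A : ℕ) : ℤ))) T
    (by simp [Expr.val, hR1.T_eq]) hz.T_le ⟨fun _ _ => rfl, hX1⟩ ?_ (fun _ h => h)
  swap
  · rintro i - M' ⟨h1, h2⟩
    have hs : ∀ a ∈ [0, 1, 2, 3, 5, 6, 16, 19, 20, 22, 23, 26, 27, 28, 29, 30, 31, 32, 33, 34, 41,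
      42, 43, 49, 50, 51, 52, 53], M' a = M1 a := fun a ha => h1 a (hstep.wr a ha)
    have hGeo : Geo p (mg m n g k) m n M' := by
      obtain ⟨q1, q2, q3, q4, q5, q6, q7⟩ := a2
      refine ⟨?_, ?_, ?_, ?_, ?_, ?_, ?_⟩
      · rw [hs 22 (by decide)]; exact q1
      · rw [hs 23 (by decide)]; exact q2
      · intro x y hx hy; rw [hs 30 (by decide)]; exact q3 x y hx hy
      · intro x y hx hy; rw [hs 31 (by decide)]; exact q4 x y hx hy
      · intro x y hx hy; rw [hs 32 (by decide)]; exact q5 x y hx hy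
      · intro x y hx hy; rw [hs 33 (by decide)]; exact q6 x y hx hy
      · intro x y hx hy; rw [hs 34 (by decide)]; exact q7 x y hx hy
    have hGin : GeoIn p (mg m n g k) m n M' := by
      obtain ⟨q1, q2, q3, q4, q5, q6, q7, q8⟩ := a3
      refine ⟨?_, ?_, ?_, ?_, ?_, ?_, ?_, ?_⟩
      · rw [hs 0 (by decide)]; exact q1
      · rw [hs 0 (by decide)]; exact q2
      · intro x hx; rw [hs 5 (by decide)]; exact q3 x hx
      · intro x hx; rw [hs 6 (by decide)]; exact q4 x hx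
      · rw [hs 26 (by decide)]; exact q5
      · rw [hs 27 (by decide)]; exact q6
      · rw [hs 28 (by decide)]; exact q7
      · rw [hs 29 (by decide)]; exact q8
    refine (hstep.sim k hkP (A' + A) (by omega) hA' M' (hstep.keep M1 M' h1 hSP1) hGeo hGin
      h2).fr.mono ?_
    rintro M'' ⟨g1, g2⟩
    exact ⟨fun a ha => by rw [g2 a ha, h1 a ha], g1⟩
  have hlaw : phaseK p g T k (tab m n M, cnt M)
      = (iterBind (P328R.stepK p (mg m n g k)) T (tab m n M1)).bind fun X => PMF.pure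
        (X, if hit (mg m n g k) X then Function.update (cnt M) k (cnt M k + 1) else cnt M) := by
    unfold phaseK
    rw [a4]
    rfl
  rw [hlaw]
  refine Sim.seq hloop ?_
  rintro M2 ⟨b1, b2⟩
  have hs : ∀ a ∈ [0, 1, 2, 3, 5, 6, 16, 19, 20, 22, 23, 26, 27, 28, 29, 30, 31, 32, 33, 34, 41,
    42, 43, 49, 50, 51, 52, 53], M2 a = M1 a := fun a ha => b1 a (hstep.wr a ha)
  have hcn2 : cnt M2 = cnt M := by
    funext x; simp only [cnt]; rw [hs 52 (by decide), a5 52 (by decide)]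
  have hcount := cntC_det (W := W) (Λ := Λ) (m := m) (n := n) (M := M2) (k := k) (S' := S')
    (mg m n g k) (by rw [hs 0 (by decide)]; exact hR1.m_eq)
    (by rw [hs 0 (by decide)]; exact hR1.n_eq) (by rw [hs 49 (by decide)]; exact a1)
    (by rw [hs 22 (by decide)]; exact a2.is_eq) (by rw [hs 23 (by decide)]; exact a2.js_eq)
    hvk.is_lt hvk.js_lt (by rw [hs 43 (by decide)]; exact hS1.IN k hkP)
    (by rw [hcn2]; exact hcnt k) hS' (hz.geo k hkP).m_le (hz.geo k hkP).n_le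
  rw [hcn2] at hcount
  refine ((hcount.sim (f := fun M' => (tab m n M', cnt M')) (x := _) (fun M' h => h.1)).mono ?_)
  rintro M3 ⟨c1, c2⟩
  have c1a : tab m n M3 = tab m n M2 := congrArg Prod.fst c1
  have c1b : cnt M3 = if hit (mg m n g k) (tab m n M2) then
    Function.update (cnt M) k (cnt M k + 1) else cnt M := congrArg Prod.snd c1
  have hR2 : RunPar p m n P T S M2 := by
    obtain ⟨q1, q2, q3, q4, q5, q6, q7, q8, q9, q10⟩ := hR1
    constructor
    · rw [hs 0 (by decide)]; exact q1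
    · rw [hs 0 (by decide)]; exact q2
    · rw [hs 26 (by decide)]; exact q3
    · rw [hs 27 (by decide)]; exact q4
    · rw [hs 28 (by decide)]; exact q5
    · rw [hs 29 (by decide)]; exact q6
    · rw [hs 50 (by decide)]; exact q7
    · rw [hs 51 (by decide)]; exact q8
    · rw [hs 19 (by decide)]; exact q9
    · rw [hs 20 (by decide)]; exact q10
  have hS2 : SchedOK g m n P M2 := by
    obtain ⟨q1, q2, q3⟩ := hS1
    refine ⟨?_, ?_, ?_⟩
    · intro k hk i hi; rw [hs 41 (by decide)]; exact q1 k hk i hi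
    · intro k hk i hi; rw [hs 42 (by decide)]; exact q2 k hk i hi
    · intro k hk; rw [hs 43 (by decide)]; exact q3 k hk
  refine ⟨hR2.same p c2 (by decide), hS2.same g c2 (by decide),
    hstep.same M2 M3 (c2.mono (by decide)) (hstep.keep M1 M2 b1 hSP1), ?_, ?_, ?_⟩
  · intro e; rw [c1a]; exact b2 e
  · intro k'
    rw [c1b]
    split_ifs with hh
    · by_cases hkk : k' = k
      · subst hkk
        right
        exact ⟨rfl, by rw [Function.update_self]⟩
      · left; rw [Function.update_of_ne hkk]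
    · left; rfl
  · rw [c2 53 (by decide), hs 53 (by decide), a5 53 (by decide)]

end Vale.Agent.P328RAM
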