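import Vale.Agent.P328RAM.Prog

namespace Vale.Agent.P328RAM

open P

variable {W Λ m n : ℕ} {M : Mem} {r c : ℕ → ℤ}

/-- C2. The selection routine. -/
theorem pickC_det {dst src cur k : ℕ} {len : Expr} (h1 : dst ≠ 7) (h2 : dst ≠ src) (h3 : dst ≠ cur)
    (h4 : src ≠ 7) (h5 : cur ≠ 7) (h6 : src ≠ 24) (h7 : cur ≠ 24) (h8 : dst ≠ 24)
    (hlen : ∀ M' : Mem, (∀ a, a ≠ dst → a ≠ 7 → M' a = M a) → len.val M' = k)
    (hk : k ≤ Λ) (hW : k ≤ W) :
    Det W Λ (pickC dst src cur len) M
      (fun M' => M' dst 0 0 = (pick (fun l => M src l 0 - M cur l 0) k : ℕ)) := by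
  have warr : ∀ (M' : Mem) (a b : ℕ) (i j z : ℤ), b ≠ a → M'.write a i j z b = M' b := by
    intro M' a b i j z h
    funext x y
    simp [Mem.write, h]
  have wself : ∀ (M' : Mem) (a : ℕ) (i j z : ℤ), M'.write a i j z a i j = z := by
    intro M' a i j z
    simp [Mem.write]
  unfold pickC asg
  refine Det.seq (R := fun M' => (∀ a, a ≠ dst → a ≠ 7 → a ≠ 24 → M' a = M a) ∧
    (∀ a, a ≠ dst → a ≠ 7 → M' a = M a) ∧ M' dst 0 0 = 0) (Det.set (by simp [Expr.val]) ?_) ?_
  · simp only [Expr.val]
    refine ⟨fun a ha _ _ => warr _ _ _ _ _ _ ha, fun a ha _ => warr _ _ _ _ _ _ ha,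
      wself _ _ _ _ _⟩
  rintro M1 ⟨q1, q2, q3⟩
  refine Det.seq (R := fun M' => (∀ a, a ≠ dst → a ≠ 7 → a ≠ 24 → M' a = M a) ∧
    (∀ a, a ≠ dst → a ≠ 7 → M' a = M a) ∧ M' dst 0 0 = 0 ∧ M' 7 0 0 = 0)
    (Det.set (by simp [Expr.val]) ?_) ?_
  · simp only [Expr.val]
    refine ⟨fun a ha hb hc => ?_, fun a ha hb => ?_, ?_, wself _ _ _ _ _⟩
    · rw [warr _ _ _ _ _ _ hb]; exact q1 a ha hb hc
    · rw [warr _ _ _ _ _ _ hb]; exact q2 a ha hb
    · rw [warr _ _ _ _ _ _ h1]; exact q3
  rintro M2 ⟨q1, q2, q3, q4⟩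
  refine Det.rep (fun (l : ℕ) (M' : Mem) => (∀ a, a ≠ dst → a ≠ 7 → a ≠ 24 → M' a = M a) ∧
    M' 7 0 0 = (l : ℤ) ∧ M' dst 0 0 = (pick (fun l => M src l 0 - M cur l 0) l : ℕ)) k
    (by rw [hlen M2 q2]; simp) hk ⟨q1, by simpa using q4, by simpa [pick] using q3⟩ ?_
    (fun M' h => h.2.2)
  rintro l hl M3 ⟨e1, e2, e3⟩
  have hlW : |(l : ℤ)| ≤ (W : ℤ) := by
    rw [abs_of_nonneg (by positivity)]
    exact_mod_cast (by omega : l ≤ W)
  refine Det.seq (R := fun M' => (∀ a, a ≠ dst → a ≠ 7 → a ≠ 24 → M' a = M a) ∧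
    M' 7 0 0 = (l : ℤ) ∧ M' dst 0 0 = (pick (fun l => M src l 0 - M cur l 0) (l + 1) : ℕ)) ?_ ?_
  · have hv : (Expr.sub (at1 src (v 7)) (at1 cur (v 7))).val M3 =
        M src (l : ℤ) 0 - M cur (l : ℤ) 0 := by
      simp only [Expr.val, at1, v]
      rw [e2, e1 src h2.symm h4 h6, e1 cur h3.symm h5 h7]
    refine Det.ite (fun h => ?_) (fun h => ?_)
    · rw [hv] at h
      refine Det.set ?_ ?_
      · simp only [Expr.val, v]
        rw [e2]
        exact hlW
      · simp only [Expr.val, v]
        rw [e2]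
        refine ⟨fun a ha hb hc => ?_, ?_, ?_⟩
        · rw [warr _ _ _ _ _ _ ha]; exact e1 a ha hb hc
        · rw [warr _ _ _ _ _ _ h1.symm]; exact e2
        · rw [wself]
          simp only [pick]
          rw [if_pos h]
    · rw [hv] at h
      unfold skip asg
      refine Det.set (by simp [Expr.val]) ?_
      simp only [Expr.val]
      refine ⟨fun a ha hb hc => ?_, ?_, ?_⟩
      · rw [warr _ _ _ _ _ _ hc]; exact e1 a ha hb hc
      · rw [warr _ _ _ _ _ _ (by norm_num)]; exact e2
      · rw [warr _ _ _ _ _ _ h8]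
        simp only [pick]
        rw [if_neg (not_lt.2 h)]
        exact e3
  · rintro M4 ⟨f1, f2, f3⟩
    unfold inc asg
    have hv : (Expr.add (v 7) (.lit 1)).val M4 = (l : ℤ) + 1 := by
      simp only [Expr.val, v]
      rw [f2]
    refine Det.set ?_ ?_
    · rw [hv, abs_of_nonneg (by positivity)]
      exact_mod_cast (by omega : l + 1 ≤ W)
    · rw [hv]
      simp only [Expr.val]
      refine ⟨fun a ha hb hc => ?_, ?_, ?_⟩
      · rw [warr _ _ _ _ _ _ hb]; exact f1 a ha hb hc
      · rw [wself]; push_cast; rfl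
      · rw [warr _ _ _ _ _ _ h1]; exact f3

theorem seqM_nonneg {r : ℕ → ℤ} {len k : ℕ} (i : ℕ) : 0 ≤ seqM r len k i := by
  induction k generalizing i with
  | zero => simp [seqM]
  | succ k ih =>
      simp only [seqM]
      split_ifs
      · have := ih i
        linarith
      · exact ih i

theorem seqM_succ (r : ℕ → ℤ) (len k i : ℕ) :
    seqM r len (k + 1) i = seqM r len k i + if i = nextLine r len k then 1 else 0 := by
  have h0 : seqM r len (k + 1) i =
      if i = nextLine r len k then seqM r len k i + 1 else seqM r len k i := rfl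
  rw [h0]
  by_cases h : i = nextLine r len k
  · rw [if_pos h, if_pos h]
  · rw [if_neg h, if_neg h, add_zero]

theorem seqM_all {r : ℕ → ℤ} {len : ℕ} (hr : ∀ i < len, 0 ≤ r i) {N : ℕ}
    (hN : ∑ i ∈ Finset.range len, r i = N) {k : ℕ} (hk : k ≤ N) :
    (∀ i < len, seqM r len k i ≤ r i) ∧ (∑ i ∈ Finset.range len, seqM r len k i = k) ∧
      (∀ i, len ≤ i → seqM r len k i = 0) ∧
      (k < N → nextLine r len k < len ∧
        0 < r (nextLine r len k) - seqM r len k (nextLine r len k)) := by
  induction k with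
  | zero =>
      refine ⟨fun i hi => by simpa [seqM] using hr i hi, by simp [seqM], fun i _ => by simp [seqM],
        fun h => ?_⟩
      unfold nextLine
      refine pick_spec ?_
      by_contra hcon
      push Not at hcon
      have h1 : ∑ i ∈ Finset.range len, r i ≤ 0 := by
        refine Finset.sum_nonpos fun i hi => ?_
        have := hcon i (Finset.mem_range.1 hi)
        simpa [seqM] using this
      rw [hN] at h1
      have : (0 : ℤ) < (N : ℤ) := by exact_mod_cast h
      linarith
  | succ k ih =>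
      obtain ⟨i1, i2, i3, i4⟩ := ih (by omega)
      obtain ⟨j1, j2⟩ := i4 (by omega)
      have a1 : ∀ i < len, seqM r len (k + 1) i ≤ r i := by
        intro i hi
        rw [seqM_succ]
        split_ifs with h
        · rw [h]
          linarith
        · have := i1 i hi
          linarith
      have a2 : ∑ i ∈ Finset.range len, seqM r len (k + 1) i = ((k + 1 : ℕ) : ℤ) := by
        simp only [seqM_succ]
        rw [Finset.sum_add_distrib, i2, Finset.sum_ite_eq' (Finset.range len),
          if_pos (Finset.mem_range.2 j1)]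
        push_cast
        ring
      have a3 : ∀ i, len ≤ i → seqM r len (k + 1) i = 0 := by
        intro i hi
        rw [seqM_succ, i3 i hi, if_neg (by omega)]
        simp
      refine ⟨a1, a2, a3, fun h => ?_⟩
      unfold nextLine
      refine pick_spec ?_
      by_contra hcon
      push Not at hcon
      have h1 : ∑ i ∈ Finset.range len, (r i - seqM r len (k + 1) i) ≤ 0 :=
        Finset.sum_nonpos fun i hi => hcon i (Finset.mem_range.1 hi)
      rw [Finset.sum_sub_distrib, hN, a2] at h1
      have : ((k + 1 : ℕ) : ℤ) < (N : ℤ) := by exact_mod_cast h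
      linarith

theorem seqM_le {r : ℕ → ℤ} {len : ℕ} (hr : ∀ i < len, 0 ≤ r i) {N : ℕ}
    (hN : ∑ i ∈ Finset.range len, r i = N) {k : ℕ} (hk : k ≤ N) {i : ℕ} (hi : i < len) :
    seqM r len k i ≤ r i := (seqM_all hr hN hk).1 i hi

theorem seqM_sum {r : ℕ → ℤ} {len : ℕ} (hr : ∀ i < len, 0 ≤ r i) {N : ℕ}
    (hN : ∑ i ∈ Finset.range len, r i = N) {k : ℕ} (hk : k ≤ N) :
    ∑ i ∈ Finset.range len, seqM r len k i = k := (seqM_all hr hN hk).2.1

theorem nextLine_spec {r : ℕ → ℤ} {len : ℕ} (hr : ∀ i < len, 0 ≤ r i) {N : ℕ}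
    (hN : ∑ i ∈ Finset.range len, r i = N) {k : ℕ} (hk : k < N) :
    nextLine r len k < len ∧ 0 < r (nextLine r len k) - seqM r len k (nextLine r len k) :=
  (seqM_all hr hN hk.le).2.2.2 hk

theorem seqM_last {r : ℕ → ℤ} {len : ℕ} (hr : ∀ i < len, 0 ≤ r i) {N : ℕ}
    (hN : ∑ i ∈ Finset.range len, r i = N) {i : ℕ} (hi : i < len) :
    seqM r len N i = r i := by
  obtain ⟨h1, h2, -, -⟩ := seqM_all hr hN le_rfl
  have h3 : ∑ i ∈ Finset.range len, (r i - seqM r len N i) = 0 := by
    rw [Finset.sum_sub_distrib, hN, h2, sub_self]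
  have h4 := (Finset.sum_eq_zero_iff_of_nonneg (fun i hi => by
    have := h1 i (Finset.mem_range.1 hi)
    linarith)).1 h3 i (Finset.mem_range.2 hi)
  linarith

theorem seqM_out {r : ℕ → ℤ} {len : ℕ} (hr : ∀ i < len, 0 ≤ r i) {N : ℕ}
    (hN : ∑ i ∈ Finset.range len, r i = N) {k : ℕ} (hk : k ≤ N) {i : ℕ} (hi : len ≤ i) :
    seqM r len k i = 0 := (seqM_all hr hN hk).2.2.1 i hi

/-- The default table is a contingency table. -/
theorem defTab_mem (hr : ∀ i < m, 0 ≤ r i) (hc : ∀ j < n, 0 ≤ c j) {N : ℕ}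
    (hN : ∑ i ∈ Finset.range m, r i = N) (hN' : ∑ j ∈ Finset.range n, c j = N) :
    defTab m n r c N ∈ Omega m n r c := by
  have key : ∀ k ≤ N, (∀ e, 0 ≤ defTab m n r c k e) ∧
      (∀ i : Fin m, rowSum (defTab m n r c k) i = seqM r m k i) ∧
      (∀ j : Fin n, colSum (defTab m n r c k) j = seqM c n k j) := by
    intro k
    induction k with
    | zero =>
        intro _
        refine ⟨fun e => by simp [defTab], fun i => by simp [defTab, rowSum, seqM],
          fun j => by simp [defTab, colSum, seqM]⟩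
    | succ k ih =>
        intro hk
        obtain ⟨i1, i2, i3⟩ := ih (by omega)
        obtain ⟨hm', -⟩ := nextLine_spec hr hN (k := k) (by omega)
        obtain ⟨hn', -⟩ := nextLine_spec hc hN' (k := k) (by omega)
        refine ⟨fun e => ?_, fun i => ?_, fun j => ?_⟩
        · simp only [defTab, addUnit]
          have := i1 e
          split_ifs <;> linarith
        · have h1 := i2 i
          rw [seqM_succ, ← h1]
          simp only [rowSum, defTab, addUnit]
          rw [Finset.sum_add_distrib]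
          congr 1
          by_cases h : (i : ℕ) = nextLine r m k
          · rw [if_pos h]
            simp only [h, true_and]
            rw [Finset.sum_eq_single (⟨nextLine c n k, hn'⟩ : Fin n)]
            · simp
            · intro b _ hb
              rw [if_neg]
              intro hb'
              exact hb (Fin.ext hb')
            · intro hb
              exact absurd (Finset.mem_univ _) hb
          · rw [if_neg h]
            simp [h]
        · have h1 := i3 j
          rw [seqM_succ, ← h1]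
          simp only [colSum, defTab, addUnit]
          rw [Finset.sum_add_distrib]
          congr 1
          by_cases h : (j : ℕ) = nextLine c n k
          · rw [if_pos h]
            simp only [h, and_true]
            rw [Finset.sum_eq_single (⟨nextLine r m k, hm'⟩ : Fin m)]
            · simp
            · intro b _ hb
              rw [if_neg]
              intro hb'
              exact hb (Fin.ext hb')
            · intro hb
              exact absurd (Finset.mem_univ _) hb
          · rw [if_neg h]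
            simp [h]
  obtain ⟨k1, k2, k3⟩ := key N le_rfl
  refine ⟨k1, fun i => ?_, fun j => ?_⟩
  · rw [k2 i, seqM_last hr hN i.2]
  · rw [k3 j, seqM_last hc hN' j.2]

end Vale.Agent.P328RAM
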