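import Vale.Agent.P328R.Sched
import Vale.Agent.P328RAM.Geo

/-!
# The schedule of the phases

41 `RR[k, i]`, 42 `CC[k, j]` margins of the phase `k`, 43 `IN[k]`, scalars 40 `inc`, 49 `k`,
50 `P`, 51 `max m n`.
-/

namespace Vale.Agent.P328RAM

open Vale.Agent.P328R

variable {W Λ : ℕ} (p : Par) {m n : ℕ} (g : Mg)

/-- `for i < n do A[κ, i] := e` -/
def Cmd.rowSet (A i κ : ℕ) (n e : Expr) : Cmd := .forL i n (.set A (.v κ) (.v i) e)

@[simp] theorem Cmd.Wr_rowSet (A i κ : ℕ) (n e : Expr) : (Cmd.rowSet A i κ n e).Wr = [i, A, i] :=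
  rfl

theorem Det.rowSet {M : Mem} {A i κ : ℕ} {en e : Expr} (n k : ℕ) (F : ℕ → ℤ) (hAi : A ≠ i)
    (hκi : κ ≠ i) (hκA : κ ≠ A) (hk : M κ 0 0 = k) (hΛ : n ≤ Λ) (hnW : n ≤ W)
    (hF : ∀ l < n, |F l| ≤ (W : ℤ)) (hn : ∀ M', Same [A, i] M M' → (en.val M').toNat = n)
    (he : ∀ l < n, ∀ M', Same [A, i] M M' → M' i 0 0 = (l : ℤ) → e.val M' = F l) :
    Det W Λ (.rowSet A i κ en e) M (fun M' => (∀ l : ℕ, l < n → M' A k l = F l) ∧
      (∀ k' l : ℤ, k' ≠ k → M' A k' l = M A k' l) ∧ Same [A, i] M M') := by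
  refine Det.forL (fun r M' => (∀ l : ℕ, l < r → M' A k l = F l) ∧
      (∀ k' l : ℤ, k' ≠ k → M' A k' l = M A k' l) ∧ Same [A, i] M M')
    n ?_ hΛ hnW ?_ ?_ ⟨fun l hl => absurd hl (Nat.not_lt_zero _), fun _ _ _ => rfl,
      Same.refl _ _⟩ ?_ (fun M' _ h => h)
  · exact hn _ ((Same.refl _ _).write (by simp) _ _ _)
  · simp [hAi.symm]
  · rintro l M' z ⟨g1, g2, g3⟩
    refine ⟨?_, ?_, g3.write (by simp) _ _ _⟩
    · intro l' hl'
      rw [Mem.write_arr _ hAi]; exact g1 l' hl'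
    · intro k' l' h
      rw [Mem.write_arr _ hAi]; exact g2 k' l' h
  · rintro l hl M' g0 ⟨g1, g2, g3⟩
    have hv : e.val M' = F l := he l hl M' g3 g0
    have hi : (Expr.v i).val M' = (l : ℤ) := by simp [Expr.val, g0]
    have hκ : (Expr.v κ).val M' = (k : ℤ) := by
      simp [Expr.val, g3 κ (by simp [hκi, hκA]), hk]
    refine Det.set ?_ ?_
    · rw [hv]; exact hF l hl
    · rw [hv, hi, hκ]
      refine ⟨?_, ?_, g3.write (by simp) _ _ _⟩
      · intro l' hl'
        by_cases h : l' = l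
        · subst h; simp
        · rw [Mem.write_cell _ _ (by omega)]; exact g1 l' (by omega)
      · intro k' l' h
        rw [Mem.write_cell _ _ (by omega)]; exact g2 k' l' h

namespace G

/-- scalar 40 := `inc` -/
def incC : Cmd :=
  .seq (.minv 35 (.at1 5 (.v 22)) (.at1 6 (.v 23)))
    (.ite (.v 35) (.maxv 40 (.lit 1) (.div (.v 35) (.v 51))) (.setv 40 (.lit 0)))

/-- one round of the computation of the schedule -/
def schedRound : Cmd :=
  .seq (.rowSet 41 7 49 em (.at1 5 (.v 7)))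
  (.seq (.rowSet 42 8 49 en (.at1 6 (.v 8)))
  (.seq (.argmax 22 7 5 em) (.seq (.argmax 23 8 6 en)
  (.seq incC (.seq (.set 43 (.v 49) (.lit 0) (.v 40))
  (.seq (.set 5 (.v 22) (.lit 0) (.sub (.at1 5 (.v 22)) (.v 40)))
        (.set 6 (.v 23) (.lit 0) (.sub (.at1 6 (.v 23)) (.v 40)))))))))

/-- the schedule -/
def schedC : Cmd :=
  .seq (.arr1 5 7 em (.at1 1 (.v 7))) (.seq (.arr1 6 8 en (.at1 2 (.v 8)))
   (.forL 49 (.v 50) schedRound))

/-- load the margins of the phase 49 -/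
def loadC : Cmd :=
  .seq (.arr1 5 7 em (.get 41 (.v 49) (.v 7))) (.arr1 6 8 en (.get 42 (.v 49) (.v 8)))

end G

/-- the schedule is stored for the phases below `P` -/
structure SchedOK (m n P : ℕ) (M : Mem) : Prop where
  RR : ∀ k : ℕ, k < P → ∀ i : ℕ, i < m → M 41 k i = (mg m n g k).r i
  CC : ∀ k : ℕ, k < P → ∀ j : ℕ, j < n → M 42 k j = (mg m n g k).c j
  IN : ∀ k : ℕ, k < P → M 43 k 0 = inc m n (mg m n g k)

theorem SchedOK.same {P : ℕ} {M M' : Mem} {L : List ℕ} (h : SchedOK g m n P M) (hs : Same L M M')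
    (hL : 41 ∉ L ∧ 42 ∉ L ∧ 43 ∉ L) : SchedOK g m n P M' := by
  obtain ⟨h1, h2, h3⟩ := hL
  refine ⟨?_, ?_, ?_⟩
  · intro k hk i hi; rw [hs 41 h1]; exact h.RR k hk i hi
  · intro k hk i hi; rw [hs 42 h2]; exact h.CC k hk i hi
  · intro k hk; rw [hs 43 h3]; exact h.IN k hk

theorem incC_det {M : Mem} (hv : Valid m n g) (h5 : ∀ i : ℕ, i < m → M 5 i 0 = g.r i)
    (h6 : ∀ j : ℕ, j < n → M 6 j 0 = g.c j) (h22 : M 22 0 0 = (is m g : ℤ))
    (h23 : M 23 0 0 = (js n g : ℤ)) (h51 : M 51 0 0 = (max m n : ℕ)) (hW1 : 1 ≤ W) :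
    Det W Λ G.incC M (fun M' => M' 40 0 0 = inc m n g ∧ Same [35, 40] M M') := by
  refine Det.bdd fun hB => ?_
  have hW1' : (1 : ℤ) ≤ W := by exact_mod_cast hW1
  have e1 : (Expr.at1 5 (.v 22)).val M = g.r (is m g) := by
    simp only [Expr.val, h22]
    exact h5 _ hv.is_lt
  have e2 : (Expr.at1 6 (.v 23)).val M = g.c (js n g) := by
    simp only [Expr.val, h23]
    exact h6 _ hv.js_lt
  have hsc0 : 0 ≤ sc g (is m g) (js n g) := le_min hv.r_is_nonneg hv.c_js_nonneg
  have hscW : sc g (is m g) (js n g) ≤ W := by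
    have h1 := hB 5 (is m g) 0
    rw [h5 _ hv.is_lt] at h1
    exact (min_le_left _ _).trans ((le_abs_self _).trans h1)
  refine Det.seq (R := fun M' => M' 35 0 0 = sc g (is m g) (js n g) ∧ Same [35] M M')
    (Det.minv ?_ ?_) ?_
  · rw [e1, e2]
    change |sc g (is m g) (js n g)| ≤ _
    rw [abs_of_nonneg hsc0]; exact hscW
  · rw [e1, e2]
    exact ⟨by simp [sc], (Same.refl _ _).write (by simp) _ _ _⟩
  rintro M1 ⟨g1, g2⟩
  have hv35 : (Expr.v 35).val M1 = sc g (is m g) (js n g) := by simp [Expr.val, g1]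
  have hdiv : (Expr.div (.v 35) (.v 51)).val M1 = sc g (is m g) (js n g) / (max m n : ℕ) := by
    simp only [Expr.val, g1, g2 51 (by decide), h51]
  refine Det.ite (fun h => ?_) (fun h => ?_)
  · rw [hv35] at h
    have hinc : max ((Expr.lit 1).val M1) ((Expr.div (.v 35) (.v 51)).val M1) = inc m n g := by
      rw [hdiv]
      unfold inc
      rw [if_pos h]
      rfl
    refine Det.maxv ?_ ?_
    · rw [hinc, abs_of_nonneg (inc_nonneg (g := g))]
      exact (hv.inc_le).trans hscW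
    · rw [hinc]
      exact ⟨by simp, (g2.mono (by decide)).write (by decide) _ _ _⟩
  · rw [hv35] at h
    refine Det.setv (by simp [Expr.val]) ?_
    refine ⟨?_, (g2.mono (by decide)).write (by decide) _ _ _⟩
    simp only [Mem.write_self, Expr.val]
    unfold inc
    rw [if_neg (by omega)]

theorem schedRound_det {M : Mem} {k : ℕ} (hv : Valid m n g) (hm : M 0 0 0 = m) (hn : M 0 1 0 = n)
    (hk : M 49 0 0 = k)
    (h5 : ∀ i : ℕ, i < m → M 5 i 0 = (mg m n g k).r i)
    (h6 : ∀ j : ℕ, j < n → M 6 j 0 = (mg m n g k).c j)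
    (h51 : M 51 0 0 = (max m n : ℕ)) (hW1 : 1 ≤ W) (hmW : m ≤ Λ ∧ m ≤ W) (hnW : n ≤ Λ ∧ n ≤ W)
    (hS : SchedOK g m n k M) :
    Det W Λ G.schedRound M (fun M' => SchedOK g m n (k + 1) M' ∧
      (∀ i : ℕ, i < m → M' 5 i 0 = (mg m n g (k + 1)).r i) ∧
      (∀ j : ℕ, j < n → M' 6 j 0 = (mg m n g (k + 1)).c j) ∧
      Same [5, 6, 7, 8, 22, 23, 35, 40, 41, 42, 43] M M') := by
  refine Det.bdd fun hB => ?_
  have hvk := hv.mg k
  -- store the row margins
  refine Det.seq (Det.rowSet m k (fun i => (mg m n g k).r i) (by decide) (by decide) (by decide)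
    hk hmW.1 hmW.2 ?_ ?_ ?_) ?_
  · intro l hl; rw [← h5 l hl]; exact hB 5 l 0
  · intro M' h; simp [G.em, Expr.val, h 0 (by decide), hm]
  · intro l hl M' h h7
    simp only [Expr.val, h7, h 5 (by decide)]
    exact h5 l hl
  rintro M1 ⟨a1, a2, a3⟩
  -- store the column margins
  refine Det.seq (Det.rowSet n k (fun j => (mg m n g k).c j) (by decide) (by decide) (by decide)
    (by rw [a3 49 (by decide)]; exact hk) hnW.1 hnW.2 ?_ ?_ ?_) ?_
  · intro l hl; rw [← h6 l hl]; exact hB 6 l 0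
  · intro M' h; simp [G.en, Expr.val, h 0 (by decide), a3 0 (by decide), hn]
  · intro l hl M' h h8
    simp only [Expr.val, h8, h 6 (by decide), a3 6 (by decide)]
    exact h6 l hl
  rintro M2 ⟨b1, b2, b3⟩
  have s2 : Same [7, 8, 41, 42] M M2 := (a3.mono (by decide)).trans (b3.mono (by decide))
  -- argmax
  refine Det.seq (Det.argmax m (mg m n g k).r (by decide) (by decide) (by decide) hmW.1 hmW.2
    ?_ ?_) ?_
  · intro i hi; rw [s2 5 (by decide)]; exact h5 i hi
  · intro M' h; simp [G.em, Expr.val, h 0 (by decide), s2 0 (by decide), hm]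
  rintro M3 ⟨c1, c2⟩
  have s3 : Same [7, 8, 22, 41, 42] M M3 := (s2.mono (by decide)).trans (c2.mono (by decide))
  refine Det.seq (Det.argmax n (mg m n g k).c (by decide) (by decide) (by decide) hnW.1 hnW.2
    ?_ ?_) ?_
  · intro i hi; rw [s3 6 (by decide)]; exact h6 i hi
  · intro M' h; simp [G.en, Expr.val, h 0 (by decide), s3 0 (by decide), hn]
  rintro M4 ⟨d1, d2⟩
  have s4 : Same [7, 8, 22, 23, 41, 42] M M4 := (s3.mono (by decide)).trans (d2.mono (by decide))
  have c1' : M4 22 0 0 = (is m (mg m n g k) : ℤ) := by rw [d2 22 (by decide)]; exact c1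
  -- inc
  refine Det.seq (incC_det (mg m n g k) hvk ?_ ?_ c1' d1 ?_ hW1) ?_
  · intro i hi; rw [s4 5 (by decide)]; exact h5 i hi
  · intro i hi; rw [s4 6 (by decide)]; exact h6 i hi
  · rw [s4 51 (by decide)]; exact h51
  rintro M5 ⟨e1, e2⟩
  have s5 : Same [7, 8, 22, 23, 35, 40, 41, 42] M M5 :=
    (s4.mono (by decide)).trans (e2.mono (by decide))
  have hincW : |inc m n (mg m n g k)| ≤ (W : ℤ) := by
    have hle := hvk.inc_le_r
    have h0 := inc_nonneg (m := m) (n := n) (g := mg m n g k)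
    rw [abs_of_nonneg h0]
    have h1 := hB 5 (is m (mg m n g k)) 0
    rw [h5 _ hvk.is_lt] at h1
    exact hle.trans ((le_abs_self _).trans h1)
  -- store inc
  refine Det.seq (R := fun M' => M' = M5.write 43 k 0 (inc m n (mg m n g k))) (Det.set ?_ ?_) ?_
  · simp only [Expr.val, e1]; exact hincW
  · simp only [Expr.val, e1, s5 49 (by decide), hk]
  rintro M6 rfl
  have s6 : Same [7, 8, 22, 23, 35, 40, 41, 42, 43] M
      (M5.write 43 k 0 (inc m n (mg m n g k))) := (s5.mono (by decide)).write (by decide) _ _ _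
  set M6 := M5.write 43 k 0 (inc m n (mg m n g k)) with hM6
  have f40 : M6 40 0 0 = inc m n (mg m n g k) := by
    rw [hM6, Mem.write_arr _ (by decide)]; exact e1
  have f22 : M6 22 0 0 = (is m (mg m n g k) : ℤ) := by
    rw [hM6, Mem.write_arr _ (by decide), e2 22 (by decide)]; exact c1'
  have f23 : M6 23 0 0 = (js n (mg m n g k) : ℤ) := by
    rw [hM6, Mem.write_arr _ (by decide), e2 23 (by decide)]; exact d1
  have f5 : ∀ i : ℕ, i < m → M6 5 i 0 = (mg m n g k).r i := fun i hi => by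
    rw [s6 5 (by decide)]; exact h5 i hi
  have f6 : ∀ i : ℕ, i < n → M6 6 i 0 = (mg m n g k).c i := fun i hi => by
    rw [s6 6 (by decide)]; exact h6 i hi
  -- subtract in the row
  have hval5 : (Expr.sub (.at1 5 (.v 22)) (.v 40)).val M6
      = (mg m n g k).r (is m (mg m n g k)) - inc m n (mg m n g k) := by
    simp only [Expr.val, f22, f40]
    rw [f5 _ hvk.is_lt]
  refine Det.seq (R := fun M' => M' = M6.write 5 (is m (mg m n g k)) 0
      ((mg m n g k).r (is m (mg m n g k)) - inc m n (mg m n g k))) (Det.set ?_ ?_) ?_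
  · rw [hval5]
    have hle := hvk.inc_le_r
    have h0 := inc_nonneg (m := m) (n := n) (g := mg m n g k)
    rw [abs_of_nonneg (by omega)]
    have h1 := hB 5 (is m (mg m n g k)) 0
    rw [h5 _ hvk.is_lt] at h1
    have h2 := (le_abs_self _).trans h1
    omega
  · rw [hval5]
    simp only [Expr.val, f22]
  rintro M7 rfl
  set M7 := M6.write 5 (is m (mg m n g k)) 0
      ((mg m n g k).r (is m (mg m n g k)) - inc m n (mg m n g k)) with hM7
  have s7 : Same [5, 7, 8, 22, 23, 35, 40, 41, 42, 43] M M7 :=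
    (s6.mono (by decide)).write (by decide) _ _ _
  have q40 : M7 40 0 0 = inc m n (mg m n g k) := by
    rw [hM7, Mem.write_arr _ (by decide)]; exact f40
  have q23 : M7 23 0 0 = (js n (mg m n g k) : ℤ) := by
    rw [hM7, Mem.write_arr _ (by decide)]; exact f23
  have q6 : ∀ i : ℕ, i < n → M7 6 i 0 = (mg m n g k).c i := fun i hi => by
    rw [s7 6 (by decide)]; exact h6 i hi
  have hval6 : (Expr.sub (.at1 6 (.v 23)) (.v 40)).val M7
      = (mg m n g k).c (js n (mg m n g k)) - inc m n (mg m n g k) := by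
    simp only [Expr.val, q23, q40]
    rw [q6 _ hvk.js_lt]
  refine Det.set ?_ ?_
  · rw [hval6]
    have hle := hvk.inc_le_c
    have h0 := inc_nonneg (m := m) (n := n) (g := mg m n g k)
    rw [abs_of_nonneg (by omega)]
    have h1 := hB 6 (js n (mg m n g k)) 0
    rw [h6 _ hvk.js_lt] at h1
    have h2 := (le_abs_self _).trans h1
    omega
  · rw [hval6]
    simp only [Expr.val, q23]
    have s8 : Same [5, 6, 7, 8, 22, 23, 35, 40, 41, 42, 43] M
        (M7.write 6 (js n (mg m n g k)) 0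
          ((mg m n g k).c (js n (mg m n g k)) - inc m n (mg m n g k))) :=
      (s7.mono (by decide)).write (by decide) _ _ _
    refine ⟨⟨?_, ?_, ?_⟩, ?_, ?_, s8⟩
    · intro k' hk' i hi
      rw [Mem.write_arr _ (by decide), hM7, Mem.write_arr _ (by decide), hM6,
        Mem.write_arr _ (by decide), e2 41 (by decide), d2 41 (by decide), c2 41 (by decide),
        b3 41 (by decide)]
      by_cases h : k' = k
      · subst h; exact a1 i hi
      · rw [a2 _ _ (by omega)]; exact hS.RR k' (by omega) i hi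
    · intro k' hk' j hj
      rw [Mem.write_arr _ (by decide), hM7, Mem.write_arr _ (by decide), hM6,
        Mem.write_arr _ (by decide), e2 42 (by decide), d2 42 (by decide), c2 42 (by decide)]
      by_cases h : k' = k
      · subst h; exact b1 j hj
      · rw [b2 _ _ (by omega), a3 42 (by decide)]; exact hS.CC k' (by omega) j hj
    · intro k' hk'
      rw [Mem.write_arr _ (by decide), hM7, Mem.write_arr _ (by decide), hM6]
      by_cases h : k' = k
      · subst h; simp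
      · rw [Mem.write_cell _ _ (by omega), s5 43 (by decide)]; exact hS.IN k' (by omega)
    · intro i hi
      rw [Mem.write_arr _ (by decide), hM7, mg_succ]
      simp only [down]
      by_cases h : i = is m (mg m n g k)
      · subst h
        rw [if_pos rfl, Mem.write_self]
      · rw [if_neg h, sub_zero, Mem.write_cell _ _ (by omega)]
        exact f5 i hi
    · intro j hj
      rw [mg_succ]
      simp only [down]
      by_cases h : j = js n (mg m n g k)
      · subst h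
        rw [if_pos rfl, Mem.write_self]
      · rw [if_neg h, sub_zero, Mem.write_cell _ _ (by omega)]
        exact q6 j hj

/-- **The schedule routine.** -/
theorem schedC_det {M : Mem} {P : ℕ} (hv : Valid m n g) (hm : M 0 0 0 = m) (hn : M 0 1 0 = n)
    (hP : M 50 0 0 = P) (h1 : ∀ i : ℕ, i < m → M 1 i 0 = g.r i)
    (h2 : ∀ j : ℕ, j < n → M 2 j 0 = g.c j)
    (h51 : M 51 0 0 = (max m n : ℕ)) (hW1 : 1 ≤ W) (hmW : m ≤ Λ ∧ m ≤ W) (hnW : n ≤ Λ ∧ n ≤ W)
    (hPW : P ≤ Λ ∧ P ≤ W) :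
    Det W Λ G.schedC M (fun M' => SchedOK g m n P M' ∧
      Same [5, 6, 7, 8, 22, 23, 35, 40, 41, 42, 43, 49] M M') := by
  refine Det.bdd fun hB => ?_
  refine Det.seq (Det.arr1 m g.r (by decide) hmW.1 hmW.2 ?_ ?_ ?_) ?_
  · intro k hk; rw [← h1 k hk]; exact hB 1 k 0
  · intro M' h; simp [G.em, Expr.val, h 0 (by decide), hm]
  · intro k hk M' h h7 _
    simp only [Expr.val, h7, h 1 (by decide)]
    exact h1 k hk
  rintro M1 ⟨a1, -, a3⟩
  refine Det.seq (Det.arr1 n g.c (by decide) hnW.1 hnW.2 ?_ ?_ ?_) ?_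
  · intro k hk; rw [← h2 k hk]; exact hB 2 k 0
  · intro M' h; simp [G.en, Expr.val, h 0 (by decide), a3 0 (by decide), hn]
  · intro k hk M' h h8 _
    simp only [Expr.val, h8, h 2 (by decide), a3 2 (by decide)]
    exact h2 k hk
  rintro M2 ⟨b1, -, b3⟩
  have s2 : Same [5, 6, 7, 8] M M2 := (a3.mono (by decide)).trans (b3.mono (by decide))
  refine Det.forL (fun k M' => SchedOK g m n k M' ∧
      (∀ i : ℕ, i < m → M' 5 i 0 = (mg m n g k).r i) ∧
      (∀ j : ℕ, j < n → M' 6 j 0 = (mg m n g k).c j) ∧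
      Same [5, 6, 7, 8, 22, 23, 35, 40, 41, 42, 43, 49] M M') P ?_ hPW.1 hPW.2 ?_ ?_ ?_ ?_ ?_
  · simp [Expr.val, Mem.write, s2 50 (by decide), hP]
  · decide
  · rintro k M' z ⟨c1, c2, c3, c4⟩
    refine ⟨?_, ?_, ?_, c4.write (by decide) _ _ _⟩
    · exact c1.same g ((Same.refl [49] M').write (by decide) _ _ _) (by decide)
    · intro i hi; rw [Mem.write_arr _ (by decide)]; exact c2 i hi
    · intro i hi; rw [Mem.write_arr _ (by decide)]; exact c3 i hi
  · refine ⟨⟨?_, ?_, ?_⟩, ?_, ?_, s2.mono (by decide)⟩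
    · intro k hk; omega
    · intro k hk; omega
    · intro k hk; omega
    · intro i hi
      rw [b3 5 (by decide)]; exact a1 i hi
    · intro j hj
      exact b1 j hj
  · rintro k hk M' h49 ⟨c1, c2, c3, c4⟩
    refine (schedRound_det g hv ?_ ?_ h49 c2 c3 ?_ hW1 hmW hnW c1).mono ?_
    · rw [c4 0 (by decide)]; exact hm
    · rw [c4 0 (by decide)]; exact hn
    · rw [c4 51 (by decide)]; exact h51
    · rintro M'' ⟨d1, d2, d3, d4⟩
      exact ⟨d1, d2, d3, c4.trans (d4.mono (by decide))⟩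
  · rintro M' - ⟨c1, -, -, c4⟩
    exact ⟨c1, c4⟩

/-- load the margins of the phase `k` -/
theorem loadC_det {M : Mem} {P k : ℕ} (hm : M 0 0 0 = m) (hn : M 0 1 0 = n)
    (hk : M 49 0 0 = k) (hkP : k < P) (hS : SchedOK g m n P M)
    (hmW : m ≤ Λ ∧ m ≤ W) (hnW : n ≤ Λ ∧ n ≤ W) :
    Det W Λ G.loadC M (fun M' => (∀ i : ℕ, i < m → M' 5 i 0 = (mg m n g k).r i) ∧
      (∀ j : ℕ, j < n → M' 6 j 0 = (mg m n g k).c j) ∧ Same [5, 6, 7, 8] M M') := by
  refine Det.bdd fun hB => ?_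
  refine Det.seq (Det.arr1 m (mg m n g k).r (by decide) hmW.1 hmW.2 ?_ ?_ ?_) ?_
  · intro i hi; rw [← hS.RR k hkP i hi]; exact hB 41 k i
  · intro M' h; simp [G.em, Expr.val, h 0 (by decide), hm]
  · intro i hi M' h h7 _
    simp only [Expr.val, h7, h 41 (by decide), h 49 (by decide), hk]
    exact hS.RR k hkP i hi
  rintro M1 ⟨a1, -, a3⟩
  refine (Det.arr1 n (mg m n g k).c (by decide) hnW.1 hnW.2 ?_ ?_ ?_).mono ?_
  · intro i hi; rw [← hS.CC k hkP i hi]; exact hB 42 k i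
  · intro M' h; simp [G.en, Expr.val, h 0 (by decide), a3 0 (by decide), hn]
  · intro i hi M' h h8 _
    simp only [Expr.val, h8, h 42 (by decide), h 49 (by decide), a3 42 (by decide),
      a3 49 (by decide), hk]
    exact hS.CC k hkP i hi
  · rintro M' ⟨b1, -, b3⟩
    refine ⟨?_, b1, (a3.mono (by decide)).trans (b3.mono (by decide))⟩
    intro i hi
    rw [b3 5 (by decide)]; exact a1 i hi

end Vale.Agent.P328RAM
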