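import Vale.Agent.P328RAM.Rand
import Vale.Agent.P328RAM.Dev

namespace Vale.Agent.P328RAM

open P

variable {W Λ m n : ℕ} {M : Mem} {r c : ℕ → ℤ}

/-- sequencing after the random integer routine -/
theorem st_rand_seq {τ : Type} {x B : ℕ} (hx : x ≠ 15) (hx' : x ≠ 16) (hB : M 16 0 0 = B)
    (hW : 2 ^ B ≤ W) (hΛ : B ≤ Λ) {d : Cmd} {g : Mem → τ} {F : ℕ → PMF τ} {Q : Mem → Prop}
    (hd : ∀ k : ℕ, k < 2 ^ B → ∀ M' : Mem, M' x 0 0 = (k : ℤ) → (∀ a, a ≠ x → a ≠ 15 → M' a = M a) →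
      Sim W Λ d M' g (F k) Q) :
    Sim W Λ (.seq (rand x) d) M g ((unif B).bind F) Q := by
  have h1 := (rand_sim (W := W) (Λ := Λ) (M := M) hx hx' hB hW hΛ).fr
  have h0 : ((unif B).map fun k => (k : ℤ)) = (unif B).map (fun k : ℕ => (k : ℤ)) := by
    rw [show (fun k : ℤ => k) = id from rfl, PMF.map_id]
    rfl
  rw [h0] at h1
  have h2 : ((unif B).map fun k : ℕ => (k : ℤ)).bind (fun z => F z.toNat) = (unif B).bind F := by
    rw [PMF.bind_map]
    congr 1
  rw [← h2]
  refine Sim.seq h1 ?_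
  rintro M' ⟨⟨k, hk, hxk⟩, hfr⟩
  have h3 : (M' x 0 0).toNat = k := by
    rw [hxk, Int.toNat_natCast]
  simp only [h3]
  refine hd k hk M' hxk fun a ha ha' => hfr a ?_
  simp only [rand, asg, Cmd.Wr, List.mem_append, List.mem_singleton, not_or]
  exact ⟨ha, ha', ha⟩

theorem st_tab_congr {M M' : Mem} (h : M' 4 = M 4) : tabOf m n 4 M' = tabOf m n 4 M := by
  unfold tabOf
  rw [h]

theorem st_vec_congr {M M' : Mem} (h : M' 5 = M 5) : vecOf 5 M' = vecOf 5 M := by
  unfold vecOf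
  rw [h]

theorem st_tab_write (M : Mem) (i : Fin m) (j : Fin n) (z : ℤ) :
    tabOf m n 4 (M.write 4 (i : ℕ) (j : ℕ) z) = Function.update (tabOf m n 4 M) (i, j) z := by
  funext e
  unfold tabOf Mem.write
  by_cases h : e = (i, j)
  · subst h
    simp
  · rw [Function.update_of_ne h]
    have h2 : ¬ ((4 : ℕ) = 4 ∧ ((e.1 : ℕ) : ℤ) = ((i : ℕ) : ℤ) ∧ ((e.2 : ℕ) : ℤ) = ((j : ℕ) : ℤ)) := by
      rintro ⟨-, h3, h4⟩
      apply h
      ext
      · exact_mod_cast h3
      · exact_mod_cast h4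
    rw [if_neg h2]

/-- `addTo` -/
theorem st_addTo_det {p q : ℕ} {k : ℤ} {i : Fin m} {j : Fin n} (hp : M p 0 0 = ((i : ℕ) : ℤ))
    (hq : M q 0 0 = ((j : ℕ) : ℤ)) (hk : |tabOf m n 4 M (i, j) + k| ≤ (W : ℤ)) :
    Det W Λ (addTo 4 (v p) (v q) k) M
      (fun M' => M' = M.write 4 ((i : ℕ) : ℤ) ((j : ℕ) : ℤ) (tabOf m n 4 M (i, j) + k)) := by
  have e1 : (v p).val M = ((i : ℕ) : ℤ) := hp
  have e2 : (v q).val M = ((j : ℕ) : ℤ) := hq
  have e3 : (Expr.add (.get 4 (v p) (v q)) (.lit k)).val M = tabOf m n 4 M (i, j) + k := by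
    show M 4 ((v p).val M) ((v q).val M) + k = _
    rw [e1, e2]
    rfl
  unfold addTo
  refine Det.set ?_ ?_
  · rw [e3]
    exact hk
  · rw [e3, e1, e2]

theorem st_upd_mvt (X : Tab m n) (j : Fin n) (a b : Fin m) :
    Function.update (Function.update X (a, j) (X (a, j) + -1)) (b, j)
      (Function.update X (a, j) (X (a, j) + -1) (b, j) + 1) = mvt j a b X := by
  funext e
  unfold mvt
  by_cases h1 : e = (b, j)
  · subst h1
    rw [Function.update_self]
    by_cases h2 : (b, j) = (a, j)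
    · have h3 : b = a := (Prod.mk.inj h2).1
      subst h3
      simp
    · rw [Function.update_of_ne h2]
      simp [h2]
  · rw [Function.update_of_ne h1]
    by_cases h2 : e = (a, j)
    · subst h2
      rw [Function.update_self]
      simp only [h1, if_true, if_false]
      ring
    · rw [Function.update_of_ne h2]
      simp [h1, h2]

theorem st_upd_back (X : Tab m n) (j : Fin n) (a b : Fin m) :
    Function.update (Function.update (mvt j a b X) (b, j) (mvt j a b X (b, j) + -1)) (a, j)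
      (Function.update (mvt j a b X) (b, j) (mvt j a b X (b, j) + -1) (a, j) + 1) = X := by
  rw [st_upd_mvt]
  funext e
  unfold mvt
  ring

theorem st_mvt_abs {X : Tab m n} {N : ℕ} (hX : ∀ e, 0 ≤ X e) (hXN : ∀ e, X e ≤ N) (j : Fin n) (a b : Fin m)
    (e : Fin m × Fin n) : -1 ≤ mvt j a b X e ∧ mvt j a b X e ≤ N + 1 := by
  have h1 := hX e
  have h2 := hXN e
  unfold mvt
  split_ifs <;> constructor <;> omega

/-- entries are bounded -/
theorem st_entry_le {R : ℕ → ℤ} {X : Tab m n} {N : ℕ} (hX : ∀ e, 0 ≤ X e) (hdev : dev R X ≤ 2)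
    (hR : ∀ i < m, R i ≤ N) (e : Fin m × Fin n) : X e ≤ ((N + 2 : ℕ) : ℤ) := by
  have h1 : X e ≤ rowSum X e.1 := by
    unfold rowSum
    have := Finset.single_le_sum (f := fun j => X (e.1, j)) (fun j _ => hX _) (Finset.mem_univ e.2)
    exact this
  have h2 : |rowSum X e.1 - R e.1| ≤ 2 := by
    refine le_trans ?_ hdev
    unfold dev
    exact Finset.single_le_sum (f := fun i : Fin m => |rowSum X i - R i|) (fun i _ => abs_nonneg _)
      (Finset.mem_univ e.1)
  have h3 := hR e.1 e.1.isLt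
  have h4 := (abs_le.mp h2).2
  push_cast
  linarith

theorem st_step_post {R : ℕ → ℤ} {X : Tab m n} (hX : ∀ e, 0 ≤ X e) (hdev : dev R X ≤ 2) (w : ℤ) (x y j : ℕ) :
    (∀ e, 0 ≤ step R w x y j X e) ∧ dev R (step R w x y j X) ≤ 2 := by
  unfold step
  split_ifs with h1 h2
  · refine ⟨fun e => ?_, h2.2.2⟩
    by_cases he : e = (⟨x, h1.1⟩, ⟨j, h1.2.2⟩)
    · rw [he]
      exact h2.2.1
    · unfold mvt
      rw [if_neg he]
      have := hX e
      split_ifs <;> omega
  · exact ⟨hX, hdev⟩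
  · exact ⟨hX, hdev⟩

/-- skip keeps the table -/
theorem st_skip_det {X : Tab m n} (h : tabOf m n 4 M = X) :
    Det W Λ skip M (fun M' => tabOf m n 4 M' = X) := by
  unfold skip asg
  refine Det.set (by simp [Expr.val]) ?_
  rw [← h]
  refine st_tab_congr ?_
  funext a b
  simp [Mem.write]

/-- cancel the trial move -/
theorem st_back_det {X : Tab m n} {a b : Fin m} {j : Fin n} (h12 : M 12 0 0 = ((a : ℕ) : ℤ))
    (h13 : M 13 0 0 = ((b : ℕ) : ℤ)) (h14 : M 14 0 0 = ((j : ℕ) : ℤ)) (hM : tabOf m n 4 M = mvt j a b X)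
    (hb1 : |mvt j a b X (b, j) + -1| ≤ (W : ℤ))
    (hb2 : |Function.update (mvt j a b X) (b, j) (mvt j a b X (b, j) + -1) (a, j) + 1| ≤ (W : ℤ)) :
    Det W Λ (.seq (addTo 4 (v 13) (v 14) (-1)) (addTo 4 (v 12) (v 14) 1)) M
      (fun M' => tabOf m n 4 M' = X) := by
  refine Det.seq (st_addTo_det (i := b) (j := j) h13 h14 (by rw [hM]; exact hb1)) ?_
  rintro M1 rfl
  have hM1 : tabOf m n 4 (M.write 4 ((b : ℕ) : ℤ) ((j : ℕ) : ℤ) (tabOf m n 4 M (b, j) + -1)) =
      Function.update (mvt j a b X) (b, j) (mvt j a b X (b, j) + -1) := by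
    rw [st_tab_write, hM]
  refine (st_addTo_det (i := a) (j := j) ?_ ?_ ?_).mono ?_
  · simpa [Mem.write] using h12
  · simpa [Mem.write] using h14
  · rw [hM1]
    exact hb2
  · rintro M' rfl
    rw [st_tab_write, hM1]
    exact st_upd_back X j a b

theorem st_tryC_det {N : ℕ} {a b : Fin m} {j : Fin n} (h12 : M 12 0 0 = ((a : ℕ) : ℤ))
    (h13 : M 13 0 0 = ((b : ℕ) : ℤ)) (h14 : M 14 0 0 = ((j : ℕ) : ℤ))
    (hm : M 0 0 0 = m) (hn : M 0 1 0 = n)
    (hX : ∀ e, 0 ≤ tabOf m n 4 M e) (hXN : ∀ e, tabOf m n 4 M e ≤ ((N + 2 : ℕ) : ℤ))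
    (hR : ∀ i < m, 0 ≤ M 5 i 0 ∧ M 5 i 0 ≤ N)
    (hW : (m + 1) * (n + 2) * (N + 10) ≤ W) (hmΛ : m ≤ Λ) (hnΛ : n ≤ Λ) :
    Det W Λ tryC M (fun M' => tabOf m n 4 M' =
      if 0 ≤ mvt j a b (tabOf m n 4 M) (a, j) ∧ dev (vecOf 5 M) (mvt j a b (tabOf m n 4 M)) ≤ 2 then
        mvt j a b (tabOf m n 4 M) else tabOf m n 4 M) := by
  set X := tabOf m n 4 M with hXdef
  have hWN : (N : ℤ) + 10 ≤ W := by
    have h1 : N + 10 ≤ (m + 1) * (n + 2) * (N + 10) := Nat.le_mul_of_pos_left _ (by positivity)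
    exact_mod_cast h1.trans hW
  have hmv : ∀ e, -1 ≤ mvt j a b X e ∧ mvt j a b X e ≤ N + 3 := by
    intro e
    have := st_mvt_abs hX hXN j a b e
    push_cast at this
    constructor
    · exact this.1
    · linarith [this.2]
  have hN0 : (0 : ℤ) ≤ N := Int.natCast_nonneg N
  unfold tryC
  -- first addTo
  refine Det.seq (st_addTo_det (i := a) (j := j) h12 h14 ?_) ?_
  · have h1 := hX (a, j)
    have h2 := hXN (a, j)
    push_cast at h2
    rw [abs_le]
    constructor <;> linarith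
  rintro M1 rfl
  have hM1 : tabOf m n 4 (M.write 4 ((a : ℕ) : ℤ) ((j : ℕ) : ℤ) (tabOf m n 4 M (a, j) + -1)) =
      Function.update X (a, j) (X (a, j) + -1) := by
    rw [st_tab_write]
  set M1 := M.write 4 ((a : ℕ) : ℤ) ((j : ℕ) : ℤ) (tabOf m n 4 M (a, j) + -1) with hM1def
  have hfr1 : ∀ k, k ≠ 4 → M1 k = M k := by
    intro k hk
    funext u w
    rw [hM1def]
    simp [Mem.write, hk]
  -- second addTo
  refine Det.seq (st_addTo_det (M := M1) (i := b) (j := j) ?_ ?_ ?_) ?_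
  · rw [hfr1 13 (by norm_num)]
    exact h13
  · rw [hfr1 14 (by norm_num)]
    exact h14
  · rw [hM1]
    have h1 : Function.update X (a, j) (X (a, j) + -1) (b, j) + 1 = mvt j a b X (b, j) := by
      rw [← st_upd_mvt, Function.update_self]
    rw [h1, abs_le]
    have := hmv (b, j)
    constructor <;> linarith [this.1, this.2]
  rintro M2 hM2def
  have hM2 : tabOf m n 4 M2 = mvt j a b X := by
    rw [hM2def, st_tab_write, hM1]
    exact st_upd_mvt X j a b
  have hfr2 : ∀ k, k ≠ 4 → M2 k = M k := by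
    intro k hk
    rw [← hfr1 k hk]
    funext u w
    rw [hM2def]
    simp [Mem.write, hk]
  -- the deviation
  have hdv := (devC_det (W := W) (Λ := Λ) (M := M2) (m := m) (n := n) (A := N + 3)
    (by rw [hfr2 0 (by norm_num)]; exact hm) (by rw [hfr2 0 (by norm_num)]; exact hn)
    (by
      intro e
      rw [hM2, abs_le]
      have := hmv e
      push_cast
      constructor <;> linarith [this.1, this.2])
    (by
      intro i hi
      rw [hfr2 5 (by norm_num), abs_le]
      have := hR i hi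
      push_cast
      constructor <;> linarith [this.1, this.2])
    (by
      refine le_trans ?_ hW
      exact Nat.mul_le_mul_left _ (by omega)) hmΛ hnΛ).fr
  refine Det.seq hdv ?_
  rintro M3 ⟨h10, hfr3⟩
  have hfr3' : ∀ k, k = 4 ∨ k = 12 ∨ k = 13 ∨ k = 14 → M3 k = M2 k := by
    intro k hk
    refine hfr3 k ?_
    simp only [devC, skip, asg, inc, Cmd.Wr, List.mem_append, List.mem_singleton, not_or]
    omega
  have hM3 : tabOf m n 4 M3 = mvt j a b X := by
    rw [st_tab_congr (hfr3' 4 (Or.inl rfl)), hM2]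
  have g12 : M3 12 0 0 = ((a : ℕ) : ℤ) := by
    rw [hfr3' 12 (by norm_num), hfr2 12 (by norm_num)]
    exact h12
  have g13 : M3 13 0 0 = ((b : ℕ) : ℤ) := by
    rw [hfr3' 13 (by norm_num), hfr2 13 (by norm_num)]
    exact h13
  have g14 : M3 14 0 0 = ((j : ℕ) : ℤ) := by
    rw [hfr3' 14 (by norm_num), hfr2 14 (by norm_num)]
    exact h14
  have g10 : M3 10 0 0 = dev (vecOf 5 M) (mvt j a b X) := by
    rw [h10, hM2, st_vec_congr (hfr2 5 (by norm_num))]
  have hback : Det W Λ (.seq (addTo 4 (v 13) (v 14) (-1)) (addTo 4 (v 12) (v 14) 1)) M3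
      (fun M' => tabOf m n 4 M' = X) := by
    refine st_back_det g12 g13 g14 hM3 ?_ ?_
    · have := hmv (b, j)
      rw [abs_le]
      constructor <;> linarith [this.1, this.2]
    · have h1 : Function.update (mvt j a b X) (b, j) (mvt j a b X (b, j) + -1) (a, j) + 1 = X (a, j) := by
        have := congrFun (st_upd_back X j a b) (a, j)
        rw [Function.update_self] at this
        exact this
      rw [h1, abs_le]
      have h2 := hX (a, j)
      have h3 := hXN (a, j)
      push_cast at h3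
      constructor <;> linarith
  have ev1 : (Expr.add (.get 4 (v 12) (v 14)) (.lit 1)).val M3 = mvt j a b X (a, j) + 1 := by
    show M3 4 (M3 12 0 0) (M3 14 0 0) + 1 = _
    rw [g12, g14]
    have : M3 4 ((a : ℕ) : ℤ) ((j : ℕ) : ℤ) = tabOf m n 4 M3 (a, j) := rfl
    rw [this, hM3]
  have ev2 : (Expr.sub (.lit 3) (v 10)).val M3 = 3 - dev (vecOf 5 M) (mvt j a b X) := by
    show 3 - M3 10 0 0 = _
    rw [g10]
  refine Det.ite (fun h => ?_) fun h => ?_
  · rw [ev1] at h
    refine Det.ite (fun h' => ?_) fun h' => ?_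
    · rw [ev2] at h'
      rw [if_pos ⟨by omega, by omega⟩]
      exact st_skip_det hM3
    · rw [ev2] at h'
      rw [if_neg (by rintro ⟨-, h2⟩; omega)]
      exact hback
  · rw [ev1] at h
    rw [if_neg (by rintro ⟨h2, -⟩; omega)]
    exact hback

/-- C4. One step of the chain. -/
theorem stepC_sim {B N : ℕ} (hm : M 0 0 0 = m) (hn : M 0 1 0 = n) (hB : M 16 0 0 = B)
    (hX : ∀ e, 0 ≤ tabOf m n 4 M e) (hdev : dev (vecOf 5 M) (tabOf m n 4 M) ≤ 2)
    (hR : ∀ i < m, 0 ≤ M 5 i 0 ∧ M 5 i 0 ≤ N)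
    (hW : (m + 1) * (n + 2) * (N + 10) ≤ W) (hWB : 2 ^ B ≤ W)
    (hmΛ : m ≤ Λ) (hnΛ : n ≤ Λ) (hBΛ : B ≤ Λ) :
    Sim W Λ stepC M (tabOf m n 4) (stepK (vecOf 5 M) B (tabOf m n 4 M))
      (fun M' => (∀ e, 0 ≤ tabOf m n 4 M' e) ∧ dev (vecOf 5 M) (tabOf m n 4 M') ≤ 2) := by
  have hW1 : 1 ≤ W := le_trans Nat.one_le_two_pow hWB
  unfold stepC stepK
  have hfl := (Sim.flip (Λ := Λ) (M := M) (a := 11) (f := fun M' => M' 11 0 0) hW1
    (Q := fun M' => M' 11 0 0 = 0 ∨ M' 11 0 0 = 1) (by left; simp [Mem.write]) (by right; simp [Mem.write])).fr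
  have hid : (coin.map fun z => (M.write 11 0 0 z) 11 0 0) = coin := by
    have : (fun z => (M.write 11 0 0 z) 11 0 0) = (id : ℤ → ℤ) := by
      funext z
      simp [Mem.write]
    rw [this, PMF.map_id]
  rw [hid] at hfl
  refine Sim.seq hfl ?_
  rintro M0 ⟨h11, hf0⟩
  have hf0' : ∀ a, a ≠ 11 → M0 a = M a := by
    intro a ha
    refine hf0 a ?_
    simp only [Cmd.Wr, List.mem_singleton]
    exact ha
  refine st_rand_seq (by norm_num) (by norm_num) (by rw [hf0' 16 (by norm_num)]; exact hB) hWB hBΛ ?_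
  intro x _ M1 h12 hf1
  refine st_rand_seq (by norm_num) (by norm_num)
    (by rw [hf1 16 (by norm_num) (by norm_num), hf0' 16 (by norm_num)]; exact hB) hWB hBΛ ?_
  intro y _ M2 h13 hf2
  refine st_rand_seq (by norm_num) (by norm_num)
    (by rw [hf2 16 (by norm_num) (by norm_num), hf1 16 (by norm_num) (by norm_num),
          hf0' 16 (by norm_num)]; exact hB) hWB hBΛ ?_
  intro jj _ M3 h14 hf3
  have hfr : ∀ a, a ≠ 11 → a ≠ 12 → a ≠ 13 → a ≠ 14 → a ≠ 15 → M3 a = M a := by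
    intro a a1 a2 a3 a4 a5
    rw [hf3 a a4 a5, hf2 a a3 a5, hf1 a a2 a5, hf0' a a1]
  have k0 : M3 0 = M 0 := hfr 0 (by norm_num) (by norm_num) (by norm_num) (by norm_num) (by norm_num)
  have k4 : M3 4 = M 4 := hfr 4 (by norm_num) (by norm_num) (by norm_num) (by norm_num) (by norm_num)
  have k5 : M3 5 = M 5 := hfr 5 (by norm_num) (by norm_num) (by norm_num) (by norm_num) (by norm_num)
  have k11 : M3 11 0 0 = M0 11 0 0 := by
    rw [hf3 11 (by norm_num) (by norm_num), hf2 11 (by norm_num) (by norm_num),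
      hf1 11 (by norm_num) (by norm_num)]
  have k12 : M3 12 0 0 = (x : ℤ) := by
    rw [hf3 12 (by norm_num) (by norm_num), hf2 12 (by norm_num) (by norm_num)]
    exact h12
  have k13 : M3 13 0 0 = (y : ℤ) := by
    rw [hf3 13 (by norm_num) (by norm_num)]
    exact h13
  have hT : tabOf m n 4 M3 = tabOf m n 4 M := st_tab_congr k4
  have hV : vecOf 5 M3 = vecOf 5 M := st_vec_congr k5
  have hXN := st_entry_le (N := N) hX hdev (fun i hi => (hR i hi).2)
  -- deterministic rest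
  have hdet : Det W Λ (.ite (v 11) (.ite (.sub P.m (v 12)) (.ite (.sub P.m (v 13)) (.ite (.sub P.n (v 14))
      tryC skip) skip) skip) skip) M3 (fun M' => tabOf m n 4 M' =
        step (vecOf 5 M) (M0 11 0 0) x y jj (tabOf m n 4 M)) := by
    have ev11 : (v 11).val M3 = M0 11 0 0 := k11
    have ev12 : (Expr.sub P.m (v 12)).val M3 = (m : ℤ) - x := by
      show M3 0 0 0 - M3 12 0 0 = _
      rw [k0, hm, k12]
    have ev13 : (Expr.sub P.m (v 13)).val M3 = (m : ℤ) - y := by
      show M3 0 0 0 - M3 13 0 0 = _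
      rw [k0, hm, k13]
    have ev14 : (Expr.sub P.n (v 14)).val M3 = (n : ℤ) - jj := by
      show M3 0 1 0 - M3 14 0 0 = _
      rw [k0, hn, h14]
    refine Det.ite (fun h => ?_) fun h => ?_
    · rw [ev11] at h
      have hw : M0 11 0 0 = 1 := by
        rcases h11 with h' | h'
        · omega
        · exact h'
      rw [hw]
      refine Det.ite (fun hx => ?_) fun hx => ?_
      · rw [ev12] at hx
        have hx' : x < m := by omega
        refine Det.ite (fun hy => ?_) fun hy => ?_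
        · rw [ev13] at hy
          have hy' : y < m := by omega
          refine Det.ite (fun hj => ?_) fun hj => ?_
          · rw [ev14] at hj
            have hj' : jj < n := by omega
            have htry := st_tryC_det (W := W) (Λ := Λ) (M := M3) (N := N) (a := ⟨x, hx'⟩) (b := ⟨y, hy'⟩)
              (j := ⟨jj, hj'⟩) k12 k13 h14 (by rw [k0]; exact hm) (by rw [k0]; exact hn)
              (by rw [hT]; exact hX) (by rw [hT]; exact hXN) (by rw [k5]; exact hR) hW hmΛ hnΛ
            refine htry.mono ?_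
            intro M' hM'
            rw [hM', hT, hV]
            unfold step
            rw [dif_pos ⟨hx', hy', hj'⟩]
            by_cases hc : 0 ≤ mvt ⟨jj, hj'⟩ ⟨x, hx'⟩ ⟨y, hy'⟩ (tabOf m n 4 M) (⟨x, hx'⟩, ⟨jj, hj'⟩) ∧
                dev (vecOf 5 M) (mvt ⟨jj, hj'⟩ ⟨x, hx'⟩ ⟨y, hy'⟩ (tabOf m n 4 M)) ≤ 2
            · rw [if_pos hc, if_pos ⟨rfl, hc.1, hc.2⟩]
            · rw [if_neg hc, if_neg (fun h2 => hc ⟨h2.2.1, h2.2.2⟩)]
          · rw [ev14] at hj
            refine st_skip_det ?_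
            unfold step
            rw [dif_neg (by rintro ⟨-, -, h3⟩; omega), hT]
        · rw [ev13] at hy
          refine st_skip_det ?_
          unfold step
          rw [dif_neg (by rintro ⟨-, h3, -⟩; omega), hT]
      · rw [ev12] at hx
        refine st_skip_det ?_
        unfold step
        rw [dif_neg (by rintro ⟨h3, -, -⟩; omega), hT]
    · rw [ev11] at h
      have hw : M0 11 0 0 = 0 := by
        rcases h11 with h' | h'
        · exact h'
        · omega
      rw [hw]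
      refine st_skip_det ?_
      rw [hT]
      unfold step
      split_ifs with h1 h2
      · exact absurd h2.1 (by norm_num)
      · rfl
      · rfl
  have hsim := hdet.sim (f := tabOf m n 4) (x := step (vecOf 5 M) (M0 11 0 0) x y jj (tabOf m n 4 M))
    (fun M' h => h)
  refine hsim.mono ?_
  intro M' hM'
  rw [hM']
  exact st_step_post hX hdev _ _ _ _

end Vale.Agent.P328RAM
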