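import Vale.Agent.P328RAM.Lang

/-!
# Contingency tables, and what a fully polynomial randomized approximation scheme is

The programs are those of `Lang.lean`, with their logarithmic (bit) running time.
-/

namespace Vale.Agent.P328RAM

/-- `Ω(r, c)`: the set of contingency tables with row sums `r` and column sums `c`. -/
def tables {m n : ℕ} (r : Fin m → ℕ) (c : Fin n → ℕ) : Set (Fin m → Fin n → ℕ) :=
  {X | (∀ i, ∑ j, X i j = r i) ∧ ∀ j, ∑ i, X i j = c j}

/-- The length `L` of the input: the margins are written in binary. -/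
noncomputable def inputLen {m n : ℕ} (r : Fin m → ℕ) (c : Fin n → ℕ) : ℝ :=
  m + n + ∑ i, Real.logb 2 (r i + 2) + ∑ j, Real.logb 2 (c j + 2)

/-- The initial memory: array `0` contains (in column `0`) the numbers `m`, `n`, `a`, `b`, array
`1` the row sums `r` and array `2` the column sums `c`; all other cells are `0`. -/
def input {m n : ℕ} (r : Fin m → ℕ) (c : Fin n → ℕ) (a b : ℕ) : Mem := fun k i j =>
  if j = 0 ∧ 0 ≤ i then
    if k = 0 then
      if i = 0 then m else if i = 1 then n else if i = 2 then a else if i = 3 then b else 0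
    else if k = 1 then (if h : i.toNat < m then (r ⟨i.toNat, h⟩ : ℤ) else 0)
    else if k = 2 then (if h : i.toNat < n then (c ⟨i.toNat, h⟩ : ℤ) else 0)
    else 0
  else 0

/-- The output: a rational number, whose numerator and denominator are the cells `(0, 0)` and
`(1, 0)` of the array `3`. -/
noncomputable def output (M : Mem) : ℝ := (M 3 0 0 : ℝ) / (M 3 1 0 : ℝ)

/-- The program `prog` is a fully polynomial randomized approximation scheme for the number of
contingency tables: for some `k` and all margins `r`, `c` and all accuracies `ε`, `δ` (given to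
the program as the integers `⌈1/ε⌉`, `⌈1/δ⌉`), it always runs in time at most
`k * (L + 1/ε + log (1/δ)) ^ k`, and its output is, with probability at least `1 - δ`, within the
factors `1 ± ε` of the number of tables. -/
def IsFPRAS (prog : Cmd) : Prop :=
  ∃ k : ℕ, ∀ (m n : ℕ) (r : Fin m → ℕ) (c : Fin n → ℕ), 1 ≤ m → 1 ≤ n →
    ∑ i, r i = ∑ j, c j → ∀ ε δ : ℝ, 0 < ε → ε < 1 → 0 < δ → δ < 1 →
      (∀ s ∈ (prog.run (input r c ⌈1 / ε⌉₊ ⌈1 / δ⌉₊, 0)).support,
        (s.2 : ℝ) ≤ k * (inputLen r c + 1 / ε + Real.log (1 / δ)) ^ k) ∧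
      ENNReal.ofReal (1 - δ) ≤
        (prog.run (input r c ⌈1 / ε⌉₊ ⌈1 / δ⌉₊, 0)).toOuterMeasure
          {s | (1 - ε) * (tables r c).ncard ≤ output s.1 ∧
            output s.1 ≤ (1 + ε) * (tables r c).ncard}

end Vale.Agent.P328RAM
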